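import Vale.Agent.P250.Spec

/-! Calculus in one chart. -/

open scoped ContDiff Topology
open Set Filter

namespace Vale.Agent.P250

namespace Aa

variable {G : E → Bil} {Ω : Set E} {Γ : E → E →L[ℝ] E →L[ℝ] E} {y : E}

theorem fd2 {F : Type} [NormedAddCommGroup F] [NormedSpace ℝ F] {T : E → E →L[ℝ] E →L[ℝ] F}
    (h : DifferentiableAt ℝ T y) (u v x : E) :
    fderiv ℝ (fun z => T z u v) y x = fderiv ℝ T y x u v := by
  have h1 := (h.hasFDerivAt.clm_apply (hasFDerivAt_const u y)).clm_apply (hasFDerivAt_const v y)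
  rw [h1.fderiv]
  simp

theorem cm_at (h : CM G Ω) (hy : y ∈ Ω) : ContDiffAt ℝ ∞ G y :=
  h.smooth.contDiffAt (h.isOpen.mem_nhds hy)

theorem cm_diff (h : CM G Ω) (hy : y ∈ Ω) : DifferentiableAt ℝ G y :=
  (cm_at h hy).differentiableAt (by simp)

theorem gam_diff (h : CM G Ω) (hΓ : IsGam G Ω Γ) (hy : y ∈ Ω) : DifferentiableAt ℝ Γ y :=
  (hΓ.smooth.contDiffAt (h.isOpen.mem_nhds hy)).differentiableAt (by simp)

theorem dg_smooth (h : CM G Ω) (x u v : E) :
    ContDiffOn ℝ ∞ (fun z => fderiv ℝ G z x u v) Ω :=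
  (((h.smooth.fderiv_of_isOpen (m := ∞) h.isOpen (by simp)).clm_apply contDiffOn_const).clm_apply
    contDiffOn_const).clm_apply contDiffOn_const

theorem dg_diff (h : CM G Ω) (hy : y ∈ Ω) (x u v : E) :
    DifferentiableAt ℝ (fun z => fderiv ℝ G z x u v) y :=
  ((dg_smooth h x u v).contDiffAt (h.isOpen.mem_nhds hy)).differentiableAt (by simp)

theorem dg_symm (h : CM G Ω) (hy : y ∈ Ω) (x u v : E) :
    fderiv ℝ G y x u v = fderiv ℝ G y x v u := by
  rw [← fd2 (cm_diff h hy), ← fd2 (cm_diff h hy)]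
  have : (fun z => G z u v) =ᶠ[𝓝 y] fun z => G z v u :=
    (eventually_mem_set.2 (h.isOpen.mem_nhds hy)).mono fun z hz => h.symm z hz u v
  rw [this.fderiv_eq]

theorem ddg_symm (h : CM G Ω) (hy : y ∈ Ω) (a b u v : E) :
    fderiv ℝ (fun z => fderiv ℝ G z a u v) y b = fderiv ℝ (fun z => fderiv ℝ G z b u v) y a := by
  have h1 : ContDiffAt ℝ ∞ (fun z => G z u v) y :=
    ((cm_at h hy).clm_apply contDiffAt_const).clm_apply contDiffAt_const
  have h2 : DifferentiableAt ℝ (fderiv ℝ fun z => G z u v) y :=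
    (h1.fderiv_right (m := 1) (by norm_cast)).differentiableAt one_ne_zero
  have key : ∀ a b, fderiv ℝ (fun z => fderiv ℝ G z a u v) y b =
      fderiv ℝ (fderiv ℝ fun z => G z u v) y b a := fun a b => by
    have : (fun z => fderiv ℝ G z a u v) =ᶠ[𝓝 y] fun z => fderiv ℝ (fun z => G z u v) z a :=
      (eventually_mem_set.2 (h.isOpen.mem_nhds hy)).mono fun z hz => (fd2 (cm_diff h hz) ..).symm
    rw [this.fderiv_eq, (h2.hasFDerivAt.clm_apply (hasFDerivAt_const a y)).fderiv]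
    simp
  rw [key, key]
  exact (h1.isSymmSndFDerivAt (by simp; norm_cast)).eq b a

theorem nondeg (h : CM G Ω) (hy : y ∈ Ω) {a b : E} (e : ∀ w, G y a w = G y b w) : a = b := by
  by_contra hne
  have := h.pos y hy (a - b) (sub_ne_zero.2 hne)
  rw [(G y).map_sub, sub_apply, e, sub_self] at this
  exact lt_irrefl _ this

theorem inv (h : CM G Ω) (hy : y ∈ Ω) : (G y).IsInvertible := by
  have h1 : Function.Injective (G y : E →ₗ[ℝ] E →L[ℝ] ℝ) := fun a b e =>
    nondeg h hy fun w => congrArg (fun f : E →L[ℝ] ℝ => f w) e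
  have h2 : Module.finrank ℝ E = Module.finrank ℝ (E →L[ℝ] ℝ) := by
    rw [← (LinearMap.toContinuousLinearMap : (E →ₗ[ℝ] ℝ) ≃ₗ[ℝ] _).finrank_eq]
    exact Subspace.dual_finrank_eq.symm
  exact ⟨(LinearMap.linearEquivOfInjective _ h1 h2).toContinuousLinearEquiv, ContinuousLinearMap.ext fun _ => rfl⟩

/-- The symbols of the first kind. -/
noncomputable def kz (T : E →L[ℝ] Bil) (u : E) : Bil :=
  (1 / 2 : ℝ) • (T u + T.flip u - (T.flip u).flip)

theorem kz_apply (T : E →L[ℝ] Bil) (u v w : E) :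
    kz T u v w = (T u v w + T v u w - T w u v) / 2 := by
  simp [kz]; ring

theorem gam (G : E → Bil) (Ω : Set E) (h : CM G Ω) : ∃ Γ, IsGam G Ω Γ := by
  let Γ : E → E →L[ℝ] E →L[ℝ] E := fun y => LinearMap.toContinuousLinearMap
    { toFun := fun u => (G y).inverse.comp (kz (fderiv ℝ G y) u)
      map_add' := fun u u' => by
        rw [← ContinuousLinearMap.comp_add]
        congr 1
        refine ContinuousLinearMap.ext fun v => ContinuousLinearMap.ext fun w => ?_
        simp only [kz_apply, map_add, add_apply]; ring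
      map_smul' := fun a u => by
        rw [RingHom.id_apply, ← ContinuousLinearMap.comp_smul]
        congr 1
        refine ContinuousLinearMap.ext fun v => ContinuousLinearMap.ext fun w => ?_
        simp only [kz_apply, map_smul, smul_apply, smul_eq_mul]; ring }
  have e : ∀ y u v, Γ y u v = (G y).inverse (kz (fderiv ℝ G y) u v) := fun _ _ _ => rfl
  have low : ∀ y ∈ Ω, ∀ u v w, G y (Γ y u v) w =
      (fderiv ℝ G y u v w + fderiv ℝ G y v u w - fderiv ℝ G y w u v) / 2 := fun y hy u v w => by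
    rw [e, (inv h hy).self_apply_inverse, kz_apply]
  refine ⟨Γ, ?_, fun y hy u v => ?_, fun y hy u v => nondeg h hy fun w => ?_, low⟩
  · refine contDiffOn_clm_apply.2 fun u => contDiffOn_clm_apply.2 fun v => ?_
    simp only [e]
    refine ContDiffOn.clm_apply (fun y hy => ((inv h hy).contDiffAt_map_inverse.comp y
      (cm_at h hy)).contDiffWithinAt) (contDiffOn_clm_apply.2 fun w => ?_)
    simp only [kz_apply]
    exact (((dg_smooth h u v w).add (dg_smooth h v u w)).sub (dg_smooth h w u v)).div_const _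
  · have k : ∀ w, G y (Γ y u v) w = koszul G y u v w := fun w => by
      simp only [koszul, fd2 (cm_diff h hy), low y hy]
    exact nondeg h hy fun w => (Classical.epsilon_spec
      (p := fun x => ∀ w, G y x w = koszul G y u v w) ⟨_, k⟩ w).trans (k w).symm
  · rw [low y hy, low y hy, dg_symm h hy w u v, add_comm]

theorem cmp (h : CM G Ω) (hΓ : IsGam G Ω Γ) (hy : y ∈ Ω) (x u v : E) :
    fderiv ℝ G y x u v = G y (Γ y x u) v + G y u (Γ y x v) := by
  rw [h.symm y hy u, hΓ.low y hy, hΓ.low y hy, dg_symm h hy x v u]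
  ring

theorem along {F : Type} [NormedAddCommGroup F] [NormedSpace ℝ F]
    {T : E → E →L[ℝ] E →L[ℝ] F} {c j k : ℝ → E} {s : ℝ} (h : DifferentiableAt ℝ T (c s))
    (hc : DifferentiableAt ℝ c s) (hj : DifferentiableAt ℝ j s) (hk : DifferentiableAt ℝ k s) :
    HasDerivAt (fun r => T (c r) (j r) (k r)) (fderiv ℝ T (c s) (deriv c s) (j s) (k s) +
      T (c s) (deriv j s) (k s) + T (c s) (j s) (deriv k s)) s := by
  have h1 : HasDerivAt (fun r => T (c r)) (fderiv ℝ T (c s) (deriv c s)) s :=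
    HasFDerivAt.comp_hasDerivAt (l := T) s h.hasFDerivAt hc.hasDerivAt
  have h2 := h1.clm_apply hj.hasDerivAt
  have h3 := h2.clm_apply hk.hasDerivAt
  rwa [add_apply] at h3

theorem riem_eq (h : CM G Ω) (hΓ : IsGam G Ω Γ) (hy : y ∈ Ω) (u v w : E) :
    riem G y u v w = fderiv ℝ Γ y u v w - fderiv ℝ Γ y v u w + Γ y u (Γ y v w) -
      Γ y v (Γ y u w) := by
  have key : ∀ u v, fderiv ℝ (fun z => chr G z v w) y u = fderiv ℝ Γ y u v w := fun u v => by
    have : (fun z => chr G z v w) =ᶠ[𝓝 y] fun z => Γ z v w :=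
      (eventually_mem_set.2 (h.isOpen.mem_nhds hy)).mono fun z hz => hΓ.eq z hz v w
    rw [this.fderiv_eq, fd2 (gam_diff h hΓ hy)]
  simp only [riem, key, hΓ.eq y hy]

theorem dlow (h : CM G Ω) (hΓ : IsGam G Ω Γ) (hy : y ∈ Ω) (x u v w : E) :
    fderiv ℝ G y x (Γ y u v) w + G y (fderiv ℝ Γ y x u v) w =
      (fderiv ℝ (fun z => fderiv ℝ G z u v w) y x + fderiv ℝ (fun z => fderiv ℝ G z v u w) y x -
        fderiv ℝ (fun z => fderiv ℝ G z w u v) y x) / 2 := by
  have e : (fun z => G z (Γ z u v) w) =ᶠ[𝓝 y] fun z =>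
      (1 / 2 : ℝ) * (fderiv ℝ G z u v w + fderiv ℝ G z v u w - fderiv ℝ G z w u v) :=
    (eventually_mem_set.2 (h.isOpen.mem_nhds hy)).mono fun z hz => by
      simp only [hΓ.low z hz]; ring
  have h1 := ((cm_diff h hy).hasFDerivAt.clm_apply (((gam_diff h hΓ hy).hasFDerivAt.clm_apply
    (hasFDerivAt_const u y)).clm_apply (hasFDerivAt_const v y))).clm_apply (hasFDerivAt_const w y)
  have h2 := ((((dg_diff h hy u v w).hasFDerivAt.add (dg_diff h hy v u w).hasFDerivAt).sub
    (dg_diff h hy w u v).hasFDerivAt).const_mul (1 / 2 : ℝ)).congr_of_eventuallyEq e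
  have h3 := congrArg (fun f : E →L[ℝ] ℝ => f x) (h1.unique h2)
  simp at h3
  linarith

theorem skew (h : CM G Ω) (hy : y ∈ Ω) (u v w : E) : G y (riem G y u v w) w = 0 := by
  obtain ⟨Γ, hΓ⟩ := gam G Ω h
  have key : ∀ u v, fderiv ℝ (fun z => fderiv ℝ G z u w w) y v / 2 =
      G y (Γ y v (Γ y u w)) w + G y (Γ y u w) (Γ y v w) + G y (fderiv ℝ Γ y v u w) w := by
    intro u v
    rw [← cmp h hΓ hy, dlow h hΓ hy]
    ring
  have k1 := key u v
  have k2 := key v u
  rw [ddg_symm h hy, k2, h.symm y hy (Γ y u w)] at k1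
  simp only [riem_eq h hΓ hy, map_add, map_sub, add_apply,
    sub_apply]
  linarith

theorem geo_eq (hΓ : IsGam G Ω Γ) {c : ℝ → E} {s : ℝ} (hs : c s ∈ Ω) (hg : GeoAt G c s) :
    deriv (deriv c) s = -Γ (c s) (deriv c s) (deriv c s) := by
  have := hg.2.2
  rw [hΓ.eq _ hs] at this
  exact eq_neg_of_add_eq_zero_left this

theorem dgam_symm (h : CM G Ω) (hΓ : IsGam G Ω Γ) (hy : y ∈ Ω) (x u v : E) :
    fderiv ℝ Γ y x u v = fderiv ℝ Γ y x v u := by
  rw [← fd2 (gam_diff h hΓ hy), ← fd2 (gam_diff h hΓ hy)]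
  have : (fun z => Γ z u v) =ᶠ[𝓝 y] fun z => Γ z v u :=
    (eventually_mem_set.2 (h.isOpen.mem_nhds hy)).mono fun z hz => hΓ.symm z hz u v
  rw [this.fderiv_eq]

end Aa

end Vale.Agent.P250
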