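import Vale.Agent.P250.A0

/-! Module C: completeness from an exhaustion with bounded gradient. -/

open scoped ContDiff Topology Manifold NNReal
open Set Filter Metric

namespace Vale.Agent.P250

namespace Cx

section ode
variable {X : Type} [NormedAddCommGroup X] [NormedSpace ℝ X] [FiniteDimensional ℝ X]
  {F : X → X} {U : Set X}

theorem cut (hU : IsOpen U) (hF : ContDiffOn ℝ ∞ F U) {K : Set X} (hK : IsCompact K)
    (hKU : K ⊆ U) : ∃ (χ : X → ℝ) (L B : ℝ≥0), LipschitzWith L (fun x => χ x • F x) ∧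
      (∀ x, ‖χ x • F x‖ ≤ B) ∧ (∀ x, |χ x| ≤ 1) ∧ (∀ x ∈ K, χ x = 1) ∧ ∀ x ∉ U, χ x = 0 := by
  obtain ⟨K', k1, k2, k3⟩ := exists_compact_between hK hU hKU
  obtain ⟨χ, c1, c2, c3⟩ := exists_contMDiffMap_one_nhds_of_subset_interior (n := ⊤) 𝓘(ℝ, X)
    hK.isClosed k2
  have c0 : ContDiff ℝ ∞ χ := χ.contMDiff.contDiff
  have hG : ContDiff ℝ ∞ fun x => χ x • F x := contDiff_iff_contDiffAt.2 fun x => by
    by_cases hx : x ∈ K'
    · exact c0.contDiffAt.smul (hF.contDiffAt (hU.mem_nhds (k3 hx)))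
    · refine (contDiffAt_const (c := 0)).congr_of_eventuallyEq ?_
      filter_upwards [k1.isClosed.isOpen_compl.mem_nhds hx] with y hy
      rw [c2 y hy, zero_smul]
  have hs : HasCompactSupport fun x => χ x • F x :=
    HasCompactSupport.intro k1 fun x hx => by rw [c2 x hx, zero_smul]
  obtain ⟨L, hL⟩ := hG.lipschitzWith_of_hasCompactSupport hs (by simp)
  obtain ⟨B, hB⟩ := hs.exists_bound_of_continuous hG.continuous
  exact ⟨χ, L, ⟨B, (norm_nonneg _).trans (hB 0)⟩, hL, hB,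
    fun x => abs_le.2 ⟨by linarith [(c3 x).1], (c3 x).2⟩, fun x hx => c1.self_of_nhdsSet x hx,
    fun x hx => c2 x fun h => hx (k3 h)⟩

theorem glob (hU : IsOpen U) (hF : ContDiffOn ℝ ∞ F U) {z₀ : X} (hz : z₀ ∈ U)
    (ap : ∀ T : ℝ, ∃ K, IsCompact K ∧ K ⊆ U ∧ ∀ (z : ℝ → X) (a : ℝ → ℝ), z 0 = z₀ →
      (∀ r ∈ Ioo (-T) T, z r ∈ U ∧ |a r| ≤ 1 ∧ HasDerivAt z (a r • F (z r)) r) →
      ∀ r ∈ Ioo (-T) T, z r ∈ K) :
    ∃ z : ℝ → X, z 0 = z₀ ∧ ∀ r, z r ∈ U ∧ HasDerivAt z (F (z r)) r := by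
  have := FiniteDimensional.complete ℝ X
  have ex : ∀ T : ℝ, 0 < T → ∃ z : ℝ → X, z 0 = z₀ ∧
      ∀ r ∈ Ioo (-T) T, z r ∈ U ∧ HasDerivAt z (F (z r)) r := by
    intro T hT
    obtain ⟨K, k1, k2, k3⟩ := ap T
    obtain ⟨χ, L, B, c1, c2, c3, c4, c5⟩ := cut hU hF k1 k2
    have hp : IsPicardLindelof (fun _ x => χ x • F x) (tmin := -T) (tmax := T)
        ⟨0, by linarith, hT.le⟩ z₀ (B * T.toNNReal) 0 B L :=
      ⟨fun _ _ => c1.lipschitzOnWith, fun _ _ => continuousOn_const, fun _ _ x _ => c2 x,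
        by simp [hT.le]⟩
    obtain ⟨z, z0, z1⟩ := hp.exists_eq_forall_mem_Icc_hasDerivWithinAt₀
    have z2 : ∀ r ∈ Ioo (-T) T, HasDerivAt z (χ (z r) • F (z r)) r := fun r hr =>
      (z1 r (Ioo_subset_Icc_self hr)).hasDerivAt (Icc_mem_nhds hr.1 hr.2)
    have z3 : ∀ r ∈ Ioo (-T) T, z r ∈ U := fun r hr => by
      by_contra h
      have := ODE_solution_unique_of_mem_Ioo (v := fun _ x => χ x • F x) (s := fun _ => univ)
        (fun _ _ => c1.lipschitzOnWith) hr (fun t ht => ⟨z2 t ht, trivial⟩) (g := fun _ => z r)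
        (fun t _ => ⟨by rw [c5 _ h, zero_smul]; exact hasDerivAt_const _ _, trivial⟩) rfl
        (show (0 : ℝ) ∈ Ioo (-T) T from ⟨by linarith, hT⟩)
      exact h ((show z r = z₀ from this.symm.trans z0) ▸ hz)
    refine ⟨z, z0, fun r hr => ⟨z3 r hr, ?_⟩⟩
    have := z2 r hr
    rwa [c4 _ (k3 z (fun t => χ (z t)) z0 (fun t ht => ⟨z3 t ht, c3 _, z2 t ht⟩) r hr),
      one_smul] at this
  have un : ∀ (T : ℝ) (z z' : ℝ → X), 0 < T → z 0 = z₀ → z' 0 = z₀ →
      (∀ r ∈ Ioo (-T) T, z r ∈ U ∧ HasDerivAt z (F (z r)) r) →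
      (∀ r ∈ Ioo (-T) T, z' r ∈ U ∧ HasDerivAt z' (F (z' r)) r) → EqOn z z' (Ioo (-T) T) := by
    intro T z z' hT a0 b0 a1 b1
    obtain ⟨K, k1, k2, k3⟩ := ap T
    obtain ⟨χ, L, B, c1, -, -, c4, -⟩ := cut hU hF k1 k2
    have key : ∀ y : ℝ → X, y 0 = z₀ → (∀ r ∈ Ioo (-T) T, y r ∈ U ∧ HasDerivAt y (F (y r)) r) →
        ∀ r ∈ Ioo (-T) T, HasDerivAt y (χ (y r) • F (y r)) r ∧ y r ∈ univ := fun y y0 y1 r hr => by
      rw [c4 _ (k3 y (fun _ => 1) y0 (fun t ht => ⟨(y1 t ht).1, by simp, by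
        simpa using (y1 t ht).2⟩) r hr), one_smul]
      exact ⟨(y1 r hr).2, trivial⟩
    exact ODE_solution_unique_of_mem_Ioo (v := fun _ x => χ x • F x) (s := fun _ => univ)
      (fun _ _ => c1.lipschitzOnWith) (show (0 : ℝ) ∈ Ioo (-T) T from ⟨by linarith, hT⟩)
      (key z a0 a1) (key z' b0 b1) (a0.trans b0.symm)
  choose γ c1 c2 using fun s : ℝ => ex (|s| + 1) (by positivity)
  have e : ∀ s, (fun r => γ r r) =ᶠ[𝓝 s] γ s := fun s => by
    filter_upwards [(continuous_abs.tendsto s).eventually (gt_mem_nhds (lt_add_one |s|))]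
      with r hr
    exact un (min (|r| + 1) (|s| + 1)) _ _ (by positivity) (c1 r) (c1 s)
      (fun x hx => c2 r x (Ioo_subset_Ioo (neg_le_neg (min_le_left _ _)) (min_le_left _ _) hx))
      (fun x hx => c2 s x (Ioo_subset_Ioo (neg_le_neg (min_le_right _ _)) (min_le_right _ _) hx))
      (abs_lt.1 (lt_min (lt_add_one |r|) hr))
  exact ⟨fun r => γ r r, c1 0, fun s => ⟨(c2 s s (abs_lt.1 (lt_add_one |s|))).1,
    (c2 s s (abs_lt.1 (lt_add_one |s|))).2.congr_of_eventuallyEq (e s)⟩⟩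

end ode

theorem dfst {z : ℝ → E × E} {w : E × E} {s : ℝ} (h : HasDerivAt z w s) :
    HasDerivAt (fun r => (z r).1) w.1 s :=
  (ContinuousLinearMap.fst ℝ E E).hasFDerivAt.comp_hasDerivAt s h

theorem dsnd {z : ℝ → E × E} {w : E × E} {s : ℝ} (h : HasDerivAt z w s) :
    HasDerivAt (fun r => (z r).2) w.2 s :=
  (ContinuousLinearMap.snd ℝ E E).hasFDerivAt.comp_hasDerivAt s h

theorem coer {g : E → Bil} {Ω K : Set E} (cm : CM g Ω) (hK : IsCompact K) (hKΩ : K ⊆ Ω) (R : ℝ) :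
    ∃ ρ, ∀ y ∈ K, ∀ u, g y u u ≤ R → ‖u‖ ≤ ρ := by
  obtain ⟨lam, l1, l2⟩ := (hK.prod (isCompact_sphere (0 : E) 1)).exists_forall_le'
    (f := fun z : E × E => g z.1 z.2 z.2) (a := 0)
    (((cm.smooth.continuousOn.comp continuousOn_fst fun z hz => hKΩ hz.1).clm_apply
      continuousOn_snd).clm_apply continuousOn_snd) fun z hz => cm.pos _ (hKΩ hz.1) _ (by
        rintro h0
        simpa [h0] using hz.2)
  refine ⟨|R| / lam + 1, fun y hy u hu => ?_⟩
  by_contra h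
  rw [not_le] at h
  have h3 := div_nonneg (abs_nonneg R) l1.le
  have h1 : 0 < ‖u‖ := by linarith
  have := l2 (y, ‖u‖⁻¹ • u) ⟨hy, by simp [norm_smul, h1.ne']⟩
  simp only [map_smul, smul_apply, smul_eq_mul] at this
  rw [← mul_assoc, ← mul_inv, inv_mul_eq_div, le_div_iff₀ (mul_pos h1 h1)] at this
  have h4 : |R| < lam * ‖u‖ := by
    rw [mul_comm, ← div_lt_iff₀ l1]
    linarith
  nlinarith [mul_pos l1 h1, le_abs_self R]

end Cx

open Cx Aa in
theorem cStmt : CStmt := by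
  intro g Ω e K cm ⟨e1, e2, e3⟩ p hp v
  obtain ⟨Γ, hΓ⟩ := gam g Ω cm
  obtain ⟨z, z0, z1⟩ := glob (F := fun z : E × E => (z.2, -Γ z.1 z.2 z.2)) (z₀ := (p, v))
    (cm.isOpen.prod isOpen_univ) (contDiffOn_snd.prodMk (((hΓ.smooth.comp contDiffOn_fst
      fun _ hz => hz.1).clm_apply contDiffOn_snd).clm_apply contDiffOn_snd).neg) ⟨hp, trivial⟩
    fun T => by
      have k := e2 (e p + √(K * g p v v) * T)
      obtain ⟨ρ, hρ⟩ := coer cm k (fun _ h => h.1) (g p v v)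
      refine ⟨_, k.prod (isCompact_closedBall 0 ρ), fun _ h => ⟨h.1.1, trivial⟩,
        fun z a z0 hz r hr => ?_⟩
      have i0 : (0 : ℝ) ∈ Ioo (-T) T := ⟨by linarith [hr.1, hr.2], by linarith [hr.1, hr.2]⟩
      have d1 : ∀ t ∈ Ioo (-T) T, HasDerivAt (fun t => g (z t).1 (z t).2 (z t).2) 0 t := by
        intro t ht
        obtain ⟨⟨h1, -⟩, -, h2⟩ := hz t ht
        have := along (cm_diff cm h1) (c := fun t => (z t).1) (dfst h2).differentiableAt
          (dsnd h2).differentiableAt (dsnd h2).differentiableAt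
        rw [(dfst h2).deriv, (dsnd h2).deriv, cmp cm hΓ h1] at this
        refine this.congr_deriv ?_
        simp only [Prod.smul_fst, Prod.smul_snd, map_smul, map_neg, smul_apply, neg_apply,
          smul_eq_mul]
        ring
      have d2 : ∀ t ∈ Ioo (-T) T, g (z t).1 (z t).2 (z t).2 = g p v v := fun t ht => by
        have := isOpen_Ioo.is_const_of_deriv_eq_zero isPreconnected_Ioo
          (fun r hr => (d1 r hr).differentiableAt.differentiableWithinAt)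
          (fun r hr => (d1 r hr).deriv) ht i0
        rwa [z0] at this
      have d3 := (convex_Ioo (-T) T).norm_image_sub_le_of_norm_hasDerivWithin_le
        (f := fun t => e (z t).1) (f' := fun t => fderiv ℝ e (z t).1 (a t • (z t).2))
        (C := √(K * g p v v)) (fun t ht => (((e1.contDiffAt (cm.isOpen.mem_nhds
          (hz t ht).1.1)).differentiableAt one_ne_zero).hasFDerivAt.comp_hasDerivAt t
          (dfst (hz t ht).2.2)).hasDerivWithinAt) (fun t ht => by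
          rw [map_smul, norm_smul]
          refine (mul_le_of_le_one_left (norm_nonneg _) (hz t ht).2.1).trans
            (Real.abs_le_sqrt ?_)
          rw [← d2 t ht]
          exact e3 _ (hz t ht).1.1 _) i0 hr
      have d4 : (z r).1 ∈ {q | q ∈ Ω ∧ e q ≤ e p + √(K * g p v v) * T} := by
        refine ⟨(hz r hr).1.1, ?_⟩
        rw [z0, sub_zero, Real.norm_eq_abs, Real.norm_eq_abs] at d3
        have := mul_le_mul_of_nonneg_left (abs_lt.2 hr).le (Real.sqrt_nonneg (K * g p v v))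
        linarith [le_abs_self (e (z r).1 - e p)]
      exact ⟨d4, mem_closedBall_zero_iff.2 (hρ _ d4 _ (d2 r hr).le)⟩
  have e0 : deriv (fun r => (z r).1) = fun r => (z r).2 := funext fun r => (dfst (z1 r).2).deriv
  refine ⟨fun r => (z r).1, by simp only [z0], by simp only [e0, z0], fun s =>
    ⟨(z1 s).1.1, (dfst (z1 s).2).differentiableAt, ?_, ?_⟩⟩
  · rw [e0]; exact (dsnd (z1 s).2).differentiableAt
  · rw [e0, (dsnd (z1 s).2).deriv, hΓ.eq _ (z1 s).1.1]
    exact neg_add_cancel _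

end Vale.Agent.P250
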