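import Vale.Agent.P250.Spec

/-! Module D of P250: automorphisms of the disc and of the ball. -/

open scoped Topology ComplexConjugate ContDiff
open Set Filter

namespace Vale.Agent.P250

namespace Dm

lemma den (a z : ℂ) (ha : ‖a‖ ≤ 1) (hz : ‖z‖ < 1) : 1 + conj a * z ≠ 0 := by
  intro h
  have h1 : ‖conj a * z‖ = 1 := by rw [eq_neg_of_add_eq_zero_right h]; simp
  rw [norm_mul, Complex.norm_conj] at h1
  nlinarith [norm_nonneg a, norm_nonneg z]

lemma key (a z : ℂ) : ‖1 + conj a * z‖ ^ 2 - ‖z + a‖ ^ 2 = (1 - ‖a‖ ^ 2) * (1 - ‖z‖ ^ 2) := by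
  simp only [Complex.sq_norm, Complex.normSq_apply, Complex.add_re, Complex.add_im, Complex.mul_re,
    Complex.mul_im, Complex.conj_re, Complex.conj_im, Complex.one_re, Complex.one_im]
  ring

lemma one_sub (a z : ℂ) (ha : ‖a‖ < 1) (hz : ‖z‖ < 1) :
    1 - ‖mob a z‖ ^ 2 = (1 - ‖a‖ ^ 2) * (1 - ‖z‖ ^ 2) / ‖1 + conj a * z‖ ^ 2 := by
  have h := norm_ne_zero_iff.2 (den a z ha.le hz)
  rw [← key, mob, norm_div, div_pow, one_sub_div (pow_ne_zero 2 h)]

lemma sq_pos {z : ℂ} (hz : ‖z‖ < 1) : 0 < 1 - ‖z‖ ^ 2 := by nlinarith [norm_nonneg z]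

lemma mem (a z : ℂ) (ha : ‖a‖ < 1) (hz : ‖z‖ < 1) : ‖mob a z‖ < 1 := by
  have h := norm_pos_iff.2 (den a z ha.le hz)
  have h1 : 0 < 1 - ‖mob a z‖ ^ 2 := by
    rw [one_sub a z ha hz]
    exact div_pos (mul_pos (sq_pos ha) (sq_pos hz)) (by positivity)
  nlinarith [norm_nonneg (mob a z)]

lemma den' (a z : ℂ) (ha : ‖a‖ < 1) (hz : ‖z‖ < 1) : 1 - conj a * z ≠ 0 := by
  simpa [sub_eq_add_neg] using den (-a) z (by simpa using ha.le) hz

lemma den_inv (a z : ℂ) (ha : ‖a‖ < 1) (hz : ‖z‖ < 1) :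
    1 + conj a * mob (-a) z = (1 - conj a * a) / (1 - conj a * z) := by
  have h1 := den' a z ha hz
  rw [mob, map_neg, neg_mul, ← sub_eq_add_neg, ← sub_eq_add_neg]
  field_simp
  ring

lemma inv (a z : ℂ) (ha : ‖a‖ < 1) (hz : ‖z‖ < 1) : mob a (mob (-a) z) = z := by
  have h1 := den' a z ha hz
  have h2 := den' a a ha ha
  have h1' : 1 - z * conj a ≠ 0 := by rwa [mul_comm]
  have h2' : 1 - a * conj a ≠ 0 := by rwa [mul_comm]
  rw [mob, den_inv a z ha hz, mob, map_neg, neg_mul, ← sub_eq_add_neg, ← sub_eq_add_neg]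
  field_simp
  ring

lemma inv' (a z : ℂ) (ha : ‖a‖ < 1) (hz : ‖z‖ < 1) : mob (-a) (mob a z) = z := by
  simpa using inv (-a) z (by simpa using ha) hz

lemma ana (a z : ℂ) (ha : ‖a‖ < 1) (hz : ‖z‖ < 1) : AnalyticAt ℂ (mob a) z :=
  AnalyticAt.div (f := fun z => z + a) (g := fun z => 1 + conj a * z) (by fun_prop) (by fun_prop)
    (den a z ha.le hz)

lemma psi_mob (a z : ℂ) (ha : ‖a‖ < 1) (hz : ‖z‖ < 1) :
    psi (mob a z) = psi a + psi z + Real.log (‖1 + conj a * z‖ ^ 2) := by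
  have h := norm_pos_iff.2 (den a z ha.le hz)
  rw [psi, psi, psi, one_sub a z ha hz,
    Real.log_div (mul_pos (sq_pos ha) (sq_pos hz)).ne' (by positivity),
    Real.log_mul (sq_pos ha).ne' (sq_pos hz).ne']
  ring

lemma psi_nonneg (z : ℂ) (hz : ‖z‖ < 1) : 0 ≤ psi z :=
  neg_nonneg.2 (Real.log_nonpos (sq_pos hz).le (by linarith [sq_nonneg ‖z‖]))

lemma symm (a b : ℂ) : dd a b = dd b a := by
  have e : 1 + conj (-a) * b = conj (1 + conj (-b) * a) := by
    simp only [map_add, map_mul, map_neg, map_one, Complex.conj_conj]; ring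
  rw [dd, dd, mob, mob, norm_div, norm_div, e, Complex.norm_conj, ← sub_eq_add_neg,
    ← sub_eq_add_neg, norm_sub_rev]

lemma dd_mob (b a c : ℂ) (hb : ‖b‖ < 1) (ha : ‖a‖ < 1) (hc : ‖c‖ < 1) :
    dd (mob b a) (mob b c) = dd a c := by
  have h1 := den b a hb.le ha
  have h2 := den b c hb.le hc
  have h3 : 1 + b * conj a ≠ 0 := by
    have := (map_ne_zero (starRingEnd ℂ)).2 h1
    simpa using this
  have h4 := den' a c ha hc
  have h5 := den' b b hb hb
  have h1' : 1 + a * conj b ≠ 0 := by rwa [mul_comm]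
  have h2' : 1 + c * conj b ≠ 0 := by rwa [mul_comm]
  have h3' : 1 + conj a * b ≠ 0 := by rwa [mul_comm]
  have h4' : 1 - c * conj a ≠ 0 := by rwa [mul_comm]
  have h5' : 1 - b * conj b ≠ 0 := by rwa [mul_comm]
  have e1 : mob b c + -mob b a =
      (c - a) * (1 - conj b * b) / ((1 + conj b * a) * (1 + conj b * c)) := by
    rw [mob, mob]; field_simp; ring
  have e2 : 1 + conj (-mob b a) * mob b c =
      (1 - conj b * b) * (1 - conj a * c) / ((1 + b * conj a) * (1 + conj b * c)) := by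
    rw [mob, mob]
    simp only [map_div₀, map_add, map_mul, map_neg, map_one, Complex.conj_conj]
    field_simp; ring
  have e3 : mob (-mob b a) (mob b c) = mob (-a) c * (conj (1 + conj b * a) / (1 + conj b * a)) := by
    rw [mob.eq_1 (-mob b a), e1, e2, mob]
    simp only [map_add, map_mul, map_neg, map_one, Complex.conj_conj, neg_mul, ← sub_eq_add_neg]
    field_simp
  rw [dd, dd, e3, norm_mul, norm_div, Complex.norm_conj, div_self (norm_ne_zero_iff.2 h1), mul_one]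

lemma dd_le (a c : ℂ) (ha : ‖a‖ < 1) (hc : ‖c‖ < 1) : dd a c ≤ ‖a‖ + ‖c‖ := by
  have h := one_sub (-a) c (by simpa using ha) hc
  have h1 := norm_pos_iff.2 (den (-a) c (by simpa using ha.le) hc)
  have h2 : ‖1 + conj (-a) * c‖ ≤ 1 + ‖a‖ * ‖c‖ := (norm_add_le _ _).trans (by simp)
  have h3 := pow_le_pow_left₀ h1.le h2 2
  have h4 := mul_pos (sq_pos ha) (sq_pos hc)
  rw [norm_neg, eq_div_iff (by positivity)] at h
  have h5 := sq_pos (mem (-a) c (by simpa using ha) hc)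
  have h6 := mul_le_mul_of_nonneg_left h3 h5.le
  have h7 : 0 ≤ ‖a‖ * ‖c‖ := by positivity
  refine (pow_le_pow_iff_left₀ (norm_nonneg _) (by positivity) two_ne_zero).1 ?_
  have h8 : ‖mob (-a) c‖ ^ 2 * 1 ≤ ‖mob (-a) c‖ ^ 2 * (1 + ‖a‖ * ‖c‖) ^ 2 :=
    mul_le_mul_of_nonneg_left (by nlinarith) (sq_nonneg _)
  nlinarith

lemma tri (a b c : ℂ) (ha : ‖a‖ < 1) (hb : ‖b‖ < 1) (hc : ‖c‖ < 1) :
    dd a c ≤ dd a b + dd b c := by
  have hb' : ‖-b‖ < 1 := by simpa using hb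
  rw [← dd_mob (-b) a c hb' ha hc, symm a b]
  exact dd_le _ _ (mem _ _ hb' ha) (mem _ _ hb' hc)

lemma near (a b : ℂ) (ha : ‖a‖ < 1) (hb : ‖b‖ < 1) {k : ℝ}
    (h : 1 + dd a b ≤ Real.exp k * (1 - dd a b)) : |psi a - psi b| ≤ k := by
  have hη := mem (-a) b (by simpa using ha) hb
  have h1 := psi_mob a _ ha hη
  have h0 := norm_pos_iff.2 (den a _ ha.le hη)
  rw [inv a b ha hb] at h1
  rw [dd] at h
  generalize mob (-a) b = η at *
  have hn : ‖conj a * η‖ ≤ ‖η‖ := by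
    rw [norm_mul, Complex.norm_conj]
    exact mul_le_of_le_one_left (norm_nonneg _) ha.le
  have u1 : ‖1 + conj a * η‖ ≤ 1 + ‖η‖ := (norm_add_le _ _).trans (by simpa using hn)
  have u2 : 1 - ‖η‖ ≤ ‖1 + conj a * η‖ := by
    have := norm_sub_le (1 + conj a * η) (conj a * η)
    rw [add_sub_cancel_right, norm_one] at this
    linarith
  have hp := sq_pos hη
  have t0 := norm_nonneg η
  have t1 : 0 < 1 - ‖η‖ := by linarith
  have e : psi a - psi b = Real.log (1 - ‖η‖ ^ 2) - Real.log (‖1 + conj a * η‖ ^ 2) := by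
    rw [h1, psi.eq_1 η]; ring
  have v1 := pow_le_pow_left₀ h0.le u1 2
  have v2 := pow_le_pow_left₀ t1.le u2 2
  have ek := Real.exp_pos k
  rw [e, abs_le]
  constructor
  · have : ‖1 + conj a * η‖ ^ 2 ≤ Real.exp k * (1 - ‖η‖ ^ 2) := by nlinarith
    have h2 := Real.log_le_log (by positivity) this
    rw [Real.log_mul ek.ne' hp.ne', Real.log_exp] at h2
    linarith
  · have : 1 - ‖η‖ ^ 2 ≤ Real.exp k * ‖1 + conj a * η‖ ^ 2 := by
      nlinarith [mul_le_mul_of_nonneg_left v2 ek.le]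
    have h2 := Real.log_le_log hp this
    rw [Real.log_mul ek.ne' (by positivity), Real.log_exp] at h2
    linarith

lemma comp (p ζ : ℂ) (hp : ‖p‖ < 1) (hζ : ‖ζ‖ < 1) : ∃ e : ℂ, ‖e‖ = 1 ∧
    ∀ η : ℂ, ‖η‖ < 1 → mob (-p) (mob ζ η) = mob (mob (-p) ζ) (e * η) := by
  have h1 := den' p ζ hp hζ
  have h2 : 1 - p * conj ζ ≠ 0 := by
    have := (map_ne_zero (starRingEnd ℂ)).2 h1
    simpa using this
  refine ⟨conj (1 - conj p * ζ) / (1 - conj p * ζ), by
    rw [norm_div, Complex.norm_conj, div_self (norm_ne_zero_iff.2 h1)], fun η hη => ?_⟩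
  have h3 := den ζ η hζ.le hη
  have h4 := den' p _ hp (mem ζ η hζ hη)
  have h1' : 1 - ζ * conj p ≠ 0 := by rwa [mul_comm]
  have h2' : 1 - conj ζ * p ≠ 0 := by rwa [mul_comm]
  have h3' : 1 + η * conj ζ ≠ 0 := by rwa [mul_comm]
  have e1 : 1 + conj (mob (-p) ζ) * (conj (1 - conj p * ζ) / (1 - conj p * ζ) * η) =
      (1 - conj p * mob ζ η) * (1 + conj ζ * η) / (1 - conj p * ζ) := by
    rw [mob, mob]
    simp only [map_div₀, map_sub, map_mul, map_neg, map_one, Complex.conj_conj, neg_mul,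
      ← sub_eq_add_neg]
    field_simp; ring
  have e2 : conj (1 - conj p * ζ) / (1 - conj p * ζ) * η + mob (-p) ζ =
      (mob ζ η - p) * (1 + conj ζ * η) / (1 - conj p * ζ) := by
    rw [mob, mob]
    simp only [map_sub, map_mul, map_neg, map_one, Complex.conj_conj, neg_mul, ← sub_eq_add_neg]
    field_simp; ring
  rw [mob.eq_1 (mob (-p) ζ), e1, e2, mob.eq_1 (-p), map_neg, neg_mul, ← sub_eq_add_neg,
    ← sub_eq_add_neg]
  field_simp

lemma fst {x : V} (hx : x ∈ Ball) : ‖x.1‖ < 1 ∧ ‖x.2‖ < 1 := by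
  have h : ‖x.1‖ ^ 2 + ‖x.2‖ ^ 2 < 1 := hx
  constructor <;> nlinarith [norm_nonneg x.1, norm_nonneg x.2]

lemma ratio (p : ℂ) (hp : ‖p‖ < 1) (x : V) (hx : x ∈ Ball) :
    1 - nsq (TT p x) = (1 - ‖p‖ ^ 2) * (1 - nsq x) / ‖1 + conj p * x.1‖ ^ 2 := by
  have h := norm_ne_zero_iff.2 (den p x.1 hp.le (fst hx).1)
  have h1 := one_sub p x.1 hp (fst hx).1
  simp only [nsq, TT, norm_div, norm_mul, Complex.norm_real, div_pow, mul_pow, Real.norm_eq_abs,
    sq_abs, Real.sq_sqrt (sq_pos hp).le]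
  rw [← sub_sub, h1]
  field_simp
  ring

lemma tinv (p : ℂ) (hp : ‖p‖ < 1) (x : V) (hx : x ∈ Ball) : TT p (TT (-p) x) = x := by
  have h1 := den' p x.1 hp (fst hx).1
  have h2 := den' p p hp hp
  have h3 : ((√(1 - ‖p‖ ^ 2) : ℝ) : ℂ) ^ 2 = 1 - conj p * p := by
    rw [← Complex.ofReal_pow, Real.sq_sqrt (sq_pos hp).le, Complex.conj_mul']
    push_cast; rfl
  refine Prod.ext (inv p x.1 hp (fst hx).1) ?_
  simp only [TT, den_inv p x.1 hp (fst hx).1, norm_neg, map_neg, neg_mul, ← sub_eq_add_neg]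
  rw [← h3] at h2 ⊢
  have h4 : ((√(1 - ‖p‖ ^ 2) : ℝ) : ℂ) ≠ 0 := fun h => h2 (by rw [h]; simp)
  field_simp

lemma tt (p : ℂ) (hp : ‖p‖ < 1) : Aut (TT p) := by
  have hs : 0 < √(1 - ‖p‖ ^ 2) := Real.sqrt_pos.2 (sq_pos hp)
  have hs' : ((√(1 - ‖p‖ ^ 2) : ℝ) : ℂ) ≠ 0 := by exact_mod_cast hs.ne'
  refine ⟨fun x hx => ⟨?_, ?_⟩, fun x => (1 + conj p * x.1) / (√(1 - ‖p‖ ^ 2) : ℝ),
    fun x hx => ⟨(analyticAt_const.add (analyticAt_const.mul analyticAt_fst)).div analyticAt_const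
      hs', div_ne_zero (den p x.1 hp.le (fst hx).1) hs', ?_⟩⟩
  · exact ((ana p x.1 hp (fst hx).1).comp analyticAt_fst).prod
      (AnalyticAt.div (f := fun x : V => ((√(1 - ‖p‖ ^ 2) : ℝ) : ℂ) * x.2)
        (g := fun x : V => 1 + conj p * x.1) (analyticAt_const.mul analyticAt_snd)
        (analyticAt_const.add (analyticAt_const.mul analyticAt_fst))
        (den p x.1 hp.le (fst hx).1))
  · have h := norm_pos_iff.2 (den p x.1 hp.le (fst hx).1)
    have h1 : 0 < 1 - nsq (TT p x) := by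
      rw [ratio p hp x hx]
      exact div_pos (mul_pos (sq_pos hp) (sub_pos.2 hx)) (by positivity)
    exact sub_pos.1 h1
  · have h := norm_pos_iff.2 (den p x.1 hp.le (fst hx).1)
    have h1 : 0 < 1 - nsq x := sub_pos.2 hx
    rw [psi0, psi0, ratio p hp x hx, norm_div, div_pow, Complex.norm_real, Real.norm_eq_abs, sq_abs,
      Real.sq_sqrt (sq_pos hp).le, Real.log_div (mul_pos (sq_pos hp) h1).ne' (by positivity),
      Real.log_mul (sq_pos hp).ne' h1.ne', Real.log_div (by positivity) (sq_pos hp).ne']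
    ring

end Dm

open Dm in
theorem discFacts : DiscFacts where
  den := den
  one_sub := one_sub
  mem := mem
  inv := Dm.inv
  inv' := inv'
  ana := ana
  psi_mob := psi_mob
  psi_nonneg := psi_nonneg
  self a := by simp [dd, mob]
  symm := Dm.symm
  tri := tri
  cont a z ha hz := (ana (-a) z (by simpa using ha) hz).continuousAt.norm
  near2 a b ha hb h := near a b ha hb (by
    have h1 := Real.exp_one_gt_d9
    have h2 : Real.exp 2 = Real.exp 1 * Real.exp 1 := by rw [← Real.exp_add]; norm_num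
    have h3 : 7 ≤ Real.exp 2 := by nlinarith
    nlinarith)
  near1 a b ha hb h := near a b ha hb (by nlinarith [Real.exp_one_gt_d9])
  comp := Dm.comp

theorem aStmt : AStmt := fun _ =>
  { isOpen := isOpen_lt (by unfold nsq; fun_prop) continuous_const
    fst := fun _ hx => Dm.fst hx
    id := ⟨fun x hx => ⟨analyticAt_id, hx⟩, fun _ => 1, fun x _ =>
      ⟨analyticAt_const, one_ne_zero, by simp⟩⟩
    swap := ⟨fun x hx => ⟨analyticAt_snd.prod analyticAt_fst, by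
        have h : nsq x < 1 := hx
        change nsq x.swap < 1
        simpa [nsq, add_comm] using h⟩, fun _ => 1, fun x _ =>
      ⟨analyticAt_const, one_ne_zero, by simp [psi0, nsq, add_comm]⟩⟩
    comp := by
      rintro Θ Θ' ⟨h1, j, h2⟩ ⟨k1, j', k2⟩
      refine ⟨fun x hx => ⟨(h1 _ (k1 x hx).2).1.comp (k1 x hx).1, (h1 _ (k1 x hx).2).2⟩,
        fun x => j' x * j (Θ' x), fun x hx => ?_⟩
      obtain ⟨a1, a2, a3⟩ := h2 _ (k1 x hx).2
      obtain ⟨b1, b2, b3⟩ := k2 x hx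
      refine ⟨b1.mul (a1.comp (k1 x hx).1), mul_ne_zero b2 a2, ?_⟩
      rw [a3, b3, norm_mul, mul_pow, Real.log_mul (pow_ne_zero _ (norm_ne_zero_iff.2 b2))
        (pow_ne_zero _ (norm_ne_zero_iff.2 a2)), add_assoc]
    tt := Dm.tt
    inv := fun p hp x hx => ⟨Dm.tinv p hp x hx, by
      simpa using Dm.tinv (-p) (by simpa using hp) x hx⟩
    ratio := Dm.ratio }

end Vale.Agent.P250
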