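import Mathlib

open scoped ContDiff

namespace Vale.Agent.P250

/-- Complex 3-space `ℂ³`. -/
abbrev E : Type := (ℂ × ℂ) × ℂ

/-- Real bilinear forms on `ℂ³ = ℝ⁶`. -/
abbrev Bil : Type := E →L[ℝ] E →L[ℝ] ℝ

/-- Christoffel symbols of the first kind of the metric `g` at `y`:
`(∂_u g(v,w) + ∂_v g(u,w) - ∂_w g(u,v)) / 2`. -/
noncomputable def koszul (g : E → Bil) (y u v w : E) : ℝ :=
  (fderiv ℝ (fun z => g z v w) y u + fderiv ℝ (fun z => g z u w) y v
    - fderiv ℝ (fun z => g z u v) y w) / 2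

/-- Christoffel symbols of the second kind: `Γ_y(u,v)` is the vector `x` with
`g_y(x,w) = koszul g y u v w` for all `w`. -/
noncomputable def chr (g : E → Bil) (y u v : E) : E :=
  Classical.epsilon fun x => ∀ w, g y x w = koszul g y u v w

/-- The curvature tensor `R(u,v)w` of the Levi-Civita connection at `y`. -/
noncomputable def riem (g : E → Bil) (y u v w : E) : E :=
  fderiv ℝ (fun z => chr g z v w) y u - fderiv ℝ (fun z => chr g z u w) y v
    + chr g y u (chr g y v w) - chr g y v (chr g y u w)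

/-- Sectional curvature of the real plane spanned by `u` and `v` at `y`. -/
noncomputable def secCurv (g : E → Bil) (y u v : E) : ℝ :=
  g y (riem g y u v v) u / (g y u u * g y v v - g y u v ^ 2)

/-- The geodesic equation `c'' + Γ(c',c') = 0` at time `s`. -/
def GeoAt (g : E → Bil) (c : ℝ → E) (s : ℝ) : Prop :=
  DifferentiableAt ℝ c s ∧ DifferentiableAt ℝ (deriv c) s ∧
    deriv (deriv c) s + chr g (c s) (deriv c s) (deriv c s) = 0

/-- `g` is a smooth Kähler metric on the open set `Ω`: a smooth Riemannian metric, invariant under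
multiplication by `i`, whose fundamental form `ω(v,w) = g(iv,w)` is closed. -/
structure IsKahler (g : E → Bil) (Ω : Set E) : Prop where
  smooth : ContDiffOn ℝ ∞ g Ω
  symm : ∀ y ∈ Ω, ∀ u v, g y u v = g y v u
  pos : ∀ y ∈ Ω, ∀ u, u ≠ 0 → 0 < g y u u
  herm : ∀ y ∈ Ω, ∀ u v, g y (Complex.I • u) (Complex.I • v) = g y u v
  closed : ∀ y ∈ Ω, ∀ u v w, fderiv ℝ (fun z => g z (Complex.I • v) w) y u
    + fderiv ℝ (fun z => g z (Complex.I • w) u) y v
    + fderiv ℝ (fun z => g z (Complex.I • u) v) y w = 0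

/-- Geodesic completeness of `(Ω, g)`: every initial condition has a geodesic `ℝ → Ω`. -/
def Complete (g : E → Bil) (Ω : Set E) : Prop :=
  ∀ p ∈ Ω, ∀ v, ∃ c : ℝ → E, c 0 = p ∧ deriv c 0 = v ∧ ∀ s, c s ∈ Ω ∧ GeoAt g c s

/-- Negative pinching of the sectional curvature of all real two-planes. -/
def Pinched (g : E → Bil) (Ω : Set E) : Prop :=
  ∃ a b : ℝ, 0 < a ∧ a ≤ b ∧ ∀ y ∈ Ω, ∀ u v : E, LinearIndependent ℝ ![u, v] →
    -b ≤ secCurv g y u v ∧ secCurv g y u v ≤ -a

/-- `Ω` is biholomorphic to a bounded domain of `ℂ³`. -/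
def BiholBounded (Ω : Set E) : Prop :=
  ∃ (D : Set E) (F G : E → E), IsOpen D ∧ IsConnected D ∧ Bornology.IsBounded D ∧
    DifferentiableOn ℂ F Ω ∧ DifferentiableOn ℂ G D ∧ Set.MapsTo F Ω D ∧ Set.MapsTo G D Ω ∧
    (∀ x ∈ Ω, G (F x) = x) ∧ ∀ y ∈ D, F (G y) = y

end Vale.Agent.P250
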