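import Vale.Agent.P250.A0

/-! Module F: metrics with a potential. -/

open scoped ContDiff Topology
open Set Filter

namespace Vale.Agent.P250

namespace Ff
open Aa

variable {Φ : E → ℝ} {Ω : Set E} {y : E}

theorem s2 (ho : IsOpen Ω) (h : ContDiffOn ℝ ∞ Φ Ω) : ContDiffOn ℝ ∞ (D2 Φ) Ω :=
  (h.fderiv_of_isOpen (m := ∞) ho (by simp)).fderiv_of_isOpen (m := ∞) ho (by simp)

theorem s2' (ho : IsOpen Ω) (h : ContDiffOn ℝ ∞ Φ Ω) (u v : E) :
    ContDiffOn ℝ ∞ (fun z => D2 Φ z u v) Ω :=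
  ((s2 ho h).clm_apply contDiffOn_const).clm_apply contDiffOn_const

theorem s3 (ho : IsOpen Ω) (h : ContDiffOn ℝ ∞ Φ Ω) (u v w : E) :
    ContDiffOn ℝ ∞ (fun z => D3 Φ z u v w) Ω :=
  ((s2' ho h u v).fderiv_of_isOpen (m := ∞) ho (by simp)).clm_apply contDiffOn_const

theorem df {f : E → ℝ} (ho : IsOpen Ω) (h : ContDiffOn ℝ ∞ f Ω) (hy : y ∈ Ω) :
    HasFDerivAt f (fderiv ℝ f y) y :=
  ((h.contDiffAt (ho.mem_nhds hy)).differentiableAt (by simp)).hasFDerivAt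

theorem sym {f : E → ℝ} (ho : IsOpen Ω) (h : ContDiffOn ℝ ∞ f Ω) (hy : y ∈ Ω) (a b : E) :
    fderiv ℝ (fun z => fderiv ℝ f z a) y b = fderiv ℝ (fun z => fderiv ℝ f z b) y a := by
  have h1 := h.contDiffAt (ho.mem_nhds hy)
  have h2 : DifferentiableAt ℝ (fderiv ℝ f) y :=
    (h1.fderiv_right (m := 1) (by norm_cast)).differentiableAt one_ne_zero
  have key : ∀ a b, fderiv ℝ (fun z => fderiv ℝ f z a) y b = fderiv ℝ (fderiv ℝ f) y b a :=
    fun a b => by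
      rw [(h2.hasFDerivAt.clm_apply (hasFDerivAt_const a y)).fderiv]
      simp
  rw [key, key]
  exact (h1.isSymmSndFDerivAt (by simp; norm_cast)).eq b a

theorem cg {f g : E → ℝ} (ho : IsOpen Ω) (hy : y ∈ Ω) (h : ∀ z ∈ Ω, f z = g z) :
    fderiv ℝ f y = fderiv ℝ g y :=
  Filter.EventuallyEq.fderiv_eq ((eventually_mem_set.2 (ho.mem_nhds hy)).mono h)

theorem y2 (ho : IsOpen Ω) (h : ContDiffOn ℝ ∞ Φ Ω) (hy : y ∈ Ω) (u v : E) :
    D2 Φ y u v = D2 Φ y v u :=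
  ((h.contDiffAt (ho.mem_nhds hy)).isSymmSndFDerivAt (by simp; norm_cast)).eq u v

theorem y3a (ho : IsOpen Ω) (h : ContDiffOn ℝ ∞ Φ Ω) (hy : y ∈ Ω) (u v w : E) :
    D3 Φ y u v w = D3 Φ y v u w := by
  rw [D3, D3, cg ho hy fun z hz => y2 ho h hz u v]

theorem y3b (ho : IsOpen Ω) (h : ContDiffOn ℝ ∞ Φ Ω) (hy : y ∈ Ω) (u v w : E) :
    D3 Φ y u v w = D3 Φ y u w v := by
  have h1 := h.fderiv_of_isOpen (m := ∞) ho (by simp)
  have key : ∀ v, ∀ z ∈ Ω, D2 Φ z u v = fderiv ℝ (fun x => fderiv ℝ Φ x u) z v := fun v z hz => by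
    rw [((((h1.contDiffAt (ho.mem_nhds hz)).differentiableAt (by simp)).hasFDerivAt).clm_apply
      (hasFDerivAt_const u z)).fderiv, y2 ho h hz]
    simp [D2]
  rw [D3, D3, cg ho hy (key v), cg ho hy (key w)]
  exact sym ho (h1.clm_apply contDiffOn_const) hy v w

theorem y4a (ho : IsOpen Ω) (h : ContDiffOn ℝ ∞ Φ Ω) (hy : y ∈ Ω) (u v w t : E) :
    D4 Φ y u v w t = D4 Φ y v u w t := by
  rw [D4, D4, cg ho hy fun z hz => y3a ho h hz u v w]

theorem y4b (ho : IsOpen Ω) (h : ContDiffOn ℝ ∞ Φ Ω) (hy : y ∈ Ω) (u v w t : E) :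
    D4 Φ y u v w t = D4 Φ y u w v t := by
  rw [D4, D4, cg ho hy fun z hz => y3b ho h hz u v w]

theorem y4c (ho : IsOpen Ω) (h : ContDiffOn ℝ ∞ Φ Ω) (hy : y ∈ Ω) (u v w t : E) :
    D4 Φ y u v w t = D4 Φ y u v t w := sym ho (s2' ho h u v) hy w t

theorem II (u : E) : Complex.I • Complex.I • u = -u := by
  rw [smul_smul, Complex.I_mul_I, neg_one_smul]

theorem sm (ho : IsOpen Ω) (h : ContDiffOn ℝ ∞ Φ Ω) : ContDiffOn ℝ ∞ (met Φ) Ω :=
  contDiffOn_clm_apply.2 fun u => contDiffOn_clm_apply.2 fun v =>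
    (s2' ho h u v).add (s2' ho h (Complex.I • u) (Complex.I • v))

theorem dmet (ho : IsOpen Ω) (h : ContDiffOn ℝ ∞ Φ Ω) (hy : y ∈ Ω) (x u v : E) :
    fderiv ℝ (fun z => met Φ z u v) y x =
      D3 Φ y u v x + D3 Φ y (Complex.I • u) (Complex.I • v) x :=
  congrArg (fun f : E →L[ℝ] ℝ => f x) ((df ho (s2' ho h u v) hy).add
    (df ho (s2' ho h (Complex.I • u) (Complex.I • v)) hy)).fderiv

theorem neg3 (ho : IsOpen Ω) (h : ContDiffOn ℝ ∞ Φ Ω) (hy : y ∈ Ω) (u v w : E) :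
    D3 Φ y (-u) v w = -D3 Φ y u v w := by
  rw [y3a ho h hy, y3b ho h hy, map_neg, y3b ho h hy, y3a ho h hy]

theorem kah (ho : IsOpen Ω) (h : ContDiffOn ℝ ∞ Φ Ω)
    (hp : ∀ y ∈ Ω, ∀ u, u ≠ 0 → 0 < lev Φ y u u) : IsKahler (met Φ) Ω := by
  refine ⟨sm ho h, fun y hy u v => ?_, hp, fun y hy u v => ?_, fun y hy u v w => ?_⟩
  · simp only [met_apply, lev]
    rw [y2 ho h hy u, y2 ho h hy (Complex.I • u)]
  · simp only [met_apply, lev, II, map_neg, neg_apply, neg_neg]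
    ring
  · simp only [dmet ho h hy, II, neg3 ho h hy]
    linarith [y3a ho h hy (Complex.I • v) w u, y3b ho h hy w (Complex.I • v) u,
      y3a ho h hy w u (Complex.I • v), y3b ho h hy u (Complex.I • v) w,
      y3a ho h hy (Complex.I • w) u v, y3b ho h hy u (Complex.I • w) v,
      y3a ho h hy u v (Complex.I • w), y3b ho h hy v (Complex.I • w) u,
      y3a ho h hy (Complex.I • u) v w, y3b ho h hy v (Complex.I • u) w,
      y3a ho h hy v w (Complex.I • u), y3b ho h hy w (Complex.I • u) v,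
      y3b ho h hy u w (Complex.I • v), y3b ho h hy v u (Complex.I • w),
      y3b ho h hy w v (Complex.I • u)]

theorem shrink (h : ∀ᶠ z in 𝓝 y, ContDiffAt ℝ ∞ Φ z) (hp : ∀ u, u ≠ 0 → 0 < lev Φ y u u) :
    ∃ Ω, IsOpen Ω ∧ y ∈ Ω ∧ ContDiffOn ℝ ∞ Φ Ω ∧ ∀ z ∈ Ω, ∀ u, u ≠ 0 → 0 < lev Φ z u u := by
  obtain ⟨U, h1, h2, h3⟩ := eventually_nhds_iff.1 h
  have h4 : ContDiffOn ℝ ∞ Φ U := fun z hz => (h1 z hz).contDiffWithinAt
  have c := ((sm h2 h4).contDiffAt (h2.mem_nhds h3)).continuousAt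
  have h5 : ∀ᶠ z in 𝓝 y, ∀ u ∈ Metric.sphere (0 : E) 1, 0 < met Φ z u u := by
    refine (isCompact_sphere (0 : E) 1).eventually_forall_of_forall_eventually fun u hu => ?_
    have c1 : ContinuousAt (fun q : E × E => met Φ q.1) (y, u) :=
      ContinuousAt.comp (g := met Φ) (f := Prod.fst) c continuousAt_fst
    exact continuousAt_const.eventually_lt ((c1.clm_apply continuousAt_snd).clm_apply
      continuousAt_snd) (hp u (Metric.ne_of_mem_sphere hu one_ne_zero))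
  obtain ⟨U', k1, k2, k3⟩ := eventually_nhds_iff.1 h5
  refine ⟨U ∩ U', h2.inter k2, ⟨h3, k3⟩, h4.mono inter_subset_left, fun z hz u hu => ?_⟩
  have v0 : 0 < ‖u‖ := norm_pos_iff.2 hu
  have := k1 z hz.2 (‖u‖⁻¹ • u) (by simp [norm_smul, inv_mul_cancel₀ v0.ne'])
  simp only [map_smul, smul_apply, smul_eq_mul] at this
  exact (mul_pos_iff_of_pos_left (inv_pos.2 v0)).1 ((mul_pos_iff_of_pos_left (inv_pos.2 v0)).1 this)

end Ff

open Aa Ff in
theorem fStmt : FStmt := by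
  intro hR
  have lm : ∀ (Φ : E → ℝ) (Ω : Set E), IsOpen Ω → ContDiffOn ℝ ∞ Φ Ω →
      (∀ y ∈ Ω, ∀ u, u ≠ 0 → 0 < lev Φ y u u) → CM (met Φ) Ω := fun Φ Ω ho h hp =>
    ⟨ho, (kah ho h hp).smooth, (kah ho h hp).symm, hp⟩
  refine ⟨fun Φ Ω => kah, fun Φ y h hp => ?_, fun Φ y h hp u v x1 x2 x3 e1 e2 e3 => ?_⟩
  · obtain ⟨Ω, ho, hy, h1, h2⟩ := shrink h hp
    exact ⟨Ω, hy, lm Φ Ω ho h1 h2⟩
  obtain ⟨Ω, ho, hy, h1, h2⟩ := shrink h hp
  have c := lm Φ Ω ho h1 h2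
  have k : ∀ u v w, koszul (met Φ) y u v w = kz3 (fun a b c => D3 Φ y a b c) u v w := fun u v w => by
    simp only [koszul, kz3, dmet ho h1 hy]
    rw [y3b ho h1 hy v w u, y3a ho h1 hy v u w, y3b ho h1 hy u w v,
      y3b ho h1 hy (Complex.I • v) (Complex.I • w) u, y3a ho h1 hy (Complex.I • v) u,
      y3b ho h1 hy (Complex.I • u) (Complex.I • w) v]
    ring
  have d : ∀ a b u v, ddg (met Φ) y a b u v =
      D4 Φ y u v a b + D4 Φ y (Complex.I • u) (Complex.I • v) a b := fun a b u v => by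
    rw [ddg, cg ho hy fun z hz => (fd2 (cm_diff c hz) u v a).symm.trans (dmet ho h1 hz a u v)]
    exact congrArg (fun f : E →L[ℝ] ℝ => f b) ((df ho (s3 ho h1 u v a) hy).add
      (df ho (s3 ho h1 (Complex.I • u) (Complex.I • v) a) hy)).fderiv
  have s : ∀ a b c d, D4 Φ y a b c d = D4 Φ y c d a b := fun a b c d => by
    rw [y4b ho h1 hy, y4a ho h1 hy, y4c ho h1 hy, y4b ho h1 hy]
  rw [hR.form _ y ⟨Ω, hy, c⟩ u v x1 x2 x3 (fun w => (e1 w).trans (k u v w).symm)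
    (fun w => (e2 w).trans (k u u w).symm) (fun w => (e3 w).trans (k v v w).symm)]
  simp only [d, kz4, met_apply]
  rw [y4b ho h1 hy u v u v, s v v u u, s (Complex.I • u) (Complex.I • v) u v,
    s (Complex.I • v) (Complex.I • v) u u]
  ring

end Vale.Agent.P250
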