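import Vale.Agent.P250.A0

/-! Module G of P250: global pinching from charts. -/

open scoped ContDiff Topology
open Set Filter

namespace Vale.Agent.P250

theorem gStmt : GStmt := fun hL hR hI φ Λ A ε a b a0 hO hs hK hC hP => by
  have cm : CM (met (pot A ε φ)) (Om φ) := ⟨hO, hK.smooth, hK.symm, hK.pos⟩
  have s1 : ∀ p ∈ Om φ, p.2 ≠ 0 → Pin (met (pot A ε φ)) p a b := fun p hp hw => by
    obtain ⟨Θ, F, F', χ, a1, a2, hΘ, e0, hF, hF', e1, e2, hJ⟩ := hC p.1 hp.1
    obtain ⟨θ, hθ⟩ : ∃ θ, θ = Complex.log p.2 + F' 0 / 2 := ⟨_, rfl⟩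
    obtain ⟨Ψ, hΨ⟩ : ∃ Ψ : E → E, Ψ = fun q => (Θ q.1, Complex.exp (q.2 - F' q.1 / 2)) := ⟨_, rfl⟩
    have ep : Ψ (0, θ) = p := by simp [hΨ, hθ, e0, Complex.exp_log hw]
    have an : AnalyticAt ℂ Ψ (0, θ) := hΨ ▸ (hΘ.comp (f := Prod.fst) analyticAt_fst).prod
      (analyticAt_snd.sub ((hF'.comp (f := Prod.fst) analyticAt_fst).div analyticAt_const
        two_ne_zero)).cexp
    have aF : AnalyticAt ℂ (fun q : E => (A : ℂ) * F q.1) (0, θ) :=
      analyticAt_const.mul (hF.comp (f := Prod.fst) analyticAt_fst)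
    have t1 : Tendsto (Prod.fst : E → V) (𝓝 (0, θ)) (𝓝 0) := continuousAt_fst
    have es : ∀ᶠ q in 𝓝 ((0, θ) : E), sig φ (Ψ q) = Real.exp (2 * q.2.re + χ q.1) := by
      filter_upwards [t1.eventually e2] with q hq
      simp only [sig, hΨ, hq, Complex.norm_exp, sq, ← Real.exp_add]
      congr 1
      simp
      ring
    obtain ⟨m1, m2, m3⟩ := hP χ a1 a2 θ hJ
      (Real.exp_lt_one_iff.1 (es.self_of_nhds ▸ ep.symm ▸ hp.2))
    have em : ∀ᶠ q in 𝓝 ((0, θ) : E),
        pot A ε φ (Ψ q) = model A (pf ε) χ q + ((A : ℂ) * F q.1).re := by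
      filter_upwards [t1.eventually e1, es] with q h1 h2
      rw [pot, h2]
      simp only [hΨ, h1, model, pf, Complex.re_ofReal_mul]
      ring
    have ev : ∀ᶠ z in 𝓝 ((0, θ) : E), ContDiffAt ℝ ∞ Ψ z ∧ ∀ u v, met (model A (pf ε) χ) z u v =
        met (pot A ε φ) (Ψ z) (fderiv ℝ Ψ z u) (fderiv ℝ Ψ z v) := by
      filter_upwards [an.eventually_analyticAt, aF.eventually_analyticAt, em.eventually_nhds, m1,
        an.continuousAt (hO.mem_nhds (ep.symm ▸ hp))] with z h1 h2 h3 h4 h5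
      refine ⟨h1.contDiffAt.restrict_scalars ℝ, fun u v => ?_⟩
      rw [h1.differentiableAt.fderiv_restrictScalars ℝ, met_apply, met_apply]
      refine Eq.trans ?_ ((hL.congr _ _ z u v h3).symm.trans (hL.pull _ _ z u v h1
        ((hs.contDiffAt (hO.mem_nhds h5)).of_le (by norm_cast))))
      rw [hL.add _ (fun q : E => ((A : ℂ) * F q.1).re) z u v (h4.of_le (by norm_cast))
        (Complex.reCLM.contDiff.contDiffAt.comp z (h2.contDiffAt.restrict_scalars ℝ)),
        hL.re _ z u v h2, add_zero]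
    obtain ⟨i1, i2⟩ := hI _ _ Ψ _ m2 ⟨_, ep.symm ▸ hp, cm⟩ ev
    intro u v
    obtain ⟨u, rfl⟩ := i1 u
    obtain ⟨v, rfl⟩ := i1 v
    simpa only [area, i2, ev.self_of_nhds.2, ep] using m3 u v
  have s2 : ∀ p ∈ Om φ, Pin (met (pot A ε φ)) p a b := fun p hp u v => by
    have t : Tendsto (fun w : ℂ => ((p.1, w) : E)) (𝓝[({0} : Set ℂ)ᶜ] p.2) (𝓝 p) :=
      (continuousAt_const.prodMk continuousAt_id).tendsto.mono_left nhdsWithin_le_nhds
    have : (𝓝[({0} : Set ℂ)ᶜ] p.2).NeBot := mem_closure_iff_nhdsWithin_neBot.1 (dense_compl_singleton _ _)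
    have c := (Aa.cm_at cm hp).continuousAt
    have ca : ContinuousAt (fun z => area (met (pot A ε φ)) z u v) p := by
      unfold area; fun_prop
    have cc := (hR.cont _ p ⟨_, hp, cm⟩ u v).neg
    have ev : ∀ᶠ w in 𝓝[({0} : Set ℂ)ᶜ] p.2, Pin (met (pot A ε φ)) (p.1, w) a b := by
      filter_upwards [t (hO.mem_nhds hp), self_mem_nhdsWithin] with w h1 h2 using s1 _ h1 h2
    exact ⟨le_of_tendsto_of_tendsto ((ca.tendsto.comp t).const_mul a) (cc.tendsto.comp t)
      (ev.mono fun w h => (h u v).1), le_of_tendsto_of_tendsto (cc.tendsto.comp t)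
      ((ca.tendsto.comp t).const_mul b) (ev.mono fun w h => (h u v).2)⟩
  refine ⟨a, max a b, a0, le_max_left _ _, fun y hy u v h => ?_⟩
  have u0 := cm.pos y hy u (h.ne_zero 0)
  have ar : 0 < area (met (pot A ε φ)) y u v := by
    have := cm.pos y hy (-(met (pot A ε φ) y u v) • u + met (pot A ε φ) y u u • v)
      fun e => u0.ne' (LinearIndependent.pair_iff.1 h _ _ e).2
    simp only [map_add, map_smul, add_apply, smul_apply, smul_eq_mul, cm.symm y hy v u] at this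
    exact (mul_pos_iff_of_pos_left u0).1 (this.trans_eq (by rw [area]; ring))
  obtain ⟨h1, h2⟩ := s2 y hy u v
  exact ⟨(le_div_iff₀ ar).2 (by
    have := mul_le_mul_of_nonneg_right (le_max_right a b) ar.le
    change _ * area _ y u v ≤ curv _ y u v
    linarith), (div_le_iff₀ ar).2 (by change curv _ y u v ≤ _ * area _ y u v; linarith)⟩

end Vale.Agent.P250
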