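import Vale.Agent.P250.A0

/-! Module I: local isometries preserve the curvature. -/

open scoped ContDiff Topology
open Set Filter

namespace Vale.Agent.P250

namespace Ii
open Aa

variable {G₁ G₂ : E → Bil} {Ω₁ Ω₂ : Set E} {Γ₁ Γ₂ : E → E →L[ℝ] E →L[ℝ] E} {τ : E → E} {y : E}

theorem chg (h₁ : CM G₁ Ω₁) (h₂ : CM G₂ Ω₂) (g₁ : IsGam G₁ Ω₁ Γ₁) (g₂ : IsGam G₂ Ω₂ Γ₂)
    (hs : y ∈ Ω₁) (hm : τ y ∈ Ω₂) (t1 : ContDiffAt ℝ ∞ τ y)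
    (e : ∀ᶠ z in 𝓝 y, ∀ u v, G₁ z u v = G₂ (τ z) (fderiv ℝ τ z u) (fderiv ℝ τ z v)) :
    Function.Surjective (fderiv ℝ τ y) ∧ ∀ u v, fderiv ℝ τ y (Γ₁ y u v) =
      Γ₂ (τ y) (fderiv ℝ τ y u) (fderiv ℝ τ y v) + fderiv ℝ (fderiv ℝ τ) y u v := by
  have t0 : HasFDerivAt τ (fderiv ℝ τ y) y := (t1.differentiableAt (by simp)).hasFDerivAt
  have t2 : HasFDerivAt (fderiv ℝ τ) (fderiv ℝ (fderiv ℝ τ) y) y :=
    ((t1.fderiv_right (m := 1) (by norm_cast)).differentiableAt one_ne_zero).hasFDerivAt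
  have t3 := (t1.isSymmSndFDerivAt (by simp; norm_cast)).eq
  have e0 := e.self_of_nhds
  have de : ∀ x u v, fderiv ℝ G₁ y x u v =
      fderiv ℝ G₂ (τ y) (fderiv ℝ τ y x) (fderiv ℝ τ y u) (fderiv ℝ τ y v) +
      G₂ (τ y) (fderiv ℝ (fderiv ℝ τ) y x u) (fderiv ℝ τ y v) +
      G₂ (τ y) (fderiv ℝ τ y u) (fderiv ℝ (fderiv ℝ τ) y x v) := fun x u v => by
    have a1 : (fun z => G₁ z u v) =ᶠ[𝓝 y]
        fun z => G₂ (τ z) (fderiv ℝ τ z u) (fderiv ℝ τ z v) := e.mono fun z hz => hz u v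
    have a0 : HasFDerivAt (fun z => G₂ (τ z)) ((fderiv ℝ G₂ (τ y)).comp (fderiv ℝ τ y)) y :=
      HasFDerivAt.comp (g := G₂) _ (cm_diff h₂ hm).hasFDerivAt t0
    have a3 := a0.clm_apply (t2.clm_apply (hasFDerivAt_const u _))
    have a2 := a3.clm_apply (t2.clm_apply (hasFDerivAt_const v _))
    rw [← fd2 (cm_diff h₁ hs), (a2.congr_of_eventuallyEq a1).fderiv]
    simp
    ring
  have sj : Function.Surjective (fderiv ℝ τ y : E →ₗ[ℝ] E) :=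
    LinearMap.injective_iff_surjective.1 fun a b hab => nondeg h₁ hs fun w => by
      rw [e0, e0]
      exact congrArg (fun x => G₂ _ x _) hab
  refine ⟨sj, fun u v => nondeg h₂ hm fun w' => ?_⟩
  obtain ⟨w, rfl⟩ := sj w'
  have k := g₁.low _ hs u v w
  rw [e0, de, de, de, t3 w u, t3 w v, t3 v u,
    h₂.symm _ hm (fderiv ℝ τ y v) (fderiv ℝ (fderiv ℝ τ) y u w),
    h₂.symm _ hm (fderiv ℝ τ y u) (fderiv ℝ (fderiv ℝ τ) y v w)] at k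
  simp only [map_add, add_apply, g₂.low _ hm, ContinuousLinearMap.coe_coe]
  linarith

theorem dchg (h₁ : CM G₁ Ω₁) (h₂ : CM G₂ Ω₂) (g₁ : IsGam G₁ Ω₁ Γ₁) (g₂ : IsGam G₂ Ω₂ Γ₂)
    (hs : y ∈ Ω₁) (hm : τ y ∈ Ω₂) (t1 : ContDiffAt ℝ ∞ τ y)
    (e : ∀ᶠ z in 𝓝 y, ∀ u v, fderiv ℝ τ z (Γ₁ z u v) =
      Γ₂ (τ z) (fderiv ℝ τ z u) (fderiv ℝ τ z v) + fderiv ℝ (fderiv ℝ τ) z u v) (x u v : E) :
    fderiv ℝ τ y (fderiv ℝ Γ₁ y x u v) =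
      fderiv ℝ Γ₂ (τ y) (fderiv ℝ τ y x) (fderiv ℝ τ y u) (fderiv ℝ τ y v) +
      Γ₂ (τ y) (fderiv ℝ (fderiv ℝ τ) y x u) (fderiv ℝ τ y v) +
      Γ₂ (τ y) (fderiv ℝ τ y u) (fderiv ℝ (fderiv ℝ τ) y x v) +
      fderiv ℝ (fderiv ℝ (fderiv ℝ τ)) y x u v - fderiv ℝ (fderiv ℝ τ) y x (Γ₁ y u v) := by
  have t0 : HasFDerivAt τ (fderiv ℝ τ y) y := (t1.differentiableAt (by simp)).hasFDerivAt
  have s1 : ContDiffAt ℝ 2 (fderiv ℝ τ) y := t1.fderiv_right (m := 2) (by norm_cast)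
  have t2 : HasFDerivAt (fderiv ℝ τ) (fderiv ℝ (fderiv ℝ τ) y) y :=
    (s1.differentiableAt (by simp)).hasFDerivAt
  have t3 : HasFDerivAt (fderiv ℝ (fderiv ℝ τ)) (fderiv ℝ (fderiv ℝ (fderiv ℝ τ)) y) y :=
    ((s1.fderiv_right (m := 1) (by norm_num)).differentiableAt one_ne_zero).hasFDerivAt
  have a1 : (fun z => fderiv ℝ τ z (Γ₁ z u v)) =ᶠ[𝓝 y] fun z =>
      Γ₂ (τ z) (fderiv ℝ τ z u) (fderiv ℝ τ z v) + fderiv ℝ (fderiv ℝ τ) z u v :=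
    e.mono fun z hz => hz u v
  have a0 : HasFDerivAt (fun z => Γ₂ (τ z)) ((fderiv ℝ Γ₂ (τ y)).comp (fderiv ℝ τ y)) y :=
    HasFDerivAt.comp (g := Γ₂) _ (gam_diff h₂ g₂ hm).hasFDerivAt t0
  have a3 := a0.clm_apply (t2.clm_apply (hasFDerivAt_const u _))
  have a2 := a3.clm_apply (t2.clm_apply (hasFDerivAt_const v _))
  have a4 := (t3.clm_apply (hasFDerivAt_const u _)).clm_apply (hasFDerivAt_const v _)
  have a5 := t2.clm_apply (((gam_diff h₁ g₁ hs).hasFDerivAt.clm_apply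
    (hasFDerivAt_const u y)).clm_apply (hasFDerivAt_const v y))
  have a6 := congrArg (fun f : E →L[ℝ] E => f x) (a5.unique ((a2.add a4).congr_of_eventuallyEq a1))
  simp only [ContinuousLinearMap.comp_zero, zero_add, add_apply, ContinuousLinearMap.comp_apply,
    ContinuousLinearMap.flip_apply, map_add] at a6
  rw [eq_sub_iff_add_eq, a6]
  abel

end Ii

open Aa Ii in
theorem iStmt : IStmt := by
  rintro G₁ G₂ τ y ⟨Ω₁, hs, h₁⟩ ⟨Ω₂, hm, h₂⟩ e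
  obtain ⟨Γ₁, g₁⟩ := gam G₁ Ω₁ h₁
  obtain ⟨Γ₂, g₂⟩ := gam G₂ Ω₂ h₂
  have t1 := e.self_of_nhds.1
  have e1 : ∀ᶠ z in 𝓝 y, Function.Surjective (fderiv ℝ τ z) ∧ ∀ u v, fderiv ℝ τ z (Γ₁ z u v) =
      Γ₂ (τ z) (fderiv ℝ τ z u) (fderiv ℝ τ z v) + fderiv ℝ (fderiv ℝ τ) z u v := by
    filter_upwards [e.eventually_nhds, h₁.isOpen.mem_nhds hs,
      t1.continuousAt.eventually_mem (h₂.isOpen.mem_nhds hm)] with z a b c
    exact chg h₁ h₂ g₁ g₂ b c a.self_of_nhds.1 (a.mono fun _ h => h.2)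
  have d := dchg h₁ h₂ g₁ g₂ hs hm t1 (e1.mono fun _ h => h.2)
  have c := e1.self_of_nhds.2
  have t3 := (t1.isSymmSndFDerivAt (by simp; norm_cast)).eq
  have t4 := ((t1.fderiv_right (m := 2) (by norm_cast)).isSymmSndFDerivAt (by simp)).eq
  refine ⟨e1.self_of_nhds.1, fun u v => ?_⟩
  rw [curv, curv, e.self_of_nhds.2, riem_eq h₁ g₁ hs, riem_eq h₂ g₂ hm]
  congr 2
  simp only [map_add, map_sub, d, c, t3 v u, t4 v u]
  abel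

end Vale.Agent.P250
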