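import Vale.Agent.P250.Spec

/-! Module L: calculus of the Levi form. -/

open scoped ContDiff Topology ComplexConjugate
open Set Filter

namespace Vale.Agent.P250

namespace Ll

section
variable {W W' : Type} [NormedAddCommGroup W] [NormedSpace ℝ W] [NormedAddCommGroup W']
  [NormedSpace ℝ W'] {x : W}

theorem h2 {f : W → W'} (h : ContDiffAt ℝ 2 f x) :
    HasFDerivAt (fderiv ℝ f) (fderiv ℝ (fderiv ℝ f) x) x :=
  ((h.fderiv_right (m := 1) (by norm_num)).differentiableAt one_ne_zero).hasFDerivAt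

theorem h1 {f : W → W'} (h : ContDiffAt ℝ 2 f x) : ∀ᶠ z in 𝓝 x, HasFDerivAt f (fderiv ℝ f z) z :=
  (h.eventually (by simp)).mono fun _ hz => (hz.differentiableAt (by simp)).hasFDerivAt

theorem d2add {f g : W → ℝ} (hf : ContDiffAt ℝ 2 f x) (hg : ContDiffAt ℝ 2 g x) (u v : W) :
    D2 (fun z => f z + g z) x u v = D2 f x u v + D2 g x u v := by
  have e : fderiv ℝ (fun z => f z + g z) =ᶠ[𝓝 x] fun z => fderiv ℝ f z + fderiv ℝ g z :=
    ((h1 hf).and (h1 hg)).mono fun z hz => (hz.1.fun_add hz.2).fderiv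
  rw [D2, e.fderiv_eq, ((h2 hf).fun_add (h2 hg)).fderiv]
  rfl

theorem d2mul {f g : W → ℝ} (hf : ContDiffAt ℝ 2 f x) (hg : ContDiffAt ℝ 2 g x) (u v : W) :
    D2 (fun z => f z * g z) x u v = f x * D2 g x u v + g x * D2 f x u v +
      (fderiv ℝ f x u * fderiv ℝ g x v + fderiv ℝ f x v * fderiv ℝ g x u) := by
  have e : fderiv ℝ (fun z => f z * g z) =ᶠ[𝓝 x]
      fun z => f z • fderiv ℝ g z + g z • fderiv ℝ f z :=
    ((h1 hf).and (h1 hg)).mono fun z hz => (hz.1.fun_mul hz.2).fderiv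
  rw [D2, e.fderiv_eq, (((h1 hf).self_of_nhds.fun_smul (h2 hg)).fun_add
    ((h1 hg).self_of_nhds.fun_smul (h2 hf))).fderiv]
  simp [D2]
  ring

theorem d2const (c : ℝ) (u v : W) : D2 (fun _ : W => c) x u v = 0 := by
  simp [D2]

theorem d2comp {f : W' → ℝ} {Ψ : W → W'} (hΨ : ContDiffAt ℝ 2 Ψ x) (hf : ContDiffAt ℝ 2 f (Ψ x))
    (u v : W) : D2 (fun z => f (Ψ z)) x u v = D2 f (Ψ x) (fderiv ℝ Ψ x u) (fderiv ℝ Ψ x v) +
      fderiv ℝ f (Ψ x) (fderiv ℝ (fderiv ℝ Ψ) x u v) := by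
  have e : fderiv ℝ (fun z => f (Ψ z)) =ᶠ[𝓝 x] fun z => (fderiv ℝ f (Ψ z)).comp (fderiv ℝ Ψ z) :=
    ((h1 hΨ).and (hΨ.continuousAt.eventually (h1 hf))).mono fun z hz => (hz.2.comp z hz.1).fderiv
  have a : HasFDerivAt (fun z => fderiv ℝ f (Ψ z)) ((D2 f (Ψ x)).comp (fderiv ℝ Ψ x)) x :=
    HasFDerivAt.comp (g := fderiv ℝ f) x (h2 hf) (h1 hΨ).self_of_nhds
  rw [D2, e.fderiv_eq, (a.clm_comp (h2 hΨ)).fderiv]
  simp [add_comm]

theorem d2lin (l : W →L[ℝ] ℝ) (u v : W) : D2 l x u v = 0 := by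
  have : fderiv ℝ l = fun _ => l := funext fun _ => l.fderiv
  simp [D2, this]

theorem d2real {F : ℝ → ℝ} {s : ℝ} (hF : ContDiffAt ℝ 2 F s) (a b : ℝ) :
    D2 F s a b = deriv (deriv F) s * (a * b) := by
  have k := ((h2 hF).clm_apply (hasFDerivAt_const (1 : ℝ) s)).hasDerivAt.deriv
  have e : D2 F s a b = a * (b * D2 F s 1 1) := by
    have h1 := (D2 F s).map_smul a (1 : ℝ)
    have h2 := (D2 F s 1).map_smul b (1 : ℝ)
    simp only [smul_eq_mul, mul_one] at h1 h2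
    rw [h1, smul_apply, h2, smul_eq_mul]
  rw [e, show deriv (deriv F) s = D2 F s 1 1 by simpa [D2] using k]
  ring

theorem compR {F : ℝ → ℝ} {s : W → ℝ} (hs : ContDiffAt ℝ 2 s x) (hF : ContDiffAt ℝ 2 F (s x))
    (u v : W) : D2 (fun z => F (s z)) x u v = deriv F (s x) * D2 s x u v +
      deriv (deriv F) (s x) * (fderiv ℝ s x u * fderiv ℝ s x v) := by
  rw [d2comp hs hF, d2real hF, fderiv_eq_deriv_mul, add_comm]
  rfl

end

section
variable {W W' : Type} [NormedAddCommGroup W] [NormedSpace ℝ W] [NormedSpace ℂ W]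
  [IsScalarTower ℝ ℂ W] [NormedAddCommGroup W'] [NormedSpace ℝ W'] [NormedSpace ℂ W']
  [IsScalarTower ℝ ℂ W'] [CompleteSpace W'] {x : W}

theorem pull {f : W' → ℝ} {Ψ : W → W'} (hΨ : AnalyticAt ℂ Ψ x) (hf : ContDiffAt ℝ 2 f (Ψ x))
    (u v : W) : lev (fun z => f (Ψ z)) x u v = lev f (Ψ x) (fderiv ℂ Ψ x u) (fderiv ℂ Ψ x v) := by
  have c : ContDiffAt ℝ 2 Ψ x := (hΨ.contDiffAt (n := 2)).restrict_scalars ℝ
  have e1 : ∀ u, fderiv ℝ Ψ x u = fderiv ℂ Ψ x u := fun u => by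
    rw [hΨ.differentiableAt.fderiv_restrictScalars ℝ]; rfl
  have e2 : ∀ u v, fderiv ℝ (fderiv ℝ Ψ) x u v = fderiv ℂ (fderiv ℂ Ψ) x u v := fun u v => by
    have a := (h2 c).clm_apply (hasFDerivAt_const v x)
    have b := (hΨ.fderiv.differentiableAt.hasFDerivAt.clm_apply (hasFDerivAt_const v x)).restrictScalars ℝ
    have e : (fun z => fderiv ℝ Ψ z v) =ᶠ[𝓝 x] fun z => fderiv ℂ Ψ z v :=
      hΨ.eventually_analyticAt.mono fun z hz => by
        simp only [hz.differentiableAt.fderiv_restrictScalars ℝ]; rfl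
    simpa using congrArg (fun l : W →L[ℝ] W' => l u) (a.unique (b.congr_of_eventuallyEq e))
  simp only [lev, d2comp c hf, e1, e2, map_smul, smul_apply, smul_smul, Complex.I_mul_I,
    neg_one_smul, map_neg]
  ring

theorem re {F : W → ℂ} (hF : AnalyticAt ℂ F x) (u v : W) : lev (fun z => (F z).re) x u v = 0 := by
  have := pull (f := Complex.reCLM) hF Complex.reCLM.contDiff.contDiffAt u v
  refine this.trans ?_
  simp only [lev, d2lin, add_zero]

end

theorem logre {W : Type} [NormedAddCommGroup W] [NormedSpace ℂ W] {j : W → ℂ} {x : W}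
    (hj : AnalyticAt ℂ j x) (h0 : j x ≠ 0) :
    ∃ F : W → ℂ, AnalyticAt ℂ F x ∧ ∀ᶠ z in 𝓝 x, Real.log (‖j z‖ ^ 2) = (F z).re := by
  refine ⟨fun z => 2 * Complex.log (j z / j x) + (Real.log (‖j x‖ ^ 2) : ℝ),
    (analyticAt_const.mul ((hj.div_const (c := j x)).clog (by simp [h0]))).add analyticAt_const, ?_⟩
  filter_upwards [hj.continuousAt.eventually_ne h0] with z hz
  simp [Complex.log_re, Real.log_div (norm_ne_zero_iff.2 hz) (norm_ne_zero_iff.2 h0)]
  ring

theorem nq : ContDiff ℝ ∞ fun z : ℂ => ‖z‖ ^ 2 := contDiff_norm_sq ℝ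

theorem n1 (x u : ℂ) : fderiv ℝ (fun z : ℂ => ‖z‖ ^ 2) x u = 2 * (conj x * u).re := by
  rw [(hasStrictFDerivAt_norm_sq x).hasFDerivAt.fderiv]
  simp [mul_comm]
  ring

theorem n2 (x u v : ℂ) : D2 (fun z : ℂ => ‖z‖ ^ 2) x u v = 2 * (conj u * v).re := by
  have : fderiv ℝ (fun z : ℂ => ‖z‖ ^ 2) = (2 • innerSL ℝ : ℂ →L[ℝ] ℂ →L[ℝ] ℝ) :=
    funext fun z => (hasStrictFDerivAt_norm_sq z).hasFDerivAt.fderiv
  rw [D2, this, ContinuousLinearMap.fderiv]
  change 2 • inner ℝ u v = _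
  simp [mul_comm]
  ring

theorem n3 (x u v : ℂ) : lev (fun z : ℂ => ‖z‖ ^ 2) x u v = 4 * (conj u * v).re := by
  simp [lev, n2]
  ring

theorem lg {s : ℝ} (hs : s < 1) : ContDiffAt ℝ ∞ (fun t => -Real.log (1 - t)) s ∧
    deriv (fun t => -Real.log (1 - t)) s = (1 - s)⁻¹ ∧
    deriv (deriv fun t => -Real.log (1 - t)) s = (1 - s)⁻¹ ^ 2 := by
  have d : ∀ s < (1 : ℝ), deriv (fun t => -Real.log (1 - t)) s = (1 - s)⁻¹ := fun s hs => by
    have := (((hasDerivAt_id s).const_sub 1).log (sub_pos.2 hs).ne').fun_neg.deriv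
    simpa [neg_div] using this
  refine ⟨((contDiffAt_const.sub contDiffAt_id).log (sub_pos.2 hs).ne').neg, d s hs, ?_⟩
  have e : (deriv fun t => -Real.log (1 - t)) =ᶠ[𝓝 s] fun t => (1 - t)⁻¹ :=
    (gt_mem_nhds hs).mono d
  rw [e.deriv_eq]
  simpa using (((hasDerivAt_id s).const_sub 1).fun_inv (sub_pos.2 hs).ne').deriv

theorem vq : ContDiff ℝ ∞ nsq := (nq.comp contDiff_fst).add (nq.comp contDiff_snd)

theorem v1 (x X : V) : fderiv ℝ nsq x X = 2 * (conj x.1 * X.1).re + 2 * (conj x.2 * X.2).re := by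
  have a := fun z => (nq.differentiable (by simp) z).hasFDerivAt
  have := (((a x.1).comp x hasFDerivAt_fst).add ((a x.2).comp x hasFDerivAt_snd)).fderiv
  rw [← n1, ← n1]
  exact congrArg (fun l : V →L[ℝ] ℝ => l X) this

theorem v2 (x X Y : V) : lev nsq x X Y = 4 * al 1 1 X Y := by
  have c : ∀ z, ContDiffAt ℝ 2 (fun z : ℂ => ‖z‖ ^ 2) z := fun z =>
    nq.contDiffAt.of_le (by norm_cast)
  have a := pull (Ψ := Prod.fst) (x := x) analyticAt_fst (c _) X Y
  have b := pull (Ψ := Prod.snd) (x := x) analyticAt_snd (c _) X Y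
  have e := fun X Y => d2add (x := x) ((c x.1).comp x contDiffAt_fst) ((c x.2).comp x contDiffAt_snd) X Y
  simp only [n3, fderiv_fst, fderiv_snd, ContinuousLinearMap.coe_fst', ContinuousLinearMap.coe_snd'] at a b
  simp only [lev, Function.comp_def] at a b e ⊢
  change D2 (fun z : V => ‖z.1‖ ^ 2 + ‖z.2‖ ^ 2) x _ _ + D2 (fun z : V => ‖z.1‖ ^ 2 + ‖z.2‖ ^ 2) x _ _ = _
  rw [e, e, al]
  linarith

theorem levR {W : Type} [NormedAddCommGroup W] [NormedSpace ℝ W] [NormedSpace ℂ W] {x : W}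
    {F : ℝ → ℝ} {s : W → ℝ} (hs : ContDiffAt ℝ 2 s x) (hF : ContDiffAt ℝ 2 F (s x)) (u v : W) :
    lev (fun z => F (s z)) x u v = deriv F (s x) * lev s x u v + deriv (deriv F) (s x) *
      (fderiv ℝ s x u * fderiv ℝ s x v
        + fderiv ℝ s x (Complex.I • u) * fderiv ℝ s x (Complex.I • v)) := by
  simp only [lev, compR hs hF]
  ring

theorem cc (u : ℂ) : (conj u * u).re = ‖u‖ ^ 2 := by
  simp [Complex.sq_norm, Complex.normSq_apply]

theorem low {W : Type} [NormedAddCommGroup W] [NormedSpace ℝ W] [NormedSpace ℂ W] {x u : W}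
    {s : W → ℝ} (hs : ContDiffAt ℝ ∞ s x) (h0 : 0 ≤ s x) (h : s x < 1) (hl : 0 ≤ lev s x u u) :
    lev s x u u ≤ lev (fun z => -Real.log (1 - s z)) x u u ∧
      fderiv ℝ (fun z => -Real.log (1 - s z)) x u ^ 2 ≤ lev (fun z => -Real.log (1 - s z)) x u u := by
  obtain ⟨a, b, c⟩ := lg h
  have e := levR (F := fun t => -Real.log (1 - t)) (hs.of_le (by norm_cast)) (a.of_le (by norm_cast)) u u
  have d := congrArg (fun l : W →L[ℝ] ℝ => l u) ((a.differentiableAt (by simp)).hasDerivAt.comp_hasFDerivAt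
    x (hs.differentiableAt (by simp)).hasFDerivAt).fderiv
  simp only [Function.comp_def, b, smul_apply, smul_eq_mul] at d
  rw [e, b, c, d]
  have k : 1 ≤ (1 - s x)⁻¹ := one_le_inv_iff₀.2 ⟨by linarith, by linarith⟩
  constructor <;> nlinarith [mul_le_mul_of_nonneg_right k hl,
    sq_nonneg ((1 - s x)⁻¹ * fderiv ℝ s x u), sq_nonneg ((1 - s x)⁻¹ * fderiv ℝ s x (Complex.I • u))]

end Ll

open Ll in
theorem levFacts : LevFacts where
  congr f g x u v h := by simp only [lev, D2, h.fderiv.fderiv_eq]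
  const c x u v := by simp only [lev, d2const, add_zero]
  add f g x u v hf hg := by simp only [lev, d2add hf hg]; ring
  cmul c f x u v hf := by
    simp only [lev, d2mul contDiffAt_const hf, d2const]
    simp
    ring
  mul f g x u v hf hg := by simp only [lev, d2mul hf hg]; ring
  comp F s x u v hs hF := levR hs hF u v
  pull f Ψ x u v hΨ hf := pull hΨ hf u v
  re F x u v hF := re hF u v
  logre j x hj h0 := logre hj h0
  logn j x u v hj h0 := by
    obtain ⟨F, h1, h2⟩ := logre hj h0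
    refine ⟨(Complex.reCLM.contDiff.contDiffAt.comp x
      ((h1.contDiffAt (n := ∞)).restrict_scalars ℝ)).congr_of_eventuallyEq h2, ?_⟩
    rw [← re h1 u v]
    simp only [lev, D2, (show _ =ᶠ[𝓝 x] _ from h2).fderiv.fderiv_eq]
  one f x u v hf := by
    have s : D2 f x Complex.I 1 = D2 f x 1 Complex.I := (hf.isSymmSndFDerivAt (by simp)).eq _ _
    have e : ∀ u : ℂ, u = u.re • (1 : ℂ) + u.im • Complex.I := fun u => by simp
    have k : ∀ u v : ℂ, D2 f x u v = u.re * v.re * D2 f x 1 1 + u.im * v.im * D2 f x Complex.I Complex.I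
        + (u.re * v.im + u.im * v.re) * D2 f x 1 Complex.I := fun u v => by
      conv_lhs => rw [e u, e v]
      simp only [map_add, map_smul, add_apply, smul_apply, smul_eq_mul, s]
      ring
    rw [lev, lev, k u, k (Complex.I • u)]
    simp
    ring
  nsq1 x u v := ⟨n1 x u, n3 x u v⟩
  psi1 z hz := by
    have h : ‖z‖ ^ 2 < 1 := by nlinarith [norm_nonneg z]
    refine ⟨ContDiffAt.comp (g := fun t => -Real.log (1 - t)) z (lg h).1 nq.contDiffAt, fun u => ?_⟩
    have := (low (u := u) nq.contDiffAt (by positivity) h (by rw [n3, cc]; positivity)).1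
    rwa [n3, cc] at this
  psi2 x hx := by
    refine ⟨(lg hx).1.comp x vq.contDiffAt, fun X => ?_⟩
    have e : lev nsq x X X = 4 * nsq X := by rw [v2, al, cc, cc, nsq]; ring
    have := low (u := X) vq.contDiffAt (by unfold nsq; positivity) hx (by rw [e]; unfold nsq; positivity)
    rwa [e] at this
  psi3 X Y := by
    have h : nsq 0 < 1 := by simp [nsq]
    have := levR (F := fun t => -Real.log (1 - t)) (vq.contDiffAt.of_le (by norm_cast))
      ((lg h).1.of_le (by norm_cast)) X Y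
    rw [(lg h).2.1, v2] at this
    refine this.trans ?_
    simp [v1, nsq]

end Vale.Agent.P250
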