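import Vale.Agent.P250.Spec

/-! Module M of P250: positivity of the metric and an exhaustion function. -/

open scoped Topology ComplexConjugate ContDiff
open Set Filter Metric

namespace Vale.Agent.P250

namespace Mm

variable {φ : V → ℝ} {p : E}

lemma two {W : Type} [NormedAddCommGroup W] [NormedSpace ℝ W] {f : W → ℝ} {x : W}
    (h : ContDiffAt ℝ ∞ f x) : ContDiffAt ℝ 2 f x := h.of_le (by norm_cast)

lemma fst_sm {f : V → ℝ} (h : ContDiffAt ℝ ∞ f p.1) : ContDiffAt ℝ ∞ (fun z : E => f z.1) p :=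
  h.comp p contDiffAt_fst

lemma fst_d {f : V → ℝ} (h : ContDiffAt ℝ ∞ f p.1) (u : E) :
    fderiv ℝ (fun z : E => f z.1) p u = fderiv ℝ f p.1 u.1 := by
  have := ((h.differentiableAt (by simp)).hasFDerivAt.comp p hasFDerivAt_fst).fderiv
  exact congrArg (fun T : E →L[ℝ] ℝ => T u) this

lemma fst_lev (hL : LevFacts) {f : V → ℝ} (h : ContDiffAt ℝ ∞ f p.1) (u : E) :
    lev (fun z : E => f z.1) p u u = lev f p.1 u.1 u.1 := by
  rw [hL.pull f Prod.fst p u u analyticAt_fst (two h), fderiv_fst]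
  rfl

lemma n_sm (p : E) : ContDiffAt ℝ ∞ (fun z : E => ‖z.2‖ ^ 2) p := contDiffAt_snd.norm_sq ℝ

lemma n_d (hL : LevFacts) (p u : E) :
    fderiv ℝ (fun z : E => ‖z.2‖ ^ 2) p u = 2 * (conj p.2 * u.2).re := by
  have h : DifferentiableAt ℝ (fun z : ℂ => ‖z‖ ^ 2) p.2 :=
    ((contDiff_norm_sq ℝ (n := 1)).differentiable one_ne_zero) _
  have := (h.hasFDerivAt.comp p hasFDerivAt_snd).fderiv
  exact (congrArg (fun T : E →L[ℝ] ℝ => T u) this).trans (hL.nsq1 p.2 u.2 u.2).1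

lemma n_lev (hL : LevFacts) (p u : E) :
    lev (fun z : E => ‖z.2‖ ^ 2) p u u = 4 * (conj u.2 * u.2).re := by
  rw [hL.pull (fun z : ℂ => ‖z‖ ^ 2) Prod.snd p u u analyticAt_snd
    (contDiff_norm_sq ℝ).contDiffAt, fderiv_snd]
  exact (hL.nsq1 _ _ _).2

lemma sig_sm (h : ContDiffAt ℝ ∞ φ p.1) : ContDiffAt ℝ ∞ (sig φ) p :=
  (n_sm p).mul (fst_sm h).exp

lemma sig_lev (hL : LevFacts) (h : ContDiffAt ℝ ∞ φ p.1) (u : E) :
    lev (sig φ) p u u = Real.exp (φ p.1) * (‖2 * u.2 + p.2 * (fderiv ℝ φ p.1 u.1 -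
      fderiv ℝ φ p.1 (Complex.I • u.1) * Complex.I)‖ ^ 2 + ‖p.2‖ ^ 2 * lev φ p.1 u.1 u.1) := by
  have h1 := fst_sm h
  have h2 : ∀ v, fderiv ℝ (fun z : E => Real.exp (φ z.1)) p v =
      Real.exp (φ p.1) * fderiv ℝ φ p.1 v.1 := by
    intro v
    rw [fderiv_exp (h1.differentiableAt (by simp)), smul_apply, fst_d h, smul_eq_mul]
  have h3 := hL.mul (fun z : E => ‖z.2‖ ^ 2) (fun z : E => Real.exp (φ z.1)) p u u (two (n_sm p))
    (two h1.exp)
  have h4 := hL.comp Real.exp (fun z : E => φ z.1) p u u (two h1) Real.contDiff_exp.contDiffAt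
  rw [h4, Real.deriv_exp, Real.deriv_exp, fst_lev hL h, n_lev hL, n_d hL, n_d hL, h2, h2, fst_d h,
    fst_d h] at h3
  refine h3.trans ?_
  rw [show (Complex.I • u).1 = Complex.I • u.1 from rfl]
  simp [Complex.sq_norm, Complex.normSq_apply]
  ring

lemma prof_d1 (ε : ℝ) {s : ℝ} (hs : s < 1) :
    HasDerivAt (prof ε) ((√(1 - s))⁻¹ + ε * (1 - s)⁻¹) s := by
  have h0 : 1 - s ≠ 0 := (sub_pos.2 hs).ne'
  have h1 : HasDerivAt (fun s : ℝ => 1 - s) (-1) s := (hasDerivAt_id s).const_sub 1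
  have h2 := ((h1.sqrt h0).const_mul (-2)).fun_sub ((h1.log h0).const_mul ε)
  refine h2.congr_deriv ?_
  have := Real.sqrt_pos.2 (sub_pos.2 hs)
  field_simp
  ring

lemma prof_d2 (ε : ℝ) {s : ℝ} (hs : s < 1) : ε * (1 - s)⁻¹ ^ 2 ≤ deriv (deriv (prof ε)) s := by
  have e : deriv (prof ε) =ᶠ[𝓝 s] fun s => (√(1 - s))⁻¹ + ε * (1 - s)⁻¹ :=
    (eventually_lt_nhds hs).mono fun t ht => (prof_d1 ε ht).deriv
  have h0 : 1 - s ≠ 0 := (sub_pos.2 hs).ne'
  have hq := Real.sqrt_pos.2 (sub_pos.2 hs)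
  have h1 : HasDerivAt (fun s : ℝ => 1 - s) (-1) s := (hasDerivAt_id s).const_sub 1
  have h2 := ((h1.sqrt h0).fun_inv hq.ne').fun_add ((h1.fun_inv h0).const_mul ε)
  rw [e.deriv_eq, h2.deriv, neg_neg, one_div, inv_pow, neg_div (2 * _), neg_neg]
  exact le_add_of_nonneg_left (by positivity)

lemma prof_sm (ε : ℝ) {s : ℝ} (hs : s < 1) : ContDiffAt ℝ ∞ (prof ε) s :=
  (contDiffAt_const.mul ((contDiffAt_const.sub contDiffAt_id).sqrt (sub_pos.2 hs).ne')).sub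
    (contDiffAt_const.mul ((contDiffAt_const.sub contDiffAt_id).log (sub_pos.2 hs).ne'))

lemma pot_lev (hL : LevFacts) (hφ : Psh φ) (A : ℝ) {ε : ℝ} (hε : 0 < ε) (hp : p ∈ Om φ) (u : E) :
    ∃ k > 0, A * lev psi0 p.1 u.1 u.1 + k * lev (sig φ) p u u +
      ε * ((1 - sig φ p)⁻¹ * fderiv ℝ (sig φ) p u) ^ 2 ≤ lev (pot A ε φ) p u u := by
  have h1 := (hL.psi2 _ hp.1).1
  have h2 := sig_sm (hφ _ hp.1).1
  have h3 : ContDiffAt ℝ ∞ (fun z => prof ε (sig φ z)) p := (prof_sm ε hp.2).comp p h2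
  have h4 := hL.add (fun z : E => A * psi0 z.1) (fun z => prof ε (sig φ z)) p u u
    (two (contDiffAt_const.mul (fst_sm h1))) (two h3)
  rw [hL.cmul A _ p u u (two (fst_sm h1)), fst_lev hL h1,
    hL.comp (prof ε) (sig φ) p u u (two h2) (two (prof_sm ε hp.2)), (prof_d1 ε hp.2).deriv] at h4
  have h0 := sub_pos.2 hp.2
  refine ⟨(√(1 - sig φ p))⁻¹ + ε * (1 - sig φ p)⁻¹, by positivity, le_of_le_of_eq ?_ h4.symm⟩
  have h5 := prof_d2 ε hp.2
  have h6 : 0 ≤ ε * (1 - sig φ p)⁻¹ ^ 2 := by positivity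
  nlinarith [mul_le_mul_of_nonneg_right h5 (mul_self_nonneg (fderiv ℝ (sig φ) p u)),
    mul_nonneg (h6.trans h5) (mul_self_nonneg (fderiv ℝ (sig φ) p (Complex.I • u)))]

lemma sig_nn (hL : LevFacts) (hφ : Psh φ) (hp : p ∈ Om φ) (u : E) : 0 ≤ lev (sig φ) p u u := by
  rw [sig_lev hL (hφ _ hp.1).1]
  have := (hφ _ hp.1).2 u.1
  positivity

lemma nsq_nn (x : V) : 0 ≤ nsq x := by unfold nsq; positivity

lemma le_of_log {s c : ℝ} (hs : s < 1) (h : -Real.log (1 - s) ≤ c) : s ≤ 1 - Real.exp (-c) := by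
  rw [neg_le, Real.le_log_iff_exp_le (sub_pos.2 hs)] at h
  linarith

lemma cpt (hL : LevFacts) (hφ : Psh φ) (c : ℝ) :
    IsCompact {p : E | p ∈ Om φ ∧ psi0 p.1 - Real.log (1 - sig φ p) ≤ c} := by
  have hr : 1 - Real.exp (-c) < 1 := by linarith [Real.exp_pos (-c)]
  have cn : Continuous nsq := by unfold nsq; fun_prop
  have hK : IsCompact {x : V | nsq x ≤ 1 - Real.exp (-c)} := by
    refine (isCompact_closedBall (0 : V) 1).of_isClosed_subset (isClosed_le cn continuous_const)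
      fun x hx => ?_
    have h : ‖x.1‖ ^ 2 + ‖x.2‖ ^ 2 ≤ 1 - Real.exp (-c) := hx
    rw [mem_closedBall_zero_iff, Prod.norm_def, max_le_iff]
    constructor <;> nlinarith [norm_nonneg x.1, norm_nonneg x.2]
  have hKB : ∀ x : V, nsq x ≤ 1 - Real.exp (-c) → x ∈ Ball := fun x hx => hx.trans_lt hr
  obtain ⟨M, hM⟩ := hK.exists_bound_of_continuousOn (f := φ) fun x hx =>
    (hφ x (hKB x hx)).1.continuousAt.continuousWithinAt
  have h0 := hK.prod (isCompact_closedBall (0 : ℂ) (Real.exp M + 1))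
  have h1 := h0.of_isClosed_subset (ContinuousOn.preimage_isClosed_of_isClosed (f := sig φ)
    (fun q hq => (sig_sm (hφ _ (hKB _ hq.1)).1).continuousAt.continuousWithinAt) h0.isClosed
    (isClosed_Iic (a := 1 - Real.exp (-c)))) inter_subset_left
  have h2 := h1.of_isClosed_subset (ContinuousOn.preimage_isClosed_of_isClosed
    (f := fun p : E => psi0 p.1 - Real.log (1 - sig φ p))
    (fun q hq => ((fst_sm (hL.psi2 _ (hKB _ hq.1.1)).1).sub ((contDiffAt_const.sub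
      (sig_sm (hφ _ (hKB _ hq.1.1)).1)).log
      (sub_pos.2 (lt_of_le_of_lt hq.2 hr)).ne')).continuousAt.continuousWithinAt) h1.isClosed
    (isClosed_Iic (a := c))) inter_subset_left
  refine (congrArg IsCompact (Set.ext fun q => ⟨fun hq => ?_, fun hq => ?_⟩)).mp h2
  · exact ⟨⟨hKB _ hq.1.1.1, lt_of_le_of_lt hq.1.2 hr⟩, hq.2⟩
  · obtain ⟨⟨k1, k2⟩, k3⟩ := hq
    have s0 : 0 ≤ sig φ q := by unfold sig; positivity
    have l1 : Real.log (1 - sig φ q) ≤ 0 := Real.log_nonpos (by linarith) (by linarith)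
    have l2 : Real.log (1 - nsq q.1) ≤ 0 :=
      Real.log_nonpos (sub_pos.2 k1).le (by linarith [nsq_nn q.1])
    have k4 : nsq q.1 ≤ 1 - Real.exp (-c) := le_of_log k1 (by unfold psi0 at k3; linarith)
    refine ⟨⟨⟨k4, mem_closedBall_zero_iff.2 ?_⟩, le_of_log k2 (by unfold psi0 at k3; linarith)⟩, k3⟩
    have k5 : 1 ≤ Real.exp (φ q.1) * Real.exp M := by
      rw [← Real.exp_add]
      exact Real.one_le_exp (by linarith [(abs_le.1 (hM _ k4)).1])
    have k6 : ‖q.2‖ ^ 2 ≤ Real.exp M := by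
      have k7 : ‖q.2‖ ^ 2 * Real.exp (φ q.1) < 1 := k2
      nlinarith [mul_le_mul_of_nonneg_left k5 (sq_nonneg ‖q.2‖), Real.exp_pos M]
    nlinarith [sq_nonneg (‖q.2‖ - 1)]

end Mm

open Mm in
theorem mStmt : MStmt := by
  intro hL φ A ε hφ hA hε
  have cn : Continuous nsq := by unfold nsq; fun_prop
  refine ⟨isOpen_iff_mem_nhds.2 fun p hp => ?_, fun p hp => ?_, fun p hp u hu => ?_,
    fun p => psi0 p.1 - Real.log (1 - sig φ p), 2 / A + 2 / ε, fun p hp => ?_, cpt hL hφ,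
    fun p hp u => ?_⟩
  · exact Eventually.and ((cn.comp continuous_fst).continuousAt.eventually (gt_mem_nhds hp.1))
      ((sig_sm (hφ _ hp.1).1).continuousAt.eventually (gt_mem_nhds hp.2))
  · exact ((contDiffAt_const.mul (fst_sm (hL.psi2 _ hp.1).1)).add
      ((prof_sm ε hp.2).comp p (sig_sm (hφ _ hp.1).1))).contDiffWithinAt
  · obtain ⟨k, hk, h⟩ := pot_lev hL hφ A hε hp u
    refine lt_of_lt_of_le ?_ h
    have h1 := ((hL.psi2 _ hp.1).2 u.1).1
    have h2 := sig_nn hL hφ hp u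
    have h3 := nsq_nn u.1
    refine add_pos_of_pos_of_nonneg ?_ (by positivity)
    by_cases h0 : u.1 = 0
    · have h4 : u.2 ≠ 0 := fun k => hu (Prod.ext h0 k)
      refine add_pos_of_nonneg_of_pos (mul_nonneg hA.le (by linarith)) (mul_pos hk ?_)
      have h5 := (hφ _ hp.1).2 u.1
      rw [sig_lev hL (hφ _ hp.1).1]
      refine mul_pos (Real.exp_pos _) (add_pos_of_pos_of_nonneg ?_ (by positivity))
      simp [h0, h4]
    · refine add_pos_of_pos_of_nonneg (mul_pos hA (lt_of_lt_of_le ?_ h1)) (by positivity)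
      have h5 : 0 < ‖u.1‖ := norm_pos_iff.2 h0
      rw [Prod.norm_def, lt_max_iff] at h5
      unfold nsq
      rcases h5 with k | k <;> positivity
  · exact (((fst_sm (hL.psi2 _ hp.1).1).sub ((contDiffAt_const.sub
      (sig_sm (hφ _ hp.1).1)).log (sub_pos.2 hp.2).ne')).of_le (by norm_cast)).contDiffWithinAt
  · obtain ⟨k, hk, h⟩ := pot_lev hL hφ A hε hp u
    have h1 := (hL.psi2 _ hp.1).2 u.1
    have h2 := mul_nonneg hk.le (sig_nn hL hφ hp u)
    have d1 := ((fst_sm (hL.psi2 _ hp.1).1).differentiableAt (by simp)).hasFDerivAt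
    have d2 := ((sig_sm (hφ _ hp.1).1).differentiableAt (by simp)).hasFDerivAt
    have d3 := (d1.fun_sub ((d2.const_sub 1).log (sub_pos.2 hp.2).ne')).fderiv
    rw [d3, met_apply]
    simp only [sub_apply, smul_apply, neg_apply, smul_eq_mul, fst_d (hL.psi2 _ hp.1).1, mul_neg,
      sub_neg_eq_add]
    generalize (1 - sig φ p)⁻¹ * fderiv ℝ (sig φ) p u = y at *
    generalize fderiv ℝ psi0 p.1 u.1 = x at *
    have g1 : A * x ^ 2 ≤ lev (pot A ε φ) p u u := by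
      nlinarith [mul_le_mul_of_nonneg_left h1.2 hA.le, mul_nonneg hε.le (sq_nonneg y)]
    have g2 : ε * y ^ 2 ≤ lev (pot A ε φ) p u u := by
      nlinarith [mul_le_mul_of_nonneg_left h1.2 hA.le, mul_nonneg hA.le (sq_nonneg x)]
    have g3 : 2 * x ^ 2 ≤ 2 / A * lev (pot A ε φ) p u u := by
      rw [div_mul_eq_mul_div, le_div_iff₀ hA]; linarith
    have g4 : 2 * y ^ 2 ≤ 2 / ε * lev (pot A ε φ) p u u := by
      rw [div_mul_eq_mul_div, le_div_iff₀ hε]; linarith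
    nlinarith [sq_nonneg (x - y)]

end Vale.Agent.P250
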