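import Vale.Agent.P250.Spec

/-! Module N of P250: Harnack inequality, minimum principle, no minimal family. -/

open scoped Topology ComplexConjugate
open Set Filter Metric

namespace Vale.Agent.P250

namespace Nm0

lemma harn (F : ℂ → ℂ) (R r : ℝ) (z : ℂ) (hF : DifferentiableOn ℂ F (ball 0 R))
    (h0 : ∀ w ∈ ball (0 : ℂ) R, 0 ≤ (F w).re) (hz : ‖z‖ ≤ r) (hr : r < R) :
    (R - r) / (R + r) * (F 0).re ≤ (F z).re := by
  have hr0 : 0 ≤ r := (norm_nonneg z).trans hz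
  have hR : 0 < R := hr0.trans_lt hr
  have hzb : z ∈ ball (0 : ℂ) R := mem_ball_zero_iff.2 (hz.trans_lt hr)
  rcases (h0 0 (mem_ball_self hR)).eq_or_lt with ha | ha
  · rw [← ha, mul_zero]; exact h0 z hzb
  have hden : ∀ w ∈ ball (0 : ℂ) R, F w + conj (F 0) ≠ 0 := by
    intro w hw h
    have := congrArg Complex.re h
    simp only [Complex.add_re, Complex.conj_re, Complex.zero_re] at this
    linarith [h0 w hw]
  have hG : DifferentiableOn ℂ (fun w => (F w - F 0) / (F w + conj (F 0))) (ball 0 R) :=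
    (hF.sub_const _).div (hF.add_const _) hden
  have hm : MapsTo (fun w => (F w - F 0) / (F w + conj (F 0))) (ball 0 R)
      (closedBall ((fun w => (F w - F 0) / (F w + conj (F 0))) 0) 1) := by
    intro w hw
    simp only [sub_self, zero_div, mem_closedBall, dist_zero_right, norm_div]
    refine div_le_one_of_le₀ ?_ (norm_nonneg _)
    refine (pow_le_pow_iff_left₀ (norm_nonneg _) (norm_nonneg _) two_ne_zero).1 ?_
    simp only [Complex.sq_norm, Complex.normSq_apply, Complex.add_re, Complex.sub_re,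
      Complex.add_im, Complex.sub_im, Complex.conj_re, Complex.conj_im]
    nlinarith [mul_nonneg (h0 w hw) ha.le]
  have h1 := Complex.dist_le_div_mul_dist_of_mapsTo_ball hG hm hzb
  simp only [sub_self, zero_div, dist_zero_right, norm_div] at h1
  have hn : 0 < ‖F z + conj (F 0)‖ := norm_pos_iff.2 (hden z hzb)
  rw [div_le_iff₀ hn] at h1
  have h2 : R * ‖F z - F 0‖ ≤ r * ‖F z + conj (F 0)‖ := by
    have h3 : 1 / R * ‖z‖ * ‖F z + conj (F 0)‖ ≤ 1 / R * r * ‖F z + conj (F 0)‖ := by gcongr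
    have h4 := mul_le_mul_of_nonneg_left (h1.trans h3) hR.le
    have e : R * (1 / R * r * ‖F z + conj (F 0)‖) = r * ‖F z + conj (F 0)‖ := by field_simp
    rwa [e] at h4
  have h3 := pow_le_pow_left₀ (by positivity) h2 2
  simp only [mul_pow, Complex.sq_norm, Complex.normSq_apply, Complex.add_re, Complex.sub_re,
    Complex.add_im, Complex.sub_im, Complex.conj_re, Complex.conj_im] at h3
  have hx := h0 z hzb
  have h4 : (R * ((F 0).re - (F z).re)) ^ 2 ≤ (r * ((F z).re + (F 0).re)) ^ 2 := by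
    have h5 : 0 ≤ (R ^ 2 - r ^ 2) * ((F z).im - (F 0).im) ^ 2 :=
      mul_nonneg (by nlinarith) (sq_nonneg _)
    nlinarith
  have h5 := (abs_le_of_sq_le_sq' h4 (by positivity)).2
  rw [div_mul_eq_mul_div, div_le_iff₀ (by positivity)]
  linarith

lemma minp (F : ℂ → ℂ) (r m : ℝ) (z : ℂ) (hF : DifferentiableOn ℂ F (ball 0 1)) (h0 : 0 < r)
    (h1 : r < 1) (hm : ∀ w : ℂ, ‖w‖ = r → m ≤ (F w).re) (hz : ‖z‖ ≤ r) : m ≤ (F z).re := by
  have hd : DiffContOnCl ℂ (fun w => Complex.exp (-F w)) (ball 0 r) := by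
    refine DifferentiableOn.diffContOnCl ?_
    rw [closure_ball _ h0.ne']
    exact (hF.mono (closedBall_subset_ball h1)).neg.cexp
  have h := Complex.norm_le_of_forall_mem_frontier_norm_le (C := Real.exp (-m)) isBounded_ball hd
    (fun w hw => by
      rw [frontier_ball _ h0.ne'] at hw
      rw [Complex.norm_exp, Complex.neg_re, Real.exp_le_exp, neg_le_neg_iff]
      exact hm w (mem_sphere_zero_iff_norm.1 hw))
    (z := z) (by rw [closure_ball _ h0.ne']; exact mem_closedBall_zero_iff.2 hz)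
  rwa [Complex.norm_exp, Complex.neg_re, Real.exp_le_exp, neg_le_neg_iff] at h

variable {W b : ℂ → ℝ} {N : Set ℂ} {β c0 C D ε : ℝ} {F : ℂ → ℂ}

lemma c0_nonneg (h : WOrd W b N β c0 C D) : 0 ≤ c0 := by
  rw [h.hc0]
  refine Real.log_nonneg ?_
  rw [one_le_div (pow_pos h.β0 2)]
  nlinarith [h.β0, h.β1]

lemma node (hD : DiscFacts) (hH : HFacts) (h : WOrd W b N β c0 C D) (hε : 0 ≤ ε)
    (hε3 : ε ≤ 1 / 3) (hF : DifferentiableOn ℂ F (ball 0 1))
    (hu : ∀ ζ : ℂ, ‖ζ‖ < 1 → (F ζ).re ≤ W ζ + ε * psi ζ) {p ζ : ℂ} (hp : p ∈ N) (hζ : ‖ζ‖ < 1)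
    {r : ℝ} (hr : dd p ζ ≤ r) (hr' : r < 3 / 4) :
    (3 / 4 - r) / (3 / 4 + r) * (C * b p + ε * psi p + 2 * C + 2 - (F p).re) ≤
      C * b p + ε * psi p + 2 * C + 2 - (F ζ).re := by
  have hp1 := (h.node p hp).1
  have hb : ∀ η ∈ ball (0 : ℂ) (3 / 4), ‖η‖ < 1 := fun η hη => by
    linarith [mem_ball_zero_iff.1 hη]
  have H := hH.harn (fun η => ((C * b p + ε * psi p + 2 * C + 2 : ℝ) : ℂ) - F (mob p η)) (3 / 4) r
    (mob (-p) ζ) ((hF.comp (fun η hη => (hD.ana p η hp1 (hb η hη)).differentiableAt.differentiableWithinAt)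
      fun η hη => mem_ball_zero_iff.2 (hD.mem p η hp1 (hb η hη))).const_sub _) (fun η hη => by
      have hw := hD.mem p η hp1 (hb η hη)
      have h1 : dd p (mob p η) ≤ 3 / 4 := by
        rw [dd, hD.inv' p η hp1 (hb η hη)]
        exact (mem_ball_zero_iff.1 hη).le
      have h2 := hD.near2 _ _ hp1 hw h1
      have h3 := abs_le.1 ((h.lip p (mob p η)).trans h2)
      have h4 := abs_le.1 h2
      have h5 := hu _ hw
      have h6 := h.upper _ hw
      have h7 := h.hC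
      simp only [Complex.sub_re, Complex.ofReal_re]
      nlinarith) hr hr'
  have e : mob p 0 = p := by simp [mob]
  simpa only [Complex.sub_re, Complex.ofReal_re, hD.inv p ζ hp1 hζ, e] using H

lemma far (hD : DiscFacts) (hH : HFacts) (h : WOrd W b N β c0 C D) (hε : 0 ≤ ε)
    (hε3 : ε ≤ 1 / 3) (hF : DifferentiableOn ℂ F (ball 0 1))
    (hu : ∀ ζ : ℂ, ‖ζ‖ < 1 → (F ζ).re ≤ W ζ + ε * psi ζ) {ζ : ℂ} (hζ : ‖ζ‖ < 1)
    (hs : c0 + 3 ≤ psi ζ) : D / 5 - C * b ζ - ε * psi ζ - 4 * C - 3 ≤ -(F ζ).re := by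
  obtain ⟨p, hp, hd⟩ := h.cob ζ hζ hs
  have hp1 := (h.node p hp).1
  have h1 := node hD hH h hε hε3 hF hu hp hζ hd.le (by norm_num)
  have h2 := hD.near2 _ _ hp1 hζ (by linarith)
  have h3 := abs_le.1 ((h.lip p ζ).trans h2)
  have h4 := abs_le.1 h2
  have h5 := hu p hp1
  have h6 := h.atn p hp
  have h7 := h.hC
  norm_num at h1
  nlinarith

lemma low (hD : DiscFacts) (hH : HFacts) (h : WOrd W b N β c0 C D) (hε : 0 ≤ ε)
    (hε1 : ε * (c0 + 3) ≤ 1) (hF : DifferentiableOn ℂ F (ball 0 1))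
    (hu : ∀ ζ : ℂ, ‖ζ‖ < 1 → (F ζ).re ≤ W ζ + ε * psi ζ) {ζ : ℂ} (hζ : ‖ζ‖ < 1) :
    W ζ - C * b ζ + D / 5 - 7 * C - 4 ≤ W ζ + ε * psi ζ - (F ζ).re := by
  have hc := c0_nonneg h
  have hε3 : ε ≤ 1 / 3 := by nlinarith
  have hC := h.hC
  rcases le_or_gt (c0 + 3) (psi ζ) with hs | hs
  · have := far hD hH h hε hε3 hF hu hζ hs
    linarith
  have he : Real.exp (-(c0 + 3)) < 1 := Real.exp_lt_one_iff.2 (by linarith)
  have he0 := Real.exp_pos (-(c0 + 3))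
  have hr : √(1 - Real.exp (-(c0 + 3))) ^ 2 = 1 - Real.exp (-(c0 + 3)) := Real.sq_sqrt (by linarith)
  have hr1 : √(1 - Real.exp (-(c0 + 3))) < 1 := Real.sqrt_lt' one_pos |>.2 (by linarith)
  have H := hH.minp (fun w => -F w) (√(1 - Real.exp (-(c0 + 3)))) (D / 5 - 7 * C - 4) ζ hF.neg
    (Real.sqrt_pos.2 (by linarith)) hr1 (fun w hw => by
      have h1 : psi w = c0 + 3 := by
        rw [psi, hw, hr, sub_sub_cancel, Real.log_exp, neg_neg]
      have h2 := far hD hH h hε hε3 hF hu (hw.trans_lt hr1) h1.ge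
      have h3 := h.b1 w
      rw [h1, max_eq_left (by linarith)] at h3
      rw [h1] at h2
      rw [Complex.neg_re]
      nlinarith) (by
      refine Real.le_sqrt_of_sq_le ?_
      have h1 : 0 < 1 - ‖ζ‖ ^ 2 := by nlinarith [norm_nonneg ζ]
      rw [psi, neg_lt, Real.lt_log_iff_exp_lt h1] at hs
      linarith)
  rw [Complex.neg_re] at H
  nlinarith [mul_nonneg hε (hD.psi_nonneg ζ hζ), mul_nonneg (zero_le_one.trans hC) (h.b0 ζ)]

end Nm0

theorem hFacts : HFacts := ⟨Nm0.harn, Nm0.minp⟩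

open Nm0 in
theorem nStmt : NStmt := by
  intro hD hH W b N β c0 C D h ε hε hε1 S hS hh
  have hc := c0_nonneg h
  have hε3 : ε ≤ 1 / 3 := by nlinarith
  have hC := h.hC
  have hDD := h.hD
  set U := {x | ∃ g ∈ S, ∃ ζ : ℂ, ‖ζ‖ < 1 ∧ x = W ζ + ε * psi ζ - g ζ} with hU
  have hne : U.Nonempty := by
    obtain ⟨g, hg⟩ := hS
    exact ⟨_, g, hg, 0, by simp, rfl⟩
  have hbd : BddBelow U := ⟨0, by
    rintro _ ⟨g, hg, ζ, hζ, rfl⟩
    linarith [(hh g hg).2.1 ζ hζ]⟩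
  have ad : ∀ g ∈ S, ∃ F : ℂ → ℂ, DifferentiableOn ℂ F (ball 0 1) ∧
      (∀ ζ : ℂ, ‖ζ‖ < 1 → (F ζ).re = g ζ + sInf U) ∧
      ∀ ζ : ℂ, ‖ζ‖ < 1 → (F ζ).re ≤ W ζ + ε * psi ζ := by
    intro g hg
    obtain ⟨F, h1, h2⟩ := (hh g hg).1.exists_analyticOnNhd_ball_re_eq
    have e : ∀ ζ : ℂ, ‖ζ‖ < 1 → (F ζ + (sInf U : ℝ)).re = g ζ + sInf U := fun ζ hζ => by
      rw [Complex.add_re, Complex.ofReal_re, ← h2 (mem_ball_zero_iff.2 hζ)]
    refine ⟨fun w => F w + (sInf U : ℝ), h1.differentiableOn.add_const _, e, fun ζ hζ => ?_⟩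
    have := csInf_le hbd ⟨g, hg, ζ, hζ, rfl⟩
    rw [e ζ hζ]
    linarith
  have p0 : psi 0 = 0 := by simp [psi]
  have z0 : ∀ g ∈ S, D / 5 - 7 * C - 4 ≤ W 0 + ε * psi 0 - g 0 - sInf U := by
    intro g hg
    obtain ⟨F, h1, h2, h3⟩ := ad g hg
    have h4 := low hD hH h hε hε1 h1 h3 (ζ := 0) (by simp)
    have h5 := h.b1 0
    rw [p0, max_eq_right (by linarith)] at h5
    rw [h2 0 (by simp), le_antisymm h5 (h.b0 0)] at h4
    have h6 := h.zero 0 (by simp) (by rw [p0]; exact hc)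
    linarith
  obtain ⟨_, ⟨g, hg, ζ, hζ, rfl⟩, hlt⟩ := exists_lt_of_csInf_lt hne (lt_add_one (sInf U))
  obtain ⟨F, h1, h2, h3⟩ := ad g hg
  have h4 := low hD hH h hε hε1 h1 h3 hζ
  rw [h2 ζ hζ] at h4
  obtain ⟨p, hp, hd⟩ := h.deep ζ hζ (by linarith)
  have hp1 := (h.node p hp).1
  have h5 := node hD hH h hε hε3 h1 h3 hp hζ hd (by norm_num)
  rw [h2 ζ hζ, h2 p hp1] at h5
  obtain ⟨g', hg', e⟩ := (hh g hg).2.2 p hp
  have h6 := z0 g' hg'
  have h7 := h.near p hp ζ hζ (by linarith)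
  have h8 := h.atn p hp
  have h9 := abs_le.1 (hD.near2 _ _ hp1 hζ (by linarith))
  have h10 : ε * psi p - ε * psi ζ ≤ 1 := by nlinarith
  norm_num at h5
  linarith

end Vale.Agent.P250
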