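import Vale.Agent.P250.J

/-! Module Nm: removing the pluriharmonic part of the 2-jet. -/

open scoped ContDiff Topology ComplexConjugate
open Set Filter

namespace Vale.Agent.P250

namespace Nx
open Jx Complex

theorem jquad (l : V →L[ℝ] ℝ) (H : V →L[ℝ] V →L[ℝ] ℝ) (x : V) :
    Jt x (fun z => 1 / 2 * H z z + l z) (fun u z => 1 / 2 * (H u z + H z u) + l u)
      (fun u v _ => 1 / 2 * (H u v + H v u)) (fun _ _ _ _ => 0) fun _ _ _ _ _ => 0 := by
  refine ⟨fun u => Dr.add (Dr.cmul _ (.of_forall fun z => ?_)) (Dr.clm x u l), fun u v => ?_,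
    fun _ _ _ => Dr.const _ _ _, fun _ _ _ _ => Dr.const _ _ _⟩
  · have := H.hasFDerivAt.clm_apply (hasFDerivAt_id z)
    refine ⟨this.differentiableAt, (congrArg (fun L => L u) this.fderiv).trans ?_⟩
    simp [add_comm]
  · exact ((((Dr.clm x v (H u)).add (Dr.clm x v (H.flip u))).cmul (1 / 2)).add
      (Dr.const x v (l u))).of_eq (fun _ => rfl) fun _ => by simp

theorem exF (l : V →L[ℝ] ℝ) (H : V →L[ℝ] V →L[ℝ] ℝ) (h1 : ∀ X Y, H X Y = H Y X)
    (h2 : ∀ X Y, H (I • X) Y = H X (I • Y)) :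
    ∃ F : V → ℂ, AnalyticAt ℂ F 0 ∧ ∀ z, (F z).re = 1 / 2 * H z z + l z := by
  obtain ⟨e, he⟩ : ∃ e : V, e = (1, 0) := ⟨_, rfl⟩
  obtain ⟨f, hf⟩ : ∃ f : V, f = (0, 1) := ⟨_, rfl⟩
  have h3 : ∀ X Y, H (I • X) (I • Y) = -H X Y := fun X Y => by
    rw [h2, smul_smul, I_mul_I, neg_one_smul, map_neg]
  refine ⟨fun z => (l e - I * l (I • e)) * z.1 + (l f - I * l (I • f)) * z.2 +
    ((H e e - I * H (I • e) e) * (z.1 * z.1) + 2 * (H e f - I * H (I • e) f) * (z.1 * z.2) +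
      (H f f - I * H (I • f) f) * (z.2 * z.2)) * (1 / 2 : ℝ), ?_, fun z => ?_⟩
  · have a : AnalyticAt ℂ (fun z : V => z.1) 0 := analyticAt_fst
    have b : AnalyticAt ℂ (fun z : V => z.2) 0 := analyticAt_snd
    exact ((analyticAt_const.mul a).add (analyticAt_const.mul b)).add ((((analyticAt_const.mul
      (a.mul a)).add (analyticAt_const.mul (a.mul b))).add (analyticAt_const.mul (b.mul b))).mul
      analyticAt_const)
  have e0 : z = z.1.re • e + z.1.im • I • e + z.2.re • f + z.2.im • I • f := by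
    rw [he, hf]
    ext <;> simp
  dsimp only
  generalize z.1 = a at e0 ⊢
  generalize z.2 = b at e0 ⊢
  rw [e0]
  simp only [map_add, map_smul, add_apply, smul_apply, smul_eq_mul, h3, ← h2, h1 f e,
    h1 f (I • e), (h1 (I • f) e).trans (h2 e f).symm, add_re, mul_re, mul_im, sub_re, sub_im,
    add_im, ofReal_re, ofReal_im, I_re, I_im, re_ofNat, im_ofNat]
  ring

end Nx

open Jx Nx Complex in
theorem nmStmt : NmStmt := by
  intro χ a1 a2 Λ sm h1 h2 hl h3 h4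
  have bs : ∀ X Y, D2 χ 0 X Y = D2 χ 0 Y X := fun X Y =>
    (sm.self_of_nhds.isSymmSndFDerivAt (by simp; norm_cast)).eq X Y
  let J : V →L[ℝ] V := (I • ContinuousLinearMap.id ℂ V).restrictScalars ℝ
  let H : V →L[ℝ] V →L[ℝ] ℝ := (1 / 2 : ℝ) • (D2 χ 0 - (D2 χ 0).bilinearComp J J)
  have eH : ∀ X Y, H X Y = 1 / 2 * (D2 χ 0 X Y - D2 χ 0 (I • X) (I • Y)) := fun _ _ => rfl
  obtain ⟨F, f1, f2⟩ := exF (fderiv ℝ χ 0) H (fun X Y => by rw [eH, eH, bs X, bs (I • X)])
    fun X Y => by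
      simp only [eH, smul_smul, I_mul_I, neg_one_smul, map_neg, neg_apply]
      ring
  have e : (fun z => χ z - (F z).re) = fun z => -1 * (1 / 2 * H z z + fderiv ℝ χ 0 z) + χ z :=
    funext fun z => by rw [f2]; ring
  have sm' : ∀ᶠ z in 𝓝 0, ContDiffAt ℝ ∞ (fun z => χ z - (F z).re) z := by
    rw [e]
    exact sm.mono fun z a => (contDiffAt_const.mul ((contDiffAt_const.mul
      (H.contDiff.contDiffAt.clm_apply contDiffAt_id)).add
      (fderiv ℝ χ 0).contDiff.contDiffAt)).add a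
  have j := (jquad (fderiv ℝ χ 0) H 0).add (-1) (Jt.self sm)
  rw [← e] at j
  obtain ⟨k2, k3, k4⟩ := (Jt.self sm').uniq j
  refine ⟨F, f1, sm', h1, h2, ContinuousLinearMap.ext fun u => ?_, fun X Y => ?_,
    fun X Y Z => ?_, fun X Y Z T => ?_⟩
  · simpa using (j.d1 u).self_of_nhds.2
  · have := hl X Y
    rw [lev] at this
    rw [k2, eH, eH, bs Y, bs (I • Y)]
    linarith
  · rw [k3, mul_zero, zero_add]
    exact h3 X Y Z
  · rw [k4, mul_zero, zero_add]
    exact h4 X Y Z T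

end Vale.Agent.P250
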