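import Vale.Agent.P250.Spec

/-! P250, modules O and Jc: holomorphy of the derivative and the Jacobian bound. -/

open scoped ContDiff Topology
open Set Filter Metric

namespace Vale.Agent.P250

namespace Oj

variable {Ω : Set E} {F : E → E} {M ρ : ℝ} {p v : E}

lemma line (hΩ : IsOpen Ω) (hF : DifferentiableOn ℂ F Ω) (hM : ∀ p ∈ Ω, ‖F p‖ ≤ M) (hρ : 0 < ρ)
    (h : ∀ t : ℂ, ‖t‖ < ρ → p + t • v ∈ Ω) :
    ‖fderiv ℂ F p v‖ ≤ 2 * M / ρ ∧ ∀ t : ℂ, t ≠ 0 → ‖t‖ < ρ →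
      dist (fderiv ℂ F p v) (t⁻¹ • (F (p + t • v) - F p)) ≤ 2 * (2 * M / ρ) / ρ * ‖t‖ := by
  set g : ℂ → E := fun t => F (p + t • v) with hg
  have l1 : ∀ t : ℂ, HasDerivAt (fun t : ℂ => p + t • v) v t := fun t => by
    simpa using ((hasDerivAt_id t).smul_const v).const_add p
  have hp : p + (0 : ℂ) • v = p := by simp
  have d1 : DifferentiableOn ℂ g (ball 0 ρ) :=
    hF.comp (fun t _ => (l1 t).differentiableAt.differentiableWithinAt)
      fun t ht => h t (mem_ball_zero_iff.1 ht)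
  have h0 := h 0 (by simpa using hρ)
  have d2 : deriv g 0 = fderiv ℂ F p v := by
    have := ((hF.differentiableAt (hΩ.mem_nhds h0)).hasFDerivAt.comp_hasDerivAt 0 (l1 0)).deriv
    rwa [hp] at this
  have b1 : ∀ t ∈ ball (0 : ℂ) ρ, ‖dslope g 0 t‖ ≤ 2 * M / ρ := fun t ht =>
    Complex.norm_dslope_le_div_of_mapsTo_ball d1 (fun s hs => mem_closedBall.2
      ((dist_le_norm_add_norm _ _).trans (by
        linarith [hM _ (h s (mem_ball_zero_iff.1 hs)), hM _ h0]))) ht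
  have e0 : dslope g 0 0 = fderiv ℂ F p v := by rw [dslope_same, d2]
  refine ⟨e0 ▸ b1 0 (mem_ball_self hρ), fun t t0 ht => ?_⟩
  have := Complex.dist_le_div_mul_dist_of_mapsTo_ball (R₂ := 2 * (2 * M / ρ))
    ((Complex.differentiableOn_dslope (ball_mem_nhds 0 hρ)).2 d1) (fun s hs => mem_closedBall.2
      ((dist_le_norm_add_norm _ _).trans (by linarith [b1 s hs, b1 0 (mem_ball_self hρ)])))
    (mem_ball_zero_iff.2 ht)
  rw [e0, dslope_of_ne _ t0, slope_def_module, dist_comm, dist_zero_right, sub_zero] at this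
  simpa only [hg, hp] using this

def det3 (a b c : E) : ℂ :=
  a.1.1 * (b.1.2 * c.2 - b.2 * c.1.2) - a.1.2 * (b.1.1 * c.2 - b.2 * c.1.1) +
    a.2 * (b.1.1 * c.1.2 - b.1.2 * c.1.1)

def e1 : E := ((1, 0), 0)
def e2 : E := ((0, 1), 0)
def e3 : E := ((0, 0), 1)

lemma expand (L : E →L[ℂ] E) (a : E) : L a = a.1.1 • L e1 + a.1.2 • L e2 + a.2 • L e3 := by
  rw [← map_smul, ← map_smul, ← map_smul, ← map_add, ← map_add]
  congr 1
  ext <;> simp [e1, e2, e3]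

lemma det_mul (L : E →L[ℂ] E) (a b c : E) :
    det3 (L a) (L b) (L c) = det3 (L e1) (L e2) (L e3) * det3 a b c := by
  rw [expand L a, expand L b, expand L c]
  simp only [det3, Prod.fst_add, Prod.snd_add, Prod.smul_fst, Prod.smul_snd, smul_eq_mul]
  ring

lemma det_le {a b c : E} {x y z : ℝ} (ha : ‖a‖ ≤ x) (hb : ‖b‖ ≤ y) (hc : ‖c‖ ≤ z) :
    ‖det3 a b c‖ ≤ 6 * (x * (y * z)) := by
  have k : ∀ {a : E} {x : ℝ}, ‖a‖ ≤ x → ‖a.1.1‖ ≤ x ∧ ‖a.1.2‖ ≤ x ∧ ‖a.2‖ ≤ x := fun h =>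
    ⟨((norm_fst_le _).trans (norm_fst_le _)).trans h,
      ((norm_snd_le _).trans (norm_fst_le _)).trans h, (norm_snd_le _).trans h⟩
  have m : ∀ {s t u v w : ℂ}, ‖s‖ ≤ x → ‖t‖ ≤ y → ‖u‖ ≤ z → ‖v‖ ≤ y → ‖w‖ ≤ z →
      ‖s * (t * u - v * w)‖ ≤ x * (y * z + y * z) := fun h1 h2 h3 h4 h5 =>
    norm_mul_le_of_le h1 (norm_sub_le_of_le (norm_mul_le_of_le h2 h3) (norm_mul_le_of_le h4 h5))
  obtain ⟨a1, a2, a3⟩ := k ha
  obtain ⟨b1, b2, b3⟩ := k hb
  obtain ⟨c1, c2, c3⟩ := k hc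
  exact (norm_add_le_of_le (norm_sub_le_of_le (m a1 b2 c3 b3 c2) (m a2 b1 c3 b3 c1))
    (m a3 b1 c2 b2 c1)).trans_eq (by ring)

lemma shift {a b t : ℂ} (h : ‖t‖ < (1 - (‖a‖ ^ 2 + ‖b‖ ^ 2)) / 3) :
    ‖a + t‖ ^ 2 + ‖b‖ ^ 2 < 1 := by
  have h1 := norm_nonneg t
  have h2 := norm_nonneg a
  have h3 : ‖a‖ ≤ 1 := by nlinarith [sq_nonneg ‖b‖]
  have h4 : ‖t‖ ≤ 1 := by nlinarith [sq_nonneg ‖b‖, sq_nonneg ‖a‖]
  nlinarith [pow_le_pow_left₀ (norm_nonneg _) (norm_add_le a t) 2]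

end Oj

open Oj in
theorem oStmt : OStmt := by
  intro Ω F M hΩ hF hM c ζ v hc hζ
  obtain ⟨r, r0, hr⟩ := Metric.isOpen_iff.1 hΩ _ hζ
  obtain ⟨δ, δ0, hδ⟩ := Metric.eventually_nhds_iff_ball.1 (hc.eventually_analyticAt.and
    (hc.continuousAt.eventually (ball_mem_nhds _ (half_pos r0))))
  set ρ := r / 2 / (‖v‖ + 1) with hρ
  have ρ0 : 0 < ρ := by positivity
  have hin : ∀ η ∈ ball ζ δ, ∀ t : ℂ, ‖t‖ < ρ → c η + t • v ∈ Ω := fun η hη t ht => hr (by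
    have h1 : dist (c η) (c ζ) < r / 2 := (hδ η hη).2
    rw [lt_div_iff₀ (by positivity)] at ht
    rw [mem_ball, dist_eq_norm, add_sub_right_comm]
    refine (norm_add_le _ _).trans_lt ?_
    rw [norm_smul, ← dist_eq_norm]
    linarith [norm_nonneg t])
  have dc : DifferentiableOn ℂ c (ball ζ δ) := fun η hη =>
    (hδ η hη).1.differentiableAt.differentiableWithinAt
  have sm : ∀ s : ℝ, 0 < s → ∀ᶠ t : ℂ in 𝓝[≠] 0, t ≠ 0 ∧ ‖t‖ < s := fun s hs =>
    eventually_mem_nhdsWithin.and (nhdsWithin_le_nhds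
      (mem_of_superset (ball_mem_nhds 0 hs) fun t ht => mem_ball_zero_iff.1 ht))
  refine (TendstoLocallyUniformlyOn.differentiableOn (φ := 𝓝[≠] (0 : ℂ))
    (F := fun t η => t⁻¹ • (F (c η + t • v) - F (c η))) (TendstoUniformlyOn.tendstoLocallyUniformlyOn
    (Metric.tendstoUniformlyOn_iff.2 fun ε hε => ?_)) ?_ isOpen_ball).differentiableAt
    (ball_mem_nhds ζ δ0)
  · set C := 2 * (2 * M / ρ) / ρ with hC
    filter_upwards [sm ρ ρ0, sm (ε / (|C| + 1)) (by positivity)] with t h1 h2 η hη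
    refine ((line hΩ hF hM ρ0 (hin η hη)).2 t h1.1 h1.2).trans_lt ?_
    have := (lt_div_iff₀ (by positivity)).1 h2.2
    nlinarith [norm_nonneg t, le_abs_self C]
  · filter_upwards [sm ρ ρ0] with t h1
    exact ((hF.comp (dc.add_const _) fun η hη => hin η hη t h1.2).sub
      (hF.comp dc fun η hη => by simpa using hin η hη 0 (by simpa using ρ0))).const_smul t⁻¹

open Oj in
theorem jcStmt : JcStmt := by
  rintro hO φ hΩ ⟨D, F, G, hD, -, hb, hF, hG, mF, -, hGF, -⟩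
  obtain ⟨M, M0, hM⟩ := hb.exists_pos_norm_le
  have hM' : ∀ p ∈ Om φ, ‖F p‖ ≤ M := fun p hp => hM _ (mF hp)
  have z0 : ∀ x ∈ Ball, ((x, 0) : E) ∈ Om φ := fun x hx => ⟨hx, by simp [sig]⟩
  refine ⟨fun x => det3 (fderiv ℂ F (x, 0) e1) (fderiv ℂ F (x, 0) e2) (fderiv ℂ F (x, 0) e3),
    2 * Real.log (432 * M ^ 3), fun x hx => ?_, fun c ζ hc hζ => ?_⟩
  · have hp := hΩ.mem_nhds (z0 x hx)
    have d1 := hF.differentiableAt hp
    have d2 := hG.differentiableAt (hD.mem_nhds (mF (z0 x hx)))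
    have e : ∀ u, fderiv ℂ G (F (x, 0)) (fderiv ℂ F (x, 0) u) = u := fun u => by
      have h1 := fderiv_comp _ d2 d1
      have h2 : G ∘ F =ᶠ[𝓝 (x, 0)] id := Filter.mem_of_superset hp fun q hq => hGF q hq
      rw [h2.fderiv_eq, fderiv_id] at h1
      exact (congrArg (fun L : E →L[ℂ] E => L u) h1).symm
    have ne : det3 (fderiv ℂ F (x, 0) e1) (fderiv ℂ F (x, 0) e2) (fderiv ℂ F (x, 0) e3) ≠ 0 := by
      intro h
      have := det_mul (fderiv ℂ G (F (x, 0))) (fderiv ℂ F (x, 0) e1) (fderiv ℂ F (x, 0) e2)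
        (fderiv ℂ F (x, 0) e3)
      rw [e, e, e, h] at this
      simp [det3, e1, e2, e3] at this
    refine ⟨ne, ?_⟩
    have n0 : 0 < 1 - nsq x := sub_pos.2 hx
    have b1 := (line (v := e1) (p := (x, 0)) hΩ hF hM' (div_pos n0 three_pos) fun t ht =>
      ⟨by simpa [e1, Ball, nsq] using shift ht, by simp [sig, e1]⟩).1
    have b2 := (line (v := e2) (p := (x, 0)) hΩ hF hM' (div_pos n0 three_pos) fun t ht =>
      ⟨by simpa [e2, Ball, nsq, add_comm] using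
        shift (a := x.2) (t := t) (by rwa [nsq, add_comm] at ht), by simp [sig, e2]⟩).1
    have b3 := (line (v := e3) (p := (x, 0)) hΩ hF hM' (Real.exp_pos (-(φ x / 2))) fun t ht =>
      ⟨by simpa [e3, Prod.mk_zero_zero] using hx, by
        have h1 : ‖t‖ ^ 2 < Real.exp (-(φ x / 2)) ^ 2 := by gcongr
        rw [← Real.exp_nat_mul, (by push_cast; ring : ((2 : ℕ) : ℝ) * -(φ x / 2) = -φ x),
          Real.exp_neg, ← one_div, lt_div_iff₀ (Real.exp_pos _)] at h1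
        simpa [sig, e3, Prod.mk_zero_zero] using h1⟩).1
    have b4 := Real.log_le_log (norm_pos_iff.2 ne) (det_le b1 b2 b3)
    have e4 : 6 * (2 * M / ((1 - nsq x) / 3) * (2 * M / ((1 - nsq x) / 3) *
        (2 * M / Real.exp (-(φ x / 2))))) =
        432 * M ^ 3 * (Real.exp (φ x / 2) / (1 - nsq x) ^ 2) := by
      rw [Real.exp_neg]; field_simp; ring
    rw [e4, Real.log_mul (by positivity) (by positivity), Real.log_div (by positivity)
      (by positivity), Real.log_exp, Real.log_pow (1 - nsq x)] at b4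
    rw [Real.log_pow, psi0]
    push_cast at b4 ⊢
    linarith
  · have k := fun v => hO _ F M hΩ hF hM' (fun η => (c η, 0)) ζ v (hc.prod analyticAt_const)
      (z0 _ hζ)
    have k1 := k e1
    have k2 := k e2
    have k3 := k e3
    unfold det3
    fun_prop

end Vale.Agent.P250
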