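import Vale.Agent.P250.Spec

/-! P250, module P1: derivatives of the profile. -/

open scoped ContDiff Topology
open Set Filter

namespace Vale.Agent.P250

namespace Pa

noncomputable def rr (t : ℝ) : ℝ := (Real.sqrt (1 - Real.exp t))⁻¹

lemma pos {t : ℝ} (ht : t < 0) : 0 < 1 - Real.exp t := sub_pos.2 (Real.exp_lt_one_iff.2 ht)

lemma spos {t : ℝ} (ht : t < 0) : 0 < Real.sqrt (1 - Real.exp t) := Real.sqrt_pos.2 (pos ht)

lemma one_lt {t : ℝ} (ht : t < 0) : 1 < rr t := by
  rw [rr, one_lt_inv₀ (spos ht), Real.sqrt_lt' one_pos]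
  linarith [Real.exp_pos t]

lemma dsq {t : ℝ} (ht : t < 0) : HasDerivAt (fun t => Real.sqrt (1 - Real.exp t))
    (-Real.exp t / (2 * Real.sqrt (1 - Real.exp t))) t :=
  ((Real.hasDerivAt_exp t).const_sub 1).sqrt (pos ht).ne'

lemma ex {t : ℝ} (ht : t < 0) : Real.exp t = 1 - Real.sqrt (1 - Real.exp t) ^ 2 := by
  rw [Real.sq_sqrt (pos ht).le]; ring

lemma drr {t : ℝ} (ht : t < 0) : HasDerivAt rr ((rr t ^ 3 - rr t) / 2) t := by
  have h := spos ht
  refine ((dsq ht).inv h.ne').congr_deriv ?_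
  have e := ex ht
  unfold rr
  generalize Real.sqrt (1 - Real.exp t) = q at *
  rw [e]; field_simp

noncomputable def G (a b c d e f g x : ℝ) : ℝ :=
  a * x ^ 6 + b * x ^ 5 + c * x ^ 4 + d * x ^ 3 + e * x ^ 2 + f * x + g * x⁻¹

lemma dG (a b c d e f g k : ℝ) {t : ℝ} (ht : t < 0) :
    HasDerivAt (fun t => G a b c d e f g (rr t) + k) ((6 * a * rr t ^ 5 + 5 * b * rr t ^ 4 +
      4 * c * rr t ^ 3 + 3 * d * rr t ^ 2 + 2 * e * rr t + f - g / rr t ^ 2) *
      ((rr t ^ 3 - rr t) / 2)) t := by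
  have h := drr ht
  have h0 : rr t ≠ 0 := by linarith [one_lt ht]
  refine (((((((((h.pow 6).const_mul a).add ((h.pow 5).const_mul b)).add ((h.pow 4).const_mul c)).add
    ((h.pow 3).const_mul d)).add ((h.pow 2).const_mul e)).add (h.const_mul f)).add
    ((h.inv h0).const_mul g)).add_const k).congr_deriv ?_
  norm_num; ring

lemma step {F F' : ℝ → ℝ} {a b c d e f g k : ℝ}
    (h : ∀ t < 0, F t = G a b c d e f g (rr t) + k)
    (h' : ∀ x, 1 < x → (6 * a * x ^ 5 + 5 * b * x ^ 4 + 4 * c * x ^ 3 + 3 * d * x ^ 2 + 2 * e * x +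
      f - g / x ^ 2) * ((x ^ 3 - x) / 2) = F' x) : ∀ t < 0, deriv F t = F' (rr t) := by
  intro t ht
  rw [← h' _ (one_lt ht), ← (dG a b c d e f g k ht).deriv]
  exact EventuallyEq.deriv_eq ((eventually_lt_nhds ht).mono fun s hs => h s hs)

end Pa

open Pa in
theorem p1Stmt : P1Stmt := by
  intro ε s hε hs
  have h1 : ∀ t < 0, deriv (pf ε) t = G 0 0 0 0 ε 1 (-1) (rr t) + -ε := by
    intro t ht
    have h := spos ht
    have e := ex ht
    have d := ((dsq ht).const_mul (-2)).sub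
      ((((Real.hasDerivAt_exp t).const_sub 1).log (pos ht).ne').const_mul ε)
    refine d.deriv.trans ?_
    rw [← Real.sq_sqrt (pos ht).le]
    unfold G rr
    rw [Real.sqrt_sq h.le]
    generalize Real.sqrt (1 - Real.exp t) = q at *
    rw [e]; field_simp; ring
  have h2 := step (F' := fun x => G 0 0 ε (1 / 2) (-ε) 0 (-1 / 2) x + 0) h1 fun x hx => by
    have : x ≠ 0 := by linarith
    unfold G; field_simp; ring
  have h3 := step (F' := fun x => G (2 * ε) (3 / 4) (-3 * ε) (-3 / 4) ε (1 / 4) (-1 / 4) x + 0) h2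
    fun x hx => by
      have : x ≠ 0 := by linarith
      unfold G; field_simp; ring
  have h4 := step (F' := fun x => PP ε x * (P1 ε x ^ 2 + PP ε x * P2 ε x)) h3 fun x hx => by
    have : 0 < x := by linarith
    unfold PP P1 P2; field_simp; ring
  have r1 := one_lt hs
  have r0 : 0 < rr s := by linarith
  refine ⟨rr s, r1, (eventually_lt_nhds hs).mono fun t ht => ?_, ?_, ?_, ?_, h4 s hs⟩
  · have c : ContDiffAt ℝ ∞ (fun t => 1 - Real.exp t) t :=
      contDiffAt_const.sub Real.contDiff_exp.contDiffAt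
    exact (contDiffAt_const.mul (c.sqrt (pos ht).ne')).sub
      (contDiffAt_const.mul (c.log (pos ht).ne'))
  · rw [h1 s hs]; unfold G tau; ring
  · rw [h2 s hs]; unfold G PP; field_simp; ring
  · rw [h3 s hs]; unfold G PP P1; field_simp; ring

end Vale.Agent.P250
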