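import Vale.Agent.P250.Spec

/-! P250, module P2: one-variable inequalities for the profile. -/

namespace Vale.Agent.P250

namespace Pb

lemma core1 {ρ y f f1 Δ : ℝ} (h0 : 0 ≤ ρ) (h1 : ρ ≤ 1) (hy : 0 ≤ y) (hf : f = (1 + ρ) / 2 + y)
    (hf1 : f1 = (3 + ρ ^ 2) / 4 + y * (2 - ρ))
    (hΔ : Δ = (3 + 6 * ρ - ρ ^ 2) / 8 + y * (15 + 18 * ρ - 9 * ρ ^ 2) / 8 + 2 * y ^ 2) :
    (3 / 4 ≤ f1 / f ∧ f1 / f ≤ 2) ∧ (1 / 2 ≤ f / (1 + y) ∧ f / (1 + y) ≤ 1) ∧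
      (3 / 8 ≤ (1 + y) * (Δ / f ^ 3) ∧ (1 + y) * (Δ / f ^ 3) ≤ 16) := by
  have f0 : 0 < f := by rw [hf]; positivity
  have y1 : 0 < 1 + y := by positivity
  have a1 : (1 + y) / 2 ≤ f := by linarith
  have a2 : f ≤ 1 + y := by linarith
  have r2 : ρ ^ 2 ≤ ρ := by nlinarith
  have d1 : 3 / 8 * (1 + y) ^ 2 ≤ Δ := by
    linarith [mul_nonneg hy (sub_nonneg.2 r2), mul_nonneg hy h0, sq_nonneg y]
  have d2 : Δ ≤ 2 * (1 + y) ^ 2 := by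
    linarith [mul_nonneg hy (sq_nonneg (1 - ρ)), sq_nonneg (1 - ρ), sq_nonneg ρ]
  refine ⟨⟨?_, ?_⟩, ⟨?_, ?_⟩, ⟨?_, ?_⟩⟩
  · rw [le_div_iff₀ f0]; linarith [mul_nonneg hy (sub_nonneg.2 h1), sq_nonneg (1 - ρ)]
  · rw [div_le_iff₀ f0]; linarith [mul_nonneg hy h0]
  · rw [le_div_iff₀ y1]; linarith
  · rw [div_le_iff₀ y1]; linarith
  · rw [← mul_div_assoc, le_div_iff₀ (by positivity)]
    linarith [mul_le_mul_of_nonneg_left d1 y1.le, pow_le_pow_left₀ f0.le a2 3]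
  · rw [← mul_div_assoc, div_le_iff₀ (by positivity)]
    linarith [mul_le_mul_of_nonneg_left d2 y1.le, pow_le_pow_left₀ (by positivity) a1 3]

lemma core2 {ρ y f f1 Δ : ℝ} (h0 : 0 ≤ ρ) (h : ρ ≤ 1 / 100) (hy : 0 ≤ y)
    (hf : f = (1 + ρ) / 2 + y) (hf1 : f1 = (3 + ρ ^ 2) / 4 + y * (2 - ρ))
    (hΔ : Δ = (3 + 6 * ρ - ρ ^ 2) / 8 + y * (15 + 18 * ρ - 9 * ρ ^ 2) / 8 + 2 * y ^ 2) :
    1 / 4 ≤ f1 / f - f / (1 + y) ∧
        (y ≤ 3 / 10 → (1.01 * (f1 / f - f / (1 + y)) + 1.16 * (f / (1 + y))) ^ 2 ≤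
          1.96 * ((1 - ρ) * f) * (Δ / f ^ 3)) ∧
        (3 / 10 ≤ y → (1.01 * (f1 / f - f / (1 + y)) + 1.16 * (f / (1 + y) / 2)) ^ 2 ≤
          1.96 * ((1 - ρ) * f) * (Δ / f ^ 3)) := by
  have f0 : 0 < f := by rw [hf]; positivity
  have y1 : 0 < 1 + y := by positivity
  have r2 : ρ ^ 2 ≤ ρ / 100 := by nlinarith
  have d0 : 3 / 8 + 15 / 8 * y + 2 * y ^ 2 ≤ Δ := by
    linarith [mul_nonneg hy (sub_nonneg.2 r2), mul_nonneg hy h0]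
  have b1 : f1 ≤ 7501 / 10000 + 2 * y := by linarith [mul_nonneg hy h0]
  have b2 : 3 / 4 + 199 / 100 * y ≤ f1 := by
    linarith [mul_nonneg hy (sub_nonneg.2 h), sq_nonneg ρ]
  have b3 : f ≤ 505 / 1000 + y := by linarith
  have b4 : 1 / 2 + y ≤ f := by linarith
  clear hf hf1 hΔ
  have e : ∀ t : ℝ, 0 ≤ t * f → (y ≤ 3 / 10 ∧ t * f ≤ 805 / 1000 + 2113 / 1000 * y ∨
      t * f ≤ 626 / 1000 + 1756 / 1000 * y) → t ^ 2 ≤ 1.96 * ((1 - ρ) * f) * (Δ / f ^ 3) := by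
    intro t t0 t2
    have e1 : 1.96 * ((1 - ρ) * f) * (Δ / f ^ 3) = 1.96 * (1 - ρ) * Δ / f ^ 2 := by field_simp
    rw [e1, le_div_iff₀ (by positivity), ← mul_pow]
    have e2 : 194 / 100 * (3 / 8 + 15 / 8 * y + 2 * y ^ 2) ≤ 1.96 * (1 - ρ) * Δ :=
      mul_le_mul (by norm_num; linarith) d0 (by positivity) (by norm_num; linarith)
    rcases t2 with ⟨t2, t1⟩ | t2
    · linarith [pow_le_pow_left₀ t0 t1 2, mul_le_mul_of_nonneg_left t2 hy]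
    · linarith [pow_le_pow_left₀ t0 t2 2, sq_nonneg y]
  have g1 : f1 / f * f = f1 := div_mul_cancel₀ _ f0.ne'
  have g2 : 1 / 4 ≤ f1 / f - f / (1 + y) := by
    rw [div_sub_div _ _ f0.ne' y1.ne', le_div_iff₀ (by positivity)]
    linarith [mul_le_mul_of_nonneg_right b2 y1.le, mul_le_mul b3 b3 f0.le (by positivity),
      mul_le_mul_of_nonneg_right b3 y1.le, sq_nonneg y]
  have s0 : 0 ≤ f / (1 + y) := by positivity
  refine ⟨g2, fun k => ?_, fun k => ?_⟩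
  · have s2 : f / (1 + y) ≤ 62 / 100 := by rw [div_le_iff₀ y1]; linarith
    refine e _ (mul_nonneg (by norm_num; linarith) f0.le) (Or.inl ⟨k, ?_⟩)
    have := mul_le_mul_of_nonneg_right s2 f0.le
    generalize f / (1 + y) = s at *
    generalize f1 / f = u at *
    norm_num
    linarith
  · have s2 : 615 / 1000 ≤ f / (1 + y) := by rw [le_div_iff₀ y1]; linarith
    refine e _ (mul_nonneg (by norm_num; linarith) f0.le) (Or.inr ?_)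
    have := mul_le_mul_of_nonneg_right s2 f0.le
    generalize f / (1 + y) = s at *
    generalize f1 / f = u at *
    norm_num
    linarith

/-- reduced description of the four profile functions -/
structure Red (ε r τ P Q1 Q2 ρ u s w g : ℝ) : Prop where
  i0 : ρ * r ^ 2 = 1
  ρ0 : 0 < ρ
  ρ1 : ρ < 1
  i1 : τ = r * (1 - ρ) * (1 + ε * r)
  i2 : P = r ^ 2 * s * τ
  i3 : P = r ^ 3 * g
  i4 : Q1 = r ^ 2 * u
  i5 : Q2 = r * w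
  c1 : (3 / 4 ≤ u ∧ u ≤ 2) ∧ (1 / 2 ≤ s ∧ s ≤ 1) ∧
    (3 / 8 ≤ (1 + ε * r) * w ∧ (1 + ε * r) * w ≤ 16)
  c2 : ρ ≤ 1 / 100 → 1 / 4 ≤ u - s ∧
    (ε * r ≤ 3 / 10 → (1.01 * (u - s) + 1.16 * s) ^ 2 ≤ 1.96 * g * w) ∧
    (3 / 10 ≤ ε * r → (1.01 * (u - s) + 1.16 * (s / 2)) ^ 2 ≤ 1.96 * g * w)

lemma ids {ε r : ℝ} (hε : 0 < ε) (hr : 1 < r) :
    ∃ ρ u s w g : ℝ, Red ε r (tau ε r) (PP ε r) (P1 ε r) (P2 ε r) ρ u s w g := by
  have r0 : 0 < r := by linarith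
  have h1 : 1 / r ^ 2 < 1 := by rw [div_lt_one (by positivity)]; nlinarith
  refine ⟨1 / r ^ 2, _, _, _, _, by field_simp, by positivity, h1, ?_, ?_, ?_, ?_, ?_,
    core1 (y := ε * r) (by positivity) h1.le (by positivity) rfl rfl rfl,
    fun h => core2 (y := ε * r) (by positivity) h (by positivity) rfl rfl rfl⟩
  · unfold tau; field_simp
  · unfold tau PP; field_simp
  · unfold PP; field_simp
  · unfold P1; field_simp; ring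
  · unfold P2; field_simp; ring

/-- the constants -/
structure Cst (Λ R A B ε K : ℝ) : Prop where
  Λ1 : 1 ≤ Λ
  hR : R = 1600 * Λ
  B1 : 3000000 * (Λ ^ 2 * R ^ 3) ≤ B
  B2 : 3000000 * R ^ 4 ≤ B
  AB : B ≤ A
  eA : A / (4 * Λ ^ 2) = B
  ε0 : 0 < ε
  εA : ε * A = 1 / 5
  K1 : 80 * A ≤ K
  K2 : 2 * A ^ 2 ≤ K * B

lemma cst {Λ : ℝ} (hΛ : 1 ≤ Λ) : ∃ R A B ε K, Cst Λ R A B ε K := by
  have Λ0 : 0 < Λ := by linarith
  have Λ2 : 1 ≤ Λ ^ 2 := one_le_pow₀ hΛ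
  obtain ⟨R, hR⟩ : ∃ R, R = 1600 * Λ := ⟨_, rfl⟩
  have R1 : 1 ≤ R := by linarith
  obtain ⟨B, hB⟩ : ∃ B, B = 3000000 * (Λ ^ 2 * R ^ 4) := ⟨_, rfl⟩
  have B0 : 0 < B := by rw [hB]; positivity
  refine ⟨R, 4 * Λ ^ 2 * B, B, 1 / (5 * (4 * Λ ^ 2 * B)), 80 * (4 * Λ ^ 2 * B) * Λ ^ 2, hΛ, hR,
    ?_, ?_, by nlinarith, by field_simp, by positivity, by field_simp,
    le_mul_of_one_le_right (by positivity) Λ2, ?_⟩
  · rw [hB]; gcongr; norm_num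
  · rw [hB]; linarith [mul_le_mul_of_nonneg_right Λ2 (by positivity : 0 ≤ R ^ 4)]
  · linarith [sq_nonneg (Λ ^ 2 * B)]

variable {Λ R A B ε K r τ P Q1 Q2 ρ u s w g : ℝ}

lemma Cst.bas (c : Cst Λ R A B ε K) : 1600 ≤ R ∧ R ≤ R ^ 3 ∧ R ^ 3 ≤ R ^ 4 ∧ 1 ≤ Λ ^ 2 ∧
    Λ ≤ Λ ^ 2 ∧ ε * R ≤ 1 ∧ ε ≤ 1 ∧ 16 ≤ K * ε := by
  obtain ⟨Λ1, hR, B1, B2, AB, -, ε0, εA, K1, -⟩ := c
  have R1 : 1600 ≤ R := by linarith
  have R3 : R ≤ R ^ 3 := le_self_pow₀ (by linarith) (by norm_num)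
  have R4 : R ^ 3 ≤ R ^ 4 := pow_le_pow_right₀ (by linarith) (by norm_num)
  have e := mul_le_mul_of_nonneg_left (by linarith : R ≤ A) ε0.le
  exact ⟨R1, R3, R4, one_le_pow₀ Λ1, le_self_pow₀ Λ1 (by norm_num), by linarith,
    by linarith [mul_le_mul_of_nonneg_left R1 ε0.le],
    by linarith [mul_le_mul_of_nonneg_right K1 ε0.le]⟩

lemma gen (c : Cst Λ R A B ε K) (h : Red ε r τ P Q1 Q2 ρ u s w g) (hr : 1 < r) :
    0 < τ ∧ 0 < P ∧ τ ≤ r * (1 + ε * r) ∧ τ ≤ 2 * r ^ 2 ∧ r ^ 2 / 2 * τ ≤ P ∧ P ≤ r ^ 2 * τ ∧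
      3 / 16 ≤ Q2 ∧ Q2 ≤ K ∧ 16 * r ^ 2 ≤ K * (1 + τ) ∧ Q1 ≤ 2 * r ^ 2 ∧ 3 / 4 * r ^ 2 ≤ Q1 ∧
      (A + τ) ^ 2 ≤ K * (P + B) ∧ 1 ≤ K * Q2 ∧ P ≤ K * (1 + τ) ^ 2 := by
  obtain ⟨R1, R3, R4, Λ2, Λ3, εR, ε1, K3⟩ := c.bas
  obtain ⟨Λ1, hR, B1, B2, AB, -, ε0, εA, K1, K2⟩ := c
  obtain ⟨i0, ρ0, ρ1, i1, i2, -, i4, i5, ⟨⟨u1, u2⟩, ⟨s1, s2⟩, ⟨w1, w2⟩⟩, -⟩ := h
  have r0 : 0 < r := by linarith
  have y0 : 0 < ε * r := by positivity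
  have r2 : r ≤ r ^ 2 := le_self_pow₀ hr.le (by norm_num)
  have rr : 0 ≤ r ^ 2 := by positivity
  have τ0 : 0 < τ := by rw [i1]; exact mul_pos (mul_pos r0 (by linarith)) (by linarith)
  have P0 : 0 < P := by rw [i2]; exact mul_pos (mul_pos (by linarith) (by linarith)) τ0
  have w0 : 0 < w := (pos_iff_pos_of_mul_pos (a := 1 + ε * r) (by linarith)).1 (by linarith)
  have τ1 : τ ≤ r * (1 + ε * r) := by
    linarith [mul_pos (mul_pos r0 ρ0) (by linarith : 0 < 1 + ε * r)]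
  have yr : ε * r ≤ r := by linarith [mul_le_mul_of_nonneg_right ε1 r0.le]
  have τ2 : τ ≤ 2 * r ^ 2 := by linarith [mul_le_mul_of_nonneg_left yr r0.le]
  have τ3 : ε * r ^ 2 ≤ ε + τ := by
    have : τ = r * (1 - ρ) + ε * r ^ 2 - ε * (ρ * r ^ 2) := by rw [i1]; ring
    rw [i0] at this
    linarith [mul_pos r0 (sub_pos.2 ρ1)]
  have P1 : r ^ 2 / 2 * τ ≤ P := by
    rw [i2]
    exact mul_le_mul_of_nonneg_right (by linarith [mul_le_mul_of_nonneg_left s1 rr]) τ0.le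
  have P2 : P ≤ r ^ 2 * τ := by
    rw [i2]
    exact mul_le_mul_of_nonneg_right (by linarith [mul_le_mul_of_nonneg_left s2 rr]) τ0.le
  have q1 : 3 / 16 ≤ Q2 := by
    linarith [mul_le_mul_of_nonneg_right yr w0.le, mul_le_mul_of_nonneg_right hr.le w0.le]
  have q3 : 16 * r ^ 2 ≤ K * (1 + τ) := by
    refine le_of_mul_le_mul_right ?_ ε0
    linarith [mul_le_mul_of_nonneg_right K3 (by linarith : 0 ≤ 1 + τ)]
  refine ⟨τ0, P0, τ1, τ2, P1, P2, q1, ?_, q3, ?_, ?_, ?_, ?_, ?_⟩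
  · refine le_of_mul_le_mul_right ?_ ε0
    rw [i5]; linarith
  · linarith [mul_le_mul_of_nonneg_left u2 rr]
  · linarith [mul_le_mul_of_nonneg_left u1 rr]
  · linarith [sq_nonneg (A - τ), mul_le_mul_of_nonneg_right (by linarith : 8 ≤ K) P0.le,
      mul_le_mul_of_nonneg_right τ2 τ0.le]
  · linarith [mul_le_mul (by linarith : 16 ≤ K) q1 (by norm_num) (by linarith)]
  · linarith [mul_le_mul_of_nonneg_right q3 (by linarith : 0 ≤ 1 + τ), mul_nonneg rr τ0.le]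

lemma small (c : Cst Λ R A B ε K) (h : Red ε r τ P Q1 Q2 ρ u s w g) (hr : 1 < r) (hh : r ≤ R) :
    Good Λ A K τ P Q1 Q2 (1 / 2) (Q1 - 1 / 2) := by
  obtain ⟨τ0, P0, τ1, τ2, P1, P2, q1, q2, q3, q4, q5, k1, k3, k4⟩ := gen c h hr
  obtain ⟨R1, R3, R4, Λ2, Λ3, εR, ε1, K3⟩ := c.bas
  obtain ⟨Λ1, hR, B1, B2, AB, eA, ε0, εA, K1, K2⟩ := c
  have r0 : 0 < r := by linarith
  have r2 : r ≤ r ^ 2 := le_self_pow₀ hr.le (by norm_num)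
  have t1 : τ ≤ 2 * R := by
    linarith [mul_le_mul_of_nonneg_left hh ε0.le, mul_le_mul_of_nonneg_left
      ((mul_le_mul_of_nonneg_left hh ε0.le).trans εR) r0.le]
  have t2 : r ^ 2 ≤ R ^ 2 := by gcongr
  have t3 : P ≤ 2 * R ^ 3 := by linarith [mul_le_mul t2 t1 τ0.le (by positivity)]
  have t5 : 0 ≤ Λ ^ 2 * R ^ 3 := by positivity
  have A0 : 0 < A := by linarith
  refine ⟨by linarith, τ0, P0, by norm_num, by linarith, fun a a1 a2 =>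
    ⟨?_, ?_⟩, ?_, ?_, ?_, eA ▸ k1, by linarith, k3, k4, by linarith, q2⟩
  · have : P * a / (A + τ * a) ≤ 1 / 4 := by
      rw [div_le_iff₀ (by positivity)]
      linarith [mul_le_mul t3 (a2.trans Λ3) (by linarith) (by positivity),
        mul_pos τ0 (by linarith : 0 < a)]
    linarith
  · have : 0 ≤ P * a / (A + τ * a) := by positivity
    linarith
  · rw [eA]
    have t4 : (1.01 * (1 / 2) + 1.16 * (Q1 - 1 / 2)) ^ 2 ≤ (3 * R ^ 2) ^ 2 :=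
      pow_le_pow_left₀ (by norm_num; linarith) (by norm_num; linarith) 2
    have := mul_le_mul (by linarith : B ≤ P + B) q1 (by norm_num) (by linarith)
    refine t4.trans ?_
    norm_num
    linarith
  · rw [eA]; linarith [mul_le_mul_of_nonneg_left t3 (by positivity : 0 ≤ Λ ^ 2)]
  · rw [eA]
    linarith [mul_le_mul_of_nonneg_left (t1.trans (by linarith : 2 * R ≤ 2 * R ^ 3))
      (by positivity : 0 ≤ Λ ^ 2)]

lemma large (c : Cst Λ R A B ε K) (h : Red ε r τ P Q1 Q2 ρ u s w g) (hr : 1 < r) (hh : R ≤ r) :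
    ∃ μ ν, Good Λ A K τ P Q1 Q2 μ ν := by
  obtain ⟨τ0, P0, τ1, τ2, P1, P2, q1, q2, q3, q4, q5, k1, k3, k4⟩ := gen c h hr
  obtain ⟨R1, R3, R4, Λ2, Λ3, εR, ε1, K3⟩ := c.bas
  obtain ⟨Λ1, hR, B1, B2, AB, eA, ε0, εA, K1, K2⟩ := c
  obtain ⟨i0, ρ0, ρ1, i1, i2, i3, i4, i5, ⟨⟨u1, u2⟩, ⟨s1, s2⟩, -⟩, hc⟩ := h
  have r0 : 0 < r := by linarith
  have rr : 0 < r ^ 2 := by positivity
  have A0 : 1 ≤ A := by linarith
  have l0 : ∀ a, 1 ≤ a → 0 < A + τ * a := fun a ha => by positivity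
  have l1 : ∀ a, 1 ≤ a → 0 ≤ P * a / (A + τ * a) := fun a ha => by positivity
  have t2 : R ^ 2 ≤ r ^ 2 := by gcongr
  have t3 : 2560000 * Λ ^ 2 ≤ r ^ 2 := by rw [hR] at t2; linarith
  have t4 : ρ ≤ 1 / 100 := by
    linarith [mul_le_mul_of_nonneg_left (by linarith : 100 ≤ r ^ 2) ρ0.le]
  obtain ⟨c1, c2, c3⟩ := hc t4
  have m1 : r ^ 2 / 4 ≤ r ^ 2 * (u - s) := by linarith [mul_le_mul_of_nonneg_left c1 rr.le]
  have s0 : 0 ≤ r ^ 2 * s := by positivity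
  have m2 : ∀ a, 1 ≤ a → r ^ 2 * (u - s) ≤ Q1 - P * a / (A + τ * a) := fun a a1 => by
    have : P * a / (A + τ * a) ≤ r ^ 2 * s := by
      rw [div_le_iff₀ (l0 a a1), i2]
      linarith [mul_nonneg s0 (by linarith : 0 ≤ A)]
    linarith
  have m3 : ∀ t, (1.01 * (u - s) + 1.16 * t) ^ 2 ≤ 1.96 * g * w →
      (1.01 * (r ^ 2 * (u - s)) + 1.16 * (r ^ 2 * t)) ^ 2 ≤ 1.96 * (P + B) * Q2 := fun t ht => by
    calc _ = r ^ 4 * (1.01 * (u - s) + 1.16 * t) ^ 2 := by ring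
      _ ≤ r ^ 4 * (1.96 * g * w) := mul_le_mul_of_nonneg_left ht (by positivity)
      _ = 1.96 * P * Q2 := by rw [i3, i5]; ring
      _ ≤ _ := by gcongr; linarith
  have e1 : 640000 * Λ ^ 2 * P ≤ r ^ 2 * (u - s) * (P + B) :=
    mul_le_mul (by linarith) (by linarith) P0.le (by linarith)
  have e2 : 400 * Λ ^ 2 * τ ≤ P + B := by
    linarith [mul_le_mul_of_nonneg_right (by linarith : 400 * Λ ^ 2 ≤ r ^ 2 / 2) τ0.le]
  have k2 : A + τ ≤ K * (r ^ 2 * (u - s)) := by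
    linarith [mul_le_mul K1 m1 (by positivity) (by linarith),
      mul_le_mul_of_nonneg_left (by linarith : 1 ≤ r ^ 2) (by linarith : 0 ≤ A),
      mul_le_mul_of_nonneg_right A0 rr.le]
  rcases le_total (ε * r) (3 / 10) with k | k
  · exact ⟨r ^ 2 * (u - s), r ^ 2 * s, by linarith, τ0, P0, by linarith, s0, fun a a1 a2 =>
      ⟨m2 a a1, by linarith [l1 a a1]⟩, eA ▸ m3 _ (c2 k), eA ▸ e1, eA ▸ e2, eA ▸ k1, k2, k3, k4,
      by linarith, q2⟩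
  refine ⟨r ^ 2 * (u - s), r ^ 2 * (s / 2), by linarith, τ0, P0, by linarith, by linarith,
    fun a a1 a2 => ⟨m2 a a1, ?_⟩, eA ▸ m3 _ (c3 k), eA ▸ e1, eA ▸ e2, eA ▸ k1, k2, k3, k4,
    by linarith, q2⟩
  have t5 : A ≤ τ := by
    have a3 := mul_le_mul_of_nonneg_right k (by linarith : 0 ≤ A)
    rw [mul_right_comm, εA] at a3
    linarith [mul_pos (mul_pos r0 (sub_pos.2 ρ1)) (mul_pos ε0 r0),
      mul_le_mul_of_nonneg_left t4 r0.le]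
  have : r ^ 2 * (s / 2) ≤ P * a / (A + τ * a) := by
    rw [le_div_iff₀ (l0 a a1), i2]
    linarith [mul_le_mul_of_nonneg_left (t5.trans (le_mul_of_one_le_right τ0.le a1)) s0]
  linarith

end Pb

open Pb in
theorem p2Stmt : P2Stmt := by
  intro Λ hΛ
  obtain ⟨R, A, B, ε, K, c⟩ := cst hΛ
  obtain ⟨R1, R3, R4, -⟩ := c.bas
  have A0 : 0 < A := by linarith [c.B2, c.AB]
  refine ⟨A, ε, K, A0, c.ε0, by linarith [c.K1], fun r hr => ?_⟩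
  obtain ⟨ρ, u, s, w, g, h⟩ := ids c.ε0 hr
  rcases le_total r R with k | k
  · exact ⟨_, _, small c h hr k⟩
  · exact large c h hr k

end Vale.Agent.P250
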