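import Vale.Agent.P250.Spec

/-! P250, modules S and Z. -/

open scoped ContDiff Topology ComplexConjugate
open Set Filter InnerProductSpace

namespace Vale.Agent.P250

namespace Sc

lemma sq_cvx {a b : ℝ} (ha : 0 ≤ a) (hb : 0 ≤ b) (hab : a + b = 1) (x y : ℂ) :
    ‖a • x + b • y‖ ^ 2 ≤ a * ‖x‖ ^ 2 + b * ‖y‖ ^ 2 := by
  have h1 : ‖a • x + b • y‖ ≤ a * ‖x‖ + b * ‖y‖ := by
    refine (norm_add_le _ _).trans (le_of_eq ?_)
    rw [norm_smul, norm_smul, Real.norm_of_nonneg ha, Real.norm_of_nonneg hb]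
  have h2 := pow_le_pow_left₀ (norm_nonneg _) h1 2
  have hb' : b = 1 - a := by linarith
  subst hb'
  nlinarith [mul_nonneg (mul_nonneg ha hb) (sq_nonneg (‖x‖ - ‖y‖))]

lemma ball_cvx : Convex ℝ Ball := by
  intro x hx y hy a b ha hb hab
  have h1 := sq_cvx ha hb hab x.1 y.1
  have h2 := sq_cvx ha hb hab x.2 y.2
  have hx' : ‖x.1‖ ^ 2 + ‖x.2‖ ^ 2 < 1 := hx
  have hy' : ‖y.1‖ ^ 2 + ‖y.2‖ ^ 2 < 1 := hy
  show ‖a • x.1 + b • y.1‖ ^ 2 + ‖a • x.2 + b • y.2‖ ^ 2 < 1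
  have h3 := (convex_Iio (1 : ℝ)) hx' hy' ha hb hab
  simp only [smul_eq_mul, mem_Iio] at h3
  linarith

lemma nrm (w : ℂ) (t : ℝ) :
    ‖w * (Real.exp (t / 2) : ℂ)‖ ^ 2 = ‖w‖ ^ 2 * Real.exp t := by
  rw [norm_mul, Complex.norm_real, Real.norm_of_nonneg (Real.exp_pos _).le, mul_pow,
    ← Real.exp_nat_mul]
  congr 2
  push_cast
  ring

lemma canc (w : ℂ) (t : ℝ) :
    w * (Real.exp (t / 2) : ℂ) * (Real.exp (-t / 2) : ℂ) = w := by
  rw [mul_assoc, ← Complex.ofReal_mul, ← Real.exp_add, show t / 2 + -t / 2 = 0 by ring]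
  simp

lemma canc' (w : ℂ) (t : ℝ) :
    w * (Real.exp (-t / 2) : ℂ) * (Real.exp (t / 2) : ℂ) = w := by
  rw [mul_right_comm, canc]

/-- the domain is homeomorphic to a convex set -/
noncomputable def hom (φ : V → ℝ) (hφ : ContinuousOn φ Ball) :
    Om φ ≃ₜ (Ball ×ˢ Metric.ball (0 : ℂ) 1 : Set E) where
  toFun p := ⟨(p.1.1, p.1.2 * (Real.exp (φ p.1.1 / 2) : ℂ)), p.2.1, by
    rw [mem_ball_zero_iff, ← sq_lt_one_iff₀ (norm_nonneg _), nrm]
    exact p.2.2⟩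
  invFun q := ⟨(q.1.1, q.1.2 * (Real.exp (-φ q.1.1 / 2) : ℂ)), q.2.1, by
    have h := q.2.2
    rw [mem_ball_zero_iff, ← sq_lt_one_iff₀ (norm_nonneg _)] at h
    show ‖q.1.2 * (Real.exp (-φ q.1.1 / 2) : ℂ)‖ ^ 2 * Real.exp (φ q.1.1) < 1
    rw [nrm, mul_assoc, ← Real.exp_add, neg_add_cancel, Real.exp_zero, mul_one]
    exact h⟩
  left_inv p := Subtype.ext (Prod.ext rfl (canc _ _))
  right_inv q := Subtype.ext (Prod.ext rfl (canc' _ _))
  continuous_toFun := by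
    have h1 : Continuous fun p : Om φ => φ p.1.1 :=
      hφ.comp_continuous (continuous_fst.comp continuous_subtype_val) (fun p => p.2.1)
    exact Continuous.subtype_mk ((continuous_fst.comp continuous_subtype_val).prodMk
      ((continuous_snd.comp continuous_subtype_val).mul (Complex.continuous_ofReal.comp
        (Real.continuous_exp.comp (h1.div_const 2))))) _
  continuous_invFun := by
    have h1 : Continuous fun p : (Ball ×ˢ Metric.ball (0 : ℂ) 1 : Set E) => φ p.1.1 :=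
      hφ.comp_continuous (continuous_fst.comp continuous_subtype_val) (fun p => p.2.1)
    exact Continuous.subtype_mk ((continuous_fst.comp continuous_subtype_val).prodMk
      ((continuous_snd.comp continuous_subtype_val).mul (Complex.continuous_ofReal.comp
        (Real.continuous_exp.comp (h1.neg.div_const 2))))) _

lemma mem_ball {ζ : ℂ} (h : ‖ζ‖ < 1) : ((ζ, 0) : V) ∈ Ball := by
  show ‖ζ‖ ^ 2 + ‖(0 : ℂ)‖ ^ 2 < 1
  have := (sq_lt_one_iff₀ (norm_nonneg ζ)).2 h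
  simpa using this

lemma psi0_inl (ζ : ℂ) : psi0 (ζ, 0) = psi ζ := by simp [psi0, psi, nsq]

lemma harm_log {g : ℂ → ℂ} {z : ℂ} (hg : AnalyticAt ℂ g z) (h0 : g z ≠ 0) (a : ℝ) :
    HarmonicAt (fun ζ => a * Real.log (‖g ζ‖ ^ 2)) z := by
  have h := (hg.harmonicAt_log_norm h0).const_smul (c := a * 2)
  have e : (fun ζ => a * Real.log (‖g ζ‖ ^ 2)) = (a * 2) • fun ζ => Real.log ‖g ζ‖ := by
    funext ζ
    rw [Real.log_pow, Pi.smul_apply, smul_eq_mul]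
    push_cast
    ring
  rw [e]
  exact h

end Sc

theorem sStmt : SStmt := by
  intro φ hφ
  have hc : Convex ℝ (Ball ×ˢ Metric.ball (0 : ℂ) 1 : Set E) :=
    Sc.ball_cvx.prod (convex_ball 0 1)
  have h0 : ((0, 0) : V) ∈ Ball := Sc.mem_ball (by simp)
  have hne : (Ball ×ˢ Metric.ball (0 : ℂ) 1 : Set E).Nonempty :=
    ⟨((0, 0), 0), h0, Metric.mem_ball_self one_pos⟩
  have h1 := hc.contractibleSpace hne
  have h2 : ContractibleSpace (Om φ) := (Sc.hom φ hφ).contractibleSpace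
  exact SimplyConnectedSpace.ofContractible (Om φ)

theorem zStmt : ZStmt := by
  rintro W N f lam hlam hT hN ⟨J, K, hJ, hJd⟩
  obtain ⟨S, hSne, hS⟩ := hT.fam
  set u : V → ℝ := fun x => f x + 5 / lam * psi0 x - (Real.log (‖J x‖ ^ 2) - K) / lam with hu
  have hu0 : ∀ x ∈ Ball, 0 ≤ u x := by
    intro x hx
    have h1 := (hJ x hx).2
    have h2 : (Real.log (‖J x‖ ^ 2) - K) / lam ≤ f x + 5 / lam * psi0 x := by
      rw [div_le_iff₀ hlam]
      have e : (f x + 5 / lam * psi0 x) * lam = lam * f x + 5 * psi0 x := by field_simp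
      rw [e]
      linarith
    simp only [hu]
    linarith
  have hex : ∀ Θ ∈ S, HarmonicOnNhd (fun ζ : ℂ => W ζ + 5 / lam * psi ζ - u (Θ (ζ, 0)))
      (Metric.ball 0 1) := by
    intro Θ hΘ
    obtain ⟨⟨hA, j, hj⟩, ⟨c, hc⟩, -⟩ := hS Θ hΘ
    have hin : ∀ ζ : ℂ, AnalyticAt ℂ (fun η : ℂ => ((η, 0) : V)) ζ :=
      fun ζ => analyticAt_id.prod analyticAt_const
    have hc1 : ∀ ζ : ℂ, ‖ζ‖ < 1 → AnalyticAt ℂ (fun η : ℂ => Θ (η, 0)) ζ :=
      fun ζ hζ => AnalyticAt.comp (g := Θ) (f := fun η : ℂ => ((η, 0) : V))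
        (hA _ (Sc.mem_ball hζ)).1 (hin ζ)
    have hJa : AnalyticOnNhd ℂ (fun η : ℂ => J (Θ (η, 0))) (Metric.ball 0 1) :=
      DifferentiableOn.analyticOnNhd (fun ζ hζ =>
        (hJd _ ζ (hc1 ζ (mem_ball_zero_iff.1 hζ))
          (hA _ (Sc.mem_ball (mem_ball_zero_iff.1 hζ))).2).differentiableWithinAt)
        Metric.isOpen_ball
    intro ζ hζ
    have hζ' := Sc.mem_ball (mem_ball_zero_iff.1 hζ)
    have h1 := Sc.harm_log (hJa ζ hζ) (hJ _ (hA _ hζ').2).1 lam⁻¹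
    have hja : AnalyticAt ℂ (fun η : ℂ => j (η, 0)) ζ :=
      AnalyticAt.comp (g := j) (f := fun η : ℂ => ((η, 0) : V)) (hj _ hζ').1 (hin ζ)
    have h2 := Sc.harm_log hja (hj _ hζ').2.1 (5 / lam)
    refine (harmonicAt_congr_nhds ?_).1 ((h1.sub h2).sub (harmonicAt_const (K / lam + c)))
    filter_upwards [Metric.isOpen_ball.mem_nhds hζ] with η hη
    have hη' := mem_ball_zero_iff.1 hη
    simp only [hu, Pi.sub_apply]
    rw [(hj _ (Sc.mem_ball hη')).2.2, hc η hη', Sc.psi0_inl]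
    ring
  refine hN {h | ∃ Θ ∈ S, h = fun ζ : ℂ => W ζ + 5 / lam * psi ζ - u (Θ (ζ, 0))} ?_ ?_
  · obtain ⟨Θ, hΘ⟩ := hSne
    exact ⟨_, Θ, hΘ, rfl⟩
  · rintro h ⟨Θ, hΘ, rfl⟩
    refine ⟨hex Θ hΘ, fun ζ hζ => ?_, fun p hp => ?_⟩
    · have h3 := hu0 _ ((hS Θ hΘ).1.1 _ (Sc.mem_ball hζ)).2
      linarith
    · obtain ⟨Θ', hΘ', he⟩ := (hS Θ hΘ).2.2 p hp
      refine ⟨_, ⟨Θ', hΘ', rfl⟩, ?_⟩
      rw [he]
      ring

end Vale.Agent.P250
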