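import Vale.Agent.P250.Spec

/-! Module T of P250: the tree of wells. -/

open scoped Topology ComplexConjugate
open Set Filter

namespace Vale.Agent.P250

namespace Tw

noncomputable def kp (p : ℂ) (x : V) : V := (TT (-p) x).swap

noncomputable def gp (p : ℂ) (z : V) : V := TT p z.swap

open Classical in
noncomputable def k (N : Set ℂ) (β : ℝ) (x : V) : V :=
  if h : ∃ p ∈ N, dd p x.1 < β then kp h.choose x else 0

noncomputable def f (W : ℂ → ℝ) (N : Set ℂ) (β : ℝ) (x : V) : ℝ := ∑' n, W ((k N β)^[n] x).1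

lemma zero_mem : (0 : V) ∈ Ball := by simp [Ball, nsq]

lemma nsq_swap (x : V) : nsq x.swap = nsq x := by simp [nsq, add_comm]

lemma psi_le {z : ℂ} {a : ℝ} (ha : 0 < a) (h : a ≤ 1 - ‖z‖ ^ 2) : psi z ≤ -Real.log a :=
  neg_le_neg (Real.log_le_log ha h)

lemma le_exp {z : ℂ} {a : ℝ} (hz : ‖z‖ < 1) (h : a ≤ psi z) : 1 - ‖z‖ ^ 2 ≤ Real.exp (-a) := by
  have h1 : 0 < 1 - ‖z‖ ^ 2 := by nlinarith [norm_nonneg z]
  rw [← Real.exp_log h1]
  refine Real.exp_le_exp.2 ?_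
  unfold psi at h
  linarith

variable {W b : ℂ → ℝ} {N : Set ℂ} {β c0 C D : ℝ}

lemma kp_aut (hA : AutFacts) {p : ℂ} (hp : ‖p‖ < 1) : Aut (kp p) :=
  hA.comp Prod.swap (TT (-p)) hA.swap (hA.tt (-p) (by rwa [norm_neg]))

lemma gp_aut (hA : AutFacts) {p : ℂ} (hp : ‖p‖ < 1) : Aut (gp p) :=
  hA.comp (TT p) Prod.swap (hA.tt p hp) hA.swap

lemma gp_kp (hA : AutFacts) {p : ℂ} (hp : ‖p‖ < 1) {x : V} (hx : x ∈ Ball) :
    gp p (kp p x) = x := by
  rw [gp, kp, Prod.swap_swap, (hA.inv p hp x hx).1]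

lemma kp_gp (hA : AutFacts) {p : ℂ} (hp : ‖p‖ < 1) {x : V} (hx : x ∈ Ball) :
    kp p (gp p x) = x := by
  rw [gp, kp, (hA.inv p hp _ (hA.swap.1 x hx).2).2, Prod.swap_swap]

lemma norm_kp (p : ℂ) (x : V) : ‖(kp p x).2‖ = dd p x.1 := rfl

lemma c0_eq (h : WOrd W b N β c0 C D) : c0 = -Real.log (β ^ 2 / 16) := by
  rw [h.hc0, ← Real.log_inv, inv_div]

lemma c0_nonneg (h : WOrd W b N β c0 C D) : 0 ≤ c0 := by
  have := h.β0
  have := h.β1
  rw [h.hc0]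
  refine Real.log_nonneg ((one_le_div (by positivity)).2 ?_)
  nlinarith

lemma psi_node (hD : DiscFacts) (h : WOrd W b N β c0 C D) {p ζ : ℂ} (hp : p ∈ N) (hζ : ‖ζ‖ < 1)
    (hd : dd p ζ < β) : c0 + 2 ≤ psi ζ := by
  have h1 := hD.near1 p ζ (h.node p hp).1 hζ (by linarith [h.β1])
  linarith [(abs_le.1 h1).2, (h.node p hp).2]

lemma k_node (hD : DiscFacts) (h : WOrd W b N β c0 C D) {p : ℂ} {x : V} (hp : p ∈ N)
    (hx : ‖x.1‖ < 1) (hd : dd p x.1 < β) : k N β x = kp p x := by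
  have he : ∃ p ∈ N, dd p x.1 < β := ⟨p, hp, hd⟩
  rw [k, dif_pos he]
  obtain ⟨h1, h2⟩ := he.choose_spec
  congr 1
  refine h.sep _ h1 p hp ?_
  have := hD.tri he.choose x.1 p (h.node _ h1).1 hx (h.node _ hp).1
  rw [hD.symm x.1 p] at this
  linarith [h.β1]

lemma k_none {x : V} (hn : ¬ ∃ p ∈ N, dd p x.1 < β) : k N β x = 0 := by rw [k, dif_neg hn]

lemma none_of (hD : DiscFacts) (h : WOrd W b N β c0 C D) {ζ : ℂ} (hζ : ‖ζ‖ < 1)
    (hp : psi ζ ≤ c0) : ¬ ∃ p ∈ N, dd p ζ < β := by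
  rintro ⟨p, h1, h2⟩
  linarith [psi_node hD h h1 hζ h2]

lemma psi_zero (h : WOrd W b N β c0 C D) : psi 0 ≤ c0 := by
  simpa [psi] using c0_nonneg h

lemma k_zero (hD : DiscFacts) (h : WOrd W b N β c0 C D) : k N β 0 = 0 :=
  k_none (none_of hD h (by simp) (psi_zero h))

lemma grow (hD : DiscFacts) (hA : AutFacts) (h : WOrd W b N β c0 C D) {p : ℂ} {x : V}
    (hp : p ∈ N) (hx : x ∈ Ball) (hd : dd p x.1 < β) :
    2 * (1 - nsq x) ≤ 1 - nsq (kp p x) := by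
  have hp1 : ‖-p‖ < 1 := by rw [norm_neg]; exact (h.node p hp).1
  have hx1 := (hA.fst x hx).1
  have h1 := hD.one_sub (-p) x.1 hp1 hx1
  have h2 : 1 - ‖x.1‖ ^ 2 ≤ 1 / 3 := by
    refine (le_exp hx1 (a := 2) (by linarith [psi_node hD h hp hx1 hd, c0_nonneg h])).trans ?_
    rw [Real.exp_neg, one_div]
    exact inv_anti₀ (by norm_num) (by linarith [Real.add_one_le_exp 2])
  have h3 : ‖mob (-p) x.1‖ ^ 2 ≤ 1 / 4 := by
    have : ‖mob (-p) x.1‖ < β := hd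
    nlinarith [norm_nonneg (mob (-p) x.1), h.β1]
  have h4 : 0 < 1 - nsq x := sub_pos.2 hx
  have h5 : 0 ≤ (1 - ‖-p‖ ^ 2) / ‖1 + conj (-p) * x.1‖ ^ 2 :=
    div_nonneg (by nlinarith [norm_nonneg (-p)]) (by positivity)
  rw [mul_div_right_comm] at h1
  rw [kp, nsq_swap, hA.ratio (-p) hp1 x hx, mul_div_right_comm]
  refine mul_le_mul_of_nonneg_right ?_ h4.le
  nlinarith

lemma ind (hD : DiscFacts) (hA : AutFacts) (h : WOrd W b N β c0 C D) {P : V → Prop}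
    (h0 : ∀ x ∈ Ball, (¬ ∃ p ∈ N, dd p x.1 < β) → P x)
    (h1 : ∀ x ∈ Ball, ∀ p ∈ N, dd p x.1 < β → P (kp p x) → P x) : ∀ x ∈ Ball, P x := by
  have key : ∀ n : ℕ, ∀ x ∈ Ball, 1 < 2 ^ n * (1 - nsq x) → P x := by
    intro n
    induction n with
    | zero =>
      intro x _ hx
      have : 0 ≤ nsq x := by unfold nsq; positivity
      linarith
    | succ n ih =>
      intro x hx hn
      by_cases he : ∃ p ∈ N, dd p x.1 < β
      · obtain ⟨p, hp, hd⟩ := he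
        refine h1 x hx p hp hd (ih _ ((kp_aut hA (h.node p hp).1).1 x hx).2 (hn.trans_le ?_))
        rw [pow_succ, mul_assoc]
        exact mul_le_mul_of_nonneg_left (grow hD hA h hp hx hd) (by positivity)
      · exact h0 x hx he
  intro x hx
  have h4 : 0 < 1 - nsq x := sub_pos.2 hx
  obtain ⟨n, hn⟩ := pow_unbounded_of_one_lt (1 / (1 - nsq x)) (one_lt_two (α := ℝ))
  exact key n x hx ((div_lt_iff₀ h4).1 hn)

lemma f_zero (hD : DiscFacts) (h : WOrd W b N β c0 C D) : f W N β 0 = 0 := by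
  simp only [f, Function.iterate_fixed (k_zero hD h), Prod.fst_zero,
    h.zero 0 (by simp) (psi_zero h), tsum_zero]

lemma f_eq (hD : DiscFacts) (hA : AutFacts) (h : WOrd W b N β c0 C D) {x : V} (hx : x ∈ Ball) :
    f W N β x = W x.1 + f W N β (k N β x) := by
  obtain ⟨m, hm⟩ : ∃ m, (k N β)^[m] x = 0 := by
    refine ind hD hA h (P := fun x => ∃ m, (k N β)^[m] x = 0)
      (fun x _ hn => ⟨1, k_none hn⟩) ?_ x hx
    rintro x hx p hp hd ⟨m, hm⟩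
    exact ⟨m + 1, by rw [Function.iterate_succ_apply, k_node hD h hp (hA.fst x hx).1 hd, hm]⟩
  have hs : Summable fun n => W ((k N β)^[n] x).1 := by
    refine summable_of_ne_finset_zero (s := Finset.range m) fun n hn => ?_
    obtain ⟨j, rfl⟩ := Nat.exists_eq_add_of_le' (show m ≤ n by simpa using hn)
    rw [Function.iterate_add_apply, hm, Function.iterate_fixed (k_zero hD h)]
    exact h.zero 0 (by simp) (psi_zero h)
  rw [f, hs.tsum_eq_zero_add]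
  rfl

lemma f_low (hD : DiscFacts) (hA : AutFacts) (h : WOrd W b N β c0 C D) {y : V} (hy : y ∈ Ball)
    (hp : psi y.1 ≤ c0) : f W N β y = 0 := by
  rw [f_eq hD hA h hy, k_none (none_of hD h (hA.fst y hy).1 hp), f_zero hD h,
    h.zero _ (hA.fst y hy).1 hp, add_zero]

lemma f_far (hD : DiscFacts) (hA : AutFacts) (h : WOrd W b N β c0 C D) {y : V} (hy : y ∈ Ball)
    (h2 : β / 2 ≤ ‖y.2‖) : f W N β y = 0 := by
  refine f_low hD hA h hy ?_
  have h3 : ‖y.1‖ ^ 2 + ‖y.2‖ ^ 2 < 1 := hy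
  have := h.β0
  rw [c0_eq h]
  exact psi_le (by positivity) (by nlinarith)

lemma f_node (hD : DiscFacts) (hA : AutFacts) (h : WOrd W b N β c0 C D) {p : ℂ} {x : V}
    (hp : p ∈ N) (hx : x ∈ Ball) (hd : dd p x.1 < β) : f W N β x = W p + f W N β (kp p x) := by
  rw [f_eq hD hA h hx, k_node hD h hp (hA.fst x hx).1 hd, h.flat p hp _ (hA.fst x hx).1 hd]

lemma f_gp (hD : DiscFacts) (hA : AutFacts) (h : WOrd W b N β c0 C D) {p : ℂ} {z : V}
    (hp : p ∈ N) (hz : z ∈ Ball) (h2 : ‖z.2‖ < β) : f W N β (gp p z) = W p + f W N β z := by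
  have hp1 := (h.node p hp).1
  rw [f_node hD hA h hp ((gp_aut hA hp1).1 z hz).2 (by rwa [← norm_kp, kp_gp hA hp1 hz]),
    kp_gp hA hp1 hz]

lemma ev_dd (hD : DiscFacts) (hA : AutFacts) {p : ℂ} {x : V} {r : ℝ} (hp : ‖p‖ < 1)
    (hx : x ∈ Ball) (hd : dd p x.1 < r) : ∀ᶠ z in 𝓝 x, z ∈ Ball ∧ dd p z.1 < r :=
  (hA.isOpen.eventually_mem hx).and
    (((hD.cont p x.1 hp (hA.fst x hx).1).comp continuousAt_fst).eventually_lt
      continuousAt_const hd)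

lemma f_base (hD : DiscFacts) (hA : AutFacts) (h : WOrd W b N β c0 C D) {x : V} (hx : x ∈ Ball)
    (hn : ¬ ∃ p ∈ N, dd p x.1 < β) : ∀ᶠ z in 𝓝 x, f W N β z = W z.1 + 0 := by
  have hx1 := (hA.fst x hx).1
  filter_upwards [ev_dd hD hA (r := β / 2) hx1 hx (by rw [hD.self]; linarith [h.β0])]
    with z ⟨hz, hd⟩
  rw [f_eq hD hA h hz]
  congr 1
  by_cases he : ∃ p ∈ N, dd p z.1 < β
  · obtain ⟨p, hp, hp'⟩ := he
    have hp1 := (h.node p hp).1
    rw [k_node hD h hp (hA.fst z hz).1 hp']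
    refine f_far hD hA h ((kp_aut hA hp1).1 z hz).2 ?_
    have h1 := hD.tri p z.1 x.1 hp1 (hA.fst z hz).1 hx1
    have h2 : β ≤ dd p x.1 := not_lt.1 fun h' => hn ⟨p, hp, h'⟩
    rw [hD.symm z.1] at h1
    rw [norm_kp]
    linarith
  · rw [k_none he, f_zero hD h]

lemma mem_axis {ζ : ℂ} (hζ : ‖ζ‖ < 1) : ((ζ, 0) : V) ∈ Ball := by
  simp only [Ball, nsq, mem_ofPred_eq, norm_zero]
  nlinarith [norm_nonneg ζ]

lemma f_axis (hD : DiscFacts) (hA : AutFacts) (h : WOrd W b N β c0 C D) {ζ : ℂ} (hζ : ‖ζ‖ < 1) :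
    f W N β (ζ, 0) = W ζ := by
  rw [f_eq hD hA h (mem_axis hζ), add_eq_left]
  by_cases he : ∃ p ∈ N, dd p ((ζ, 0) : V).1 < β
  · obtain ⟨p, hp, hp'⟩ := he
    rw [k_node hD h hp hζ hp']
    refine f_low hD hA h ((kp_aut hA (h.node p hp).1).1 _ (mem_axis hζ)).2 ?_
    simpa [kp, TT] using psi_zero h
  · rw [k_none he, f_zero hD h]

lemma gp_snd (hA : AutFacts) (h : WOrd W b N β c0 C D) {p : ℂ} {z : V} (hp : p ∈ N)
    (hz : z ∈ Ball) (h2 : ‖z.2‖ < β) : ‖(gp p z).2‖ < β := by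
  have hp1 := (h.node p hp).1
  have b0 := h.β0
  have b1 := h.β1
  have h1 : 1 - ‖p‖ ^ 2 ≤ (β / 4) ^ 2 := by
    refine (le_exp hp1 (a := c0) (by linarith [(h.node p hp).2])).trans (le_of_eq ?_)
    rw [c0_eq h, neg_neg, Real.exp_log (by positivity)]; ring
  have h3 : √(1 - ‖p‖ ^ 2) ≤ β / 4 := Real.sqrt_le_iff.2 ⟨by positivity, h1⟩
  have h4 : 1 / 2 ≤ ‖1 + conj p * z.2‖ := by
    have h5 := norm_sub_le (1 + conj p * z.2) (conj p * z.2)
    rw [add_sub_cancel_right, norm_one, norm_mul, Complex.norm_conj] at h5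
    nlinarith [norm_nonneg p, norm_nonneg z.2]
  simp only [gp, TT, Prod.fst_swap, Prod.snd_swap, norm_div, norm_mul, Complex.norm_real,
    Real.norm_eq_abs, abs_of_nonneg (Real.sqrt_nonneg _)]
  rw [div_lt_iff₀ (by linarith)]
  nlinarith [(hA.fst z hz).1, norm_nonneg z.1, Real.sqrt_nonneg (1 - ‖p‖ ^ 2)]

end Tw

open Tw in
theorem tStmt : TStmt := by
  intro hD hA W b N β c0 C D h
  refine ⟨f W N β, ?_, ?_, ?_⟩
  · refine ind hD hA h (fun x hx hn => ⟨fun x => x, x, 0, hA.id, hx, rfl, f_base hD hA h hx hn⟩) ?_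
    rintro x hx p hp hd ⟨Θ, y, c, hΘ, hy, e, hev⟩
    have hp1 := (h.node p hp).1
    refine ⟨fun z => gp p (Θ z), y, W p + c, hA.comp _ _ (gp_aut hA hp1) hΘ, hy,
      by simp only [e, gp_kp hA hp1 hx], ?_⟩
    have h1 : ∀ᶠ z in 𝓝 y, ‖(Θ z).2‖ < β :=
      ((hΘ.1 y hy).1.continuousAt.snd.norm).eventually_lt continuousAt_const (by rwa [e])
    filter_upwards [hev, h1, hA.isOpen.eventually_mem hy] with z h2 h3 h4
    rw [f_gp hD hA h hp (hΘ.1 z h4).2 h3, h2]; ring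
  · refine ind hD hA h (fun x hx hn =>
      ⟨Prod.fst, 0, analyticAt_fst, (hA.fst x hx).1, f_base hD hA h hx hn⟩) ?_
    rintro x hx p hp hd ⟨m, c, hm, hm1, hev⟩
    have hp1 := (h.node p hp).1
    have hk := ((kp_aut hA hp1).1 x hx).1
    refine ⟨fun z => m (kp p z), W p + c, hm.comp hk, hm1, ?_⟩
    filter_upwards [hk.continuousAt.eventually hev, ev_dd hD hA hp1 hx hd] with z h2 ⟨h3, h4⟩
    rw [f_node hD hA h hp h3 h4, h2]; ring
  · refine ⟨{Θ | Aut Θ ∧ ∃ c, ∀ z ∈ Ball, ‖z.2‖ < β → f W N β (Θ z) = f W N β z + c},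
      ⟨fun x => x, hA.id, 0, fun _ _ _ => (add_zero _).symm⟩, ?_⟩
    rintro Θ ⟨hΘ, c, hc⟩
    refine ⟨hΘ, ⟨c, fun ζ hζ => ?_⟩, fun p hp => ?_⟩
    · rw [hc _ (mem_axis hζ) (by simpa using h.β0), f_axis hD hA h hζ]
    · have hp1 := (h.node p hp).1
      refine ⟨fun z => Θ (gp p z), ⟨hA.comp _ _ hΘ (gp_aut hA hp1), W p + c, fun z hz h2 => ?_⟩,
        by simp [gp, TT, mob]⟩
      rw [hc _ ((gp_aut hA hp1).1 z hz).2 (gp_snd hA h hp hz h2), f_gp hD hA h hp hz h2]; ring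

end Vale.Agent.P250
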