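import Vale.Agent.P250.J

/-! Module U: plurisubharmonicity and charts. -/

open scoped ContDiff Topology ComplexConjugate
open Set Filter

namespace Vale.Agent.P250

namespace Ux
open Jx Complex

theorem two {W : Type} [NormedAddCommGroup W] [NormedSpace ℝ W] {f : W → ℝ} {x : W}
    (h : ContDiffAt ℝ ∞ f x) : ContDiffAt ℝ 2 f x := h.of_le (by norm_cast)

theorem ana {W : Type} [NormedAddCommGroup W] [NormedSpace ℝ W] [NormedSpace ℂ W]
    [IsScalarTower ℝ ℂ W] [CompleteSpace W] {m : V → W} {x : V} (h : AnalyticAt ℂ m x) : ContDiffAt ℝ ∞ m x :=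
  (h.contDiffAt (n := ∞)).restrict_scalars ℝ

theorem al_le (X Y : V) : |al 1 1 X Y| ≤ 2 * (‖X‖ * ‖Y‖) := by
  have k : ∀ a b : ℂ, ‖a‖ ≤ ‖X‖ → ‖b‖ ≤ ‖Y‖ → |(conj a * b).re| ≤ ‖X‖ * ‖Y‖ := fun a b ha hb => by
    refine (abs_re_le_norm _).trans ?_
    rw [norm_mul, norm_conj]
    gcongr
  rw [al, one_mul, one_mul, two_mul]
  exact (abs_add_le _ _).trans (add_le_add (k _ _ (norm_fst_le X) (norm_fst_le Y))
    (k _ _ (norm_snd_le X) (norm_snd_le Y)))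

theorem jet {w : V → ℝ} (lam c : ℝ) (hw : ∀ᶠ z in 𝓝 0, ContDiffAt ℝ ∞ w z)
    (h : ∀ᶠ z in 𝓝 0, ContDiffAt ℝ ∞ (fun z => lam * (w z + c) + psi0 z) z) :
    (∀ X Y Z, D3 (fun z => lam * (w z + c) + psi0 z) 0 X Y Z = lam * D3 w 0 X Y Z) ∧
    ∀ X Y Z T, |D4 (fun z => lam * (w z + c) + psi0 z) 0 X Y Z T - lam * D4 w 0 X Y Z T| ≤
      48 * (‖X‖ * ‖Y‖ * ‖Z‖ * ‖T‖) := by
  have n0 : nsq 0 = 0 := by simp [nsq]
  have e1 : ∀ᶠ t in 𝓝 (nsq 0), t < 1 := by rw [n0]; exact gt_mem_nhds one_pos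
  have j1 := (jnsq 0).comp (F0 := fun t => lam * c - Real.log (1 - t)) (F1 := fun t => (1 - t)⁻¹)
    (F2 := fun t => (1 - t)⁻¹ ^ 2) (F3 := fun t => 2 * (1 - t)⁻¹ ^ 3)
    (F4 := fun t => 6 * (1 - t)⁻¹ ^ 4)
    (e1.mono fun t h => ((((hasDerivAt_id t).const_sub 1).log
      (sub_pos.2 h).ne').const_sub _).congr_deriv (by simp [div_eq_mul_inv]))
    (e1.mono fun t h => dq h) (e1.mono fun t h => ((dq h).pow 2).congr_deriv (by push_cast; ring))
    (e1.mono fun t h => (((dq h).pow 3).const_mul 2).congr_deriv (by push_cast; ring))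
  have j2 := (Jt.self hw).add lam j1
  rw [show (fun z => lam * w z + (lam * c - Real.log (1 - nsq z))) =
    fun z => lam * (w z + c) + psi0 z from funext fun z => by rw [psi0]; ring] at j2
  obtain ⟨-, k3, k4⟩ := (Jt.self h).uniq j2
  have z1 : ∀ u : V, al 1 1 u 0 = 0 := fun u => by simp [al]
  refine ⟨fun X Y Z => (k3 X Y Z).trans (by simp only [z1]; ring), fun X Y Z T => ?_⟩
  have k : ∀ a b c d : V, |al 1 1 a b * al 1 1 c d| ≤ 4 * (‖a‖ * ‖b‖ * ‖c‖ * ‖d‖) :=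
    fun a b c d => by
      rw [abs_mul]
      exact (mul_le_mul (al_le a b) (al_le c d) (abs_nonneg _) (by positivity)).trans_eq (by ring)
  have e : D4 (fun z => lam * (w z + c) + psi0 z) 0 X Y Z T - lam * D4 w 0 X Y Z T =
      4 * (al 1 1 X Y * al 1 1 Z T + al 1 1 X Z * al 1 1 Y T + al 1 1 X T * al 1 1 Y Z) := by
    rw [k4]
    simp only [z1, n0]
    ring
  have a1 := abs_le.1 (k X Y Z T)
  have a2 := abs_le.1 (k X Z Y T)
  have a3 := abs_le.1 (k X T Y Z)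
  rw [e, abs_le]
  constructor <;> linarith [a1.1, a1.2, a2.1, a2.2, a3.1, a3.2]

theorem levi (hL : LevFacts) {W : ℂ → ℝ} (hW : WSm W) {μ : V → ℂ} (h1 : AnalyticAt ℂ μ 0)
    (h2 : ‖μ 0‖ < 1) (h3 : ∀ t : ℂ, μ (0, t) = μ 0) : ∃ s, 0 ≤ s ∧ ∀ X Y,
      lev (fun z => W (μ z)) 0 X Y = s * (conj X.1 * Y.1).re := by
  have d0 : fderiv ℂ μ 0 (0, 1) = 0 := by
    have a := (h1.differentiableAt.hasFDerivAt (x := (0, 0))).comp_hasDerivAt (0 : ℂ)
      ((hasDerivAt_const (0 : ℂ) (0 : ℂ)).prodMk (hasDerivAt_id (0 : ℂ)))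
    exact a.unique ((hasDerivAt_const (0 : ℂ) (μ 0)).congr_of_eventuallyEq (.of_forall h3))
  have d1 : ∀ X : V, fderiv ℂ μ 0 X = X.1 * fderiv ℂ μ 0 (1, 0) := fun X => by
    have : X = X.1 • ((1, 0) : V) + X.2 • ((0, 1) : V) := by ext <;> simp
    conv_lhs => rw [this]
    rw [map_add, map_smul, map_smul, d0, smul_zero, add_zero, smul_eq_mul]
  refine ⟨normSq (fderiv ℂ μ 0 (1, 0)) * lev W (μ 0) 1 1,
    mul_nonneg (normSq_nonneg _) ((hW _ h2).2 1), fun X Y => ?_⟩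
  rw [hL.pull W μ 0 X Y h1 (two (hW _ h2).1), hL.one _ _ _ _ (two (hW _ h2).1), d1 X, d1 Y]
  generalize fderiv ℂ μ 0 (1, 0) = b
  simp only [map_mul, mul_re, mul_im, conj_re, conj_im, normSq_apply]
  ring

end Ux

open Ux Complex in
theorem uStmt : UStmt := by
  intro hL _ hA hN W N f hW ⟨Λ, hΛ⟩ hT lam hl
  refine ⟨fun x hx => ?_, 49 + lam * |Λ|, by linarith [mul_nonneg hl (abs_nonneg Λ)],
    fun x hx => ?_⟩
  · obtain ⟨m, c, m1, m2, m3⟩ := hT.loc' x hx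
    have s1 : ContDiffAt ℝ ∞ (fun z => W (m z)) x := (hW _ m2).1.comp x (ana m1)
    have s2 : ContDiffAt ℝ ∞ f x := (s1.add contDiffAt_const).congr_of_eventuallyEq m3
    refine ⟨(contDiffAt_const.mul s2).add (hL.psi2 x hx).1, fun X => ?_⟩
    rw [hL.add _ _ x X X (two (contDiffAt_const.mul s2)) (two (hL.psi2 x hx).1),
      hL.cmul lam f x X X (two s2), hL.congr f _ x X X m3,
      hL.add _ _ x X X (two s1) contDiffAt_const, hL.const, add_zero,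
      hL.pull W m x X X m1 (two (hW _ m2).1)]
    have := ((hL.psi2 x hx).2 X).1
    have n0 : 0 ≤ nsq X := by rw [nsq]; positivity
    linarith [mul_nonneg hl ((hW _ m2).2 (fderiv ℂ m x X))]
  obtain ⟨Θ, y, c, t1, t2, t3, t4⟩ := hT.loc x hx
  have y1 := (hA.fst y t2).1
  have y2 : ‖-y.1‖ < 1 := by rwa [norm_neg]
  obtain ⟨a, ha⟩ : ∃ a, a = (TT (-y.1) y).2 := ⟨_, rfl⟩
  have a1 : ‖a‖ < 1 := ha ▸ (hA.fst _ ((hA.tt _ y2).1 y t2).2).2
  have b0 : (0 : V) ∈ Ball := by simp [Ball, nsq]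
  have bn := hA.isOpen.mem_nhds b0
  have hG := hA.comp _ _ (hA.tt _ y1) (hA.comp _ _ hA.swap (hA.comp _ _ (hA.tt _ a1) hA.swap))
  set G : V → V := fun z => TT y.1 (TT a z.swap).swap with hGe
  have G0 : G 0 = y := by
    refine Eq.trans (congrArg (TT y.1) ?_) (hA.inv _ y1 y t2).1
    rw [Prod.ext_iff, ← ha]
    simp [TT, mob]
  obtain ⟨h1, j, hj⟩ := hA.comp _ _ t1 hG
  obtain ⟨F, F1, F2⟩ := hL.logre j 0 (hj 0 b0).1 (hj 0 b0).2.1
  have e1 : ∀ᶠ z in 𝓝 0, psi0 (Θ (G z)) = psi0 z + (F z).re := by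
    filter_upwards [F2, bn] with z p q
    rw [← p, (hj z q).2.2]
  have w1 : ∀ z ∈ Ball, ContDiffAt ℝ ∞ (fun z => W (G z).1) z := fun z hz =>
    (hW _ (hA.fst _ (hG.1 z hz).2).1).1.comp z (ana (hG.1 z hz).1).fst
  have w2 : ∀ᶠ z in 𝓝 0, ContDiffAt ℝ ∞ (fun z => lam * (W (G z).1 + c) + psi0 z) z :=
    eventually_of_mem bn fun z hz =>
      (contDiffAt_const.mul ((w1 z hz).add contDiffAt_const)).add (hL.psi2 z hz).1
  have κ1 : |√(1 - ‖a‖ ^ 2)| ≤ 1 := by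
    rw [abs_of_nonneg (Real.sqrt_nonneg _), Real.sqrt_le_one]
    linarith [sq_nonneg ‖a‖]
  obtain ⟨B2, B3, B4⟩ : JB (fun z => W (G z).1) Λ := hΛ y.1 a _ y1 a1.le κ1
  obtain ⟨s, s0, s1⟩ := levi hL hW (μ := fun z => (G z).1) (analyticAt_fst.comp (hG.1 0 b0).1)
    (by rwa [G0]) fun t => by simp [hGe, TT]
  have s2 : s ≤ 2 * |Λ| := by
    have p := s1 (1, 0) (1, 0)
    have q := B2 (1, 0) (1, 0)
    have r := B2 (I • (1, 0)) (I • (1, 0))
    rw [lev] at p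
    simp only [norm_smul, norm_I, Prod.norm_mk, norm_one, norm_zero, zero_le_one, sup_of_le_left,
      mul_one, map_one, one_re] at p q r
    linarith [le_abs_self Λ, (abs_le.1 q).2, (abs_le.1 r).2]
  obtain ⟨k3, k4⟩ := jet lam c (eventually_of_mem bn w1) w2
  have l0 := mul_nonneg hl (abs_nonneg Λ)
  obtain ⟨F', g1, g2⟩ := hN _ (1 + lam * s / 4) 1 (49 + lam * |Λ|) w2
    ⟨by linarith [mul_nonneg hl s0], by linarith [mul_le_mul_of_nonneg_left s2 hl]⟩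
    ⟨le_rfl, by linarith⟩
    (fun X Y => by
      rw [hL.add _ _ 0 X Y (two (contDiffAt_const.mul ((w1 0 b0).add contDiffAt_const)))
        (two (hL.psi2 0 b0).1), hL.cmul lam _ 0 X Y (two ((w1 0 b0).add contDiffAt_const)),
        hL.add _ _ 0 X Y (two (w1 0 b0)) contDiffAt_const, hL.const, s1, hL.psi3, al, al]
      ring)
    (fun X Y Z => by
      have p := mul_le_mul_of_nonneg_left (B3 X Y Z) hl
      have q : 0 ≤ ‖X‖ * ‖Y‖ * ‖Z‖ := by positivity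
      have r := mul_le_mul_of_nonneg_left (mul_le_mul_of_nonneg_right (le_abs_self Λ) q) hl
      rw [k3, abs_mul, abs_of_nonneg hl]
      linarith)
    fun X Y Z T => by
      have p := mul_le_mul_of_nonneg_left (B4 X Y Z T) hl
      have q : 0 ≤ ‖X‖ * ‖Y‖ * ‖Z‖ * ‖T‖ := by positivity
      have r := mul_le_mul_of_nonneg_left (mul_le_mul_of_nonneg_right (le_abs_self Λ) q) hl
      have u := (abs_sub_abs_le_abs_sub _ _).trans (k4 X Y Z T)
      rw [abs_mul, abs_of_nonneg hl] at u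
      linarith
  refine ⟨fun z => Θ (G z), F, fun z => F z + F' z, _, _, _, (h1 0 b0).1,
    (congrArg Θ G0).trans t3, F1,
    F1.add g1, e1, ?_, g2⟩
  filter_upwards [e1, (hG.1 0 b0).1.continuousAt.eventually (G0.symm ▸ t4)] with z p q
  rw [p, q, add_re]
  ring

end Vale.Agent.P250
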