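import Vale.Agent.P250.Spec

/-! Modules W0 and W1 of P250: the weight on the disc. -/

open scoped Topology ComplexConjugate ContDiff
open Set Filter

namespace Vale.Agent.P250

namespace W0m

lemma exB : ∃ B cB CB, IsB B cB CB := by
  have hc := Real.smoothTransition.continuous
  have hd : ∀ t, HasDerivAt (fun t => ∫ s in (0 : ℝ)..t, Real.smoothTransition s)
      (Real.smoothTransition t) t := fun t => (hc.integral_hasStrictDerivAt 0 t).hasDerivAt
  have e : deriv (fun t => ∫ s in (0 : ℝ)..t, Real.smoothTransition s) = Real.smoothTransition :=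
    funext fun t => (hd t).deriv
  have hs : ContDiff ℝ ∞ Real.smoothTransition := Real.smoothTransition.contDiff
  obtain ⟨K, hK⟩ := (isCompact_Icc (a := (0 : ℝ)) (b := 1)).exists_bound_of_continuousOn
    (contDiff_infty_iff_deriv.1 hs).2.continuous.continuousOn
  have h1 : ∫ s in (0 : ℝ)..1, Real.smoothTransition s ≤ 1 := by
    have := intervalIntegral.integral_mono_on (μ := MeasureTheory.volume) zero_le_one
      (hc.intervalIntegrable 0 1) (g := fun _ => 1) intervalIntegrable_const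
      fun x _ => Real.smoothTransition.le_one x
    simpa using this
  have h0 : 0 ≤ ∫ s in (0 : ℝ)..1, Real.smoothTransition s :=
    intervalIntegral.integral_nonneg zero_le_one fun x _ => Real.smoothTransition.nonneg x
  refine ⟨fun t => ∫ s in (0 : ℝ)..t, Real.smoothTransition s,
    1 - ∫ s in (0 : ℝ)..1, Real.smoothTransition s, K, ?_, fun t ht => ?_, fun t ht => ?_,
    by linarith, by linarith, fun t => ?_, fun t => ?_⟩
  · rw [contDiff_infty_iff_deriv, e]
    exact ⟨fun t => (hd t).differentiableAt, hs⟩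
  · rw [intervalIntegral.integral_congr (g := fun _ => 0) fun x hx => ?_]
    · simp
    · rw [uIcc_of_ge ht] at hx
      exact Real.smoothTransition.zero_of_nonpos hx.2
  · rw [← intervalIntegral.integral_add_adjacent_intervals (b := 1) (hc.intervalIntegrable _ _)
      (hc.intervalIntegrable _ _), intervalIntegral.integral_congr (a := 1) (b := t)
      (g := fun _ => 1) fun x hx => ?_]
    · simp; ring
    · rw [uIcc_of_le ht] at hx
      exact Real.smoothTransition.one_of_one_le hx.1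
  · rw [e]
    exact ⟨Real.smoothTransition.nonneg t, Real.smoothTransition.le_one t⟩
  · rw [e]
    refine ⟨Real.smoothTransition.monotone.deriv_nonneg, ?_⟩
    have hK0 : 0 ≤ K := (norm_nonneg _).trans (hK 0 ⟨le_rfl, zero_le_one⟩)
    rcases lt_or_ge t 0 with k | k
    · have : Real.smoothTransition =ᶠ[𝓝 t] fun _ => 0 :=
        (eventually_lt_nhds k).mono fun x hx => Real.smoothTransition.zero_of_nonpos hx.le
      rw [this.deriv_eq]; simpa using hK0
    rcases lt_or_ge 1 t with k' | k'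
    · have : Real.smoothTransition =ᶠ[𝓝 t] fun _ => 1 :=
        (eventually_gt_nhds k').mono fun x hx => Real.smoothTransition.one_of_one_le hx.le
      rw [this.deriv_eq]; simpa using hK0
    · exact (Real.le_norm_self _).trans (hK t ⟨k, k'⟩)

lemma exN (hD : DiscFacts) (c : ℝ) : ∃ N : Set ℂ, (∀ p ∈ N, ‖p‖ < 1 ∧ c ≤ psi p) ∧
    (∀ p ∈ N, ∀ q ∈ N, dd p q < 1 / 2 → p = q) ∧
    ∀ ζ : ℂ, ‖ζ‖ < 1 → c ≤ psi ζ → ∃ p ∈ N, dd p ζ < 1 / 2 := by
  obtain ⟨N, hN⟩ := zorn_subset {N : Set ℂ | (∀ p ∈ N, ‖p‖ < 1 ∧ c ≤ psi p) ∧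
      ∀ p ∈ N, ∀ q ∈ N, dd p q < 1 / 2 → p = q} (by
    intro T hT hc
    refine ⟨⋃₀ T, ⟨?_, ?_⟩, fun s hs => subset_sUnion_of_mem hs⟩
    · rintro p ⟨s, hs, hp⟩
      exact (hT hs).1 p hp
    · rintro p ⟨s, hs, hp⟩ q ⟨t, ht, hq⟩
      rcases hc.total hs ht with k | k
      · exact (hT ht).2 p (k hp) q hq
      · exact (hT hs).2 p hp q (k hq))
  refine ⟨N, hN.prop.1, hN.prop.2, fun ζ h1 h2 => ?_⟩
  by_contra hne
  push Not at hne
  have hm : ζ ∈ N := by
    refine hN.le_of_ge (y := insert ζ N) ⟨?_, ?_⟩ (subset_insert _ _) (mem_insert _ _)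
    · rintro p (rfl | hp)
      · exact ⟨h1, h2⟩
      · exact hN.prop.1 p hp
    · rintro p (rfl | hp) q (rfl | hq) hd
      · rfl
      · rw [hD.symm] at hd
        exact absurd hd (not_lt.2 (hne q hq))
      · exact absurd hd (not_lt.2 (hne p hp))
      · exact hN.prop.2 p hp q hq hd
  have := hne ζ hm
  rw [hD.self] at this
  linarith

variable {B : ℝ → ℝ} {cB CB : ℝ}

lemma mono (h : IsB B cB CB) : Monotone B :=
  monotone_of_deriv_nonneg (h.smooth.differentiable (by simp)) fun t => (h.d1 t).1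

lemma lip (h : IsB B cB CB) (s t : ℝ) : |B s - B t| ≤ |s - t| := by
  have := Convex.norm_image_sub_le_of_norm_deriv_le (𝕜 := ℝ) (f := B) (C := 1) (s := univ)
    (fun x _ => h.smooth.differentiable (by simp) x)
    (fun x _ => by rw [Real.norm_of_nonneg (h.d1 x).1]; exact (h.d1 x).2) convex_univ
    (mem_univ t) (mem_univ s)
  simpa using this

lemma nonneg (h : IsB B cB CB) (s : ℝ) : 0 ≤ B s := by
  rw [← h.zero (min s 0) (min_le_right _ _)]
  exact mono h (min_le_left _ _)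

lemma le_max (h : IsB B cB CB) (s : ℝ) : B s ≤ max s 0 := by
  rcases le_total s 0 with k | k
  · rw [h.zero s k]; exact le_max_right _ _
  · have := (abs_le.1 (lip h s 0)).2
    rw [h.zero 0 le_rfl, sub_zero, sub_zero, abs_of_nonneg k] at this
    exact this.trans (le_max_left _ _)

lemma sub_le (h : IsB B cB CB) (s : ℝ) : s - cB ≤ B s := by
  rcases le_total 1 s with k | k
  · exact (h.lin s k).ge
  · have := (abs_le.1 (lip h 1 s)).2
    rw [h.lin 1 le_rfl, abs_of_nonneg (sub_nonneg.2 k)] at this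
    linarith

lemma exp_neg_le {x : ℝ} (_hx : 0 ≤ x) : Real.exp (-x) * (1 + x) ≤ 1 := by
  rw [Real.exp_neg, inv_mul_le_iff₀ (Real.exp_pos x)]
  linarith [Real.add_one_le_exp x]

variable {W : ℂ → ℝ} {N : Set ℂ} {β c0 C D : ℝ}

lemma flatv (hD : DiscFacts) (h : WDef B cB CB W N β c0 C D) (hβ : β ≤ 1 / 100) (hC : 1 ≤ C)
    {p ζ : ℂ} (hp : p ∈ N) (hζ : ‖ζ‖ < 1) (hd : dd p ζ ≤ β) :
    W ζ = C * B (psi p - c0) - D + cB := by
  have hb := h.β0
  have h0 : 0 ≤ dd p ζ := norm_nonneg _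
  have h1 : Real.log (64 * (dd p ζ ^ 2 + β ^ 2)) ≤ -D - C - 1 := by
    rw [Real.log_le_iff_le_exp (by positivity)]
    nlinarith [h.hβ]
  have h2 := sub_le h.isB (-Real.log (64 * (dd p ζ ^ 2 + β ^ 2)))
  have h3 := abs_le.1 (hD.near1 p ζ (h.node p hp).1 hζ (by linarith))
  have h4 : C * (psi ζ - psi p) ≤ C := by nlinarith
  rw [h.cell p hp ζ hζ (by linarith),
    h.isB.zero (C * (psi ζ - psi p) - _ + D) (by linarith [h.isB.c1])]
  ring

end W0m

open W0m in
theorem w0Stmt : W0Stmt := by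
  classical
  intro hD
  obtain ⟨B, cB, CB, hB⟩ := exB
  have hCB : 0 ≤ CB := (hB.d2 0).1.trans (hB.d2 0).2
  set C := 200 * CB + 1 with hC
  set D := 1000 * (C + 1) with hDD
  set β := √(Real.exp (-D - C - 1) / 128) with hβ
  have hβ0 : 0 < β := Real.sqrt_pos.2 (by positivity)
  have hβ2 : β ^ 2 = Real.exp (-D - C - 1) / 128 := Real.sq_sqrt (by positivity)
  set c0 := Real.log (16 / β ^ 2) with hc0
  obtain ⟨N, h1, h2, h3⟩ := exN hD (c0 + 3)
  let cf : ℂ → ℂ → ℝ := fun p ζ => C * B (psi p - c0) +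
    (B (C * (psi ζ - psi p) - B (-Real.log (64 * (dd p ζ ^ 2 + β ^ 2))) + D) - D + cB)
  let W : ℂ → ℝ := fun ζ =>
    if h : ∃ p ∈ N, dd p ζ < 1 / 4 then cf h.choose ζ else C * B (psi ζ - c0)
  have cell : ∀ p ∈ N, ∀ ζ : ℂ, ‖ζ‖ < 1 → dd p ζ < 1 / 4 → W ζ = cf p ζ := by
    intro p hp ζ hζ hd
    have h : ∃ p ∈ N, dd p ζ < 1 / 4 := ⟨p, hp, hd⟩
    have e : p = h.choose := by
      refine h2 p hp _ h.choose_spec.1 ?_
      have k1 := hD.tri p ζ h.choose (h1 p hp).1 hζ (h1 _ h.choose_spec.1).1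
      rw [hD.symm ζ] at k1
      linarith [h.choose_spec.2]
    simp only [W, dif_pos h, ← e]
  refine ⟨B, cB, CB, W, N, β, c0, C, D, hB, hβ0, by rw [hβ2]; linarith, rfl, le_rfl, le_rfl, h1, h2,
    h3, cell, fun ζ hζ ho => ?_⟩
  by_cases h : ∃ p ∈ N, dd p ζ < 1 / 4
  · obtain ⟨p, hp, hd⟩ := h
    have k1 := abs_le.1 (hD.near1 p ζ (h1 p hp).1 hζ hd.le)
    have k2 := ho p hp
    have k3 : 0 ≤ Real.log (64 * (dd p ζ ^ 2 + β ^ 2)) := Real.log_nonneg (by nlinarith)
    have k4 := (h1 p hp).2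
    have k5 : -C ≤ C * (psi ζ - psi p) := by nlinarith
    rw [cell p hp ζ hζ hd]
    simp only [cf]
    rw [hB.zero (-_) (by linarith), hB.lin (psi p - c0) (by linarith),
      hB.lin (psi ζ - c0) (by linarith), hB.lin _ (by linarith)]
    ring
  · simp only [W, dif_neg h]

open W0m in
theorem w1Stmt : W1Stmt := by
  intro hD B cB CB W N β c0 C D h
  have hB := h.isB
  have hCB : 0 ≤ CB := (hB.d2 0).1.trans (hB.d2 0).2
  have hC : 1 ≤ C := by linarith [h.hC]
  have hDD := h.hD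
  have hβ : β ≤ 1 / 100 := by
    have k1 := exp_neg_le (x := D + C + 1) (by linarith)
    have k2 := h.hβ
    rw [show -D - C - 1 = -(D + C + 1) by ring] at k2
    refine (pow_le_pow_iff_left₀ h.β0.le (by norm_num) two_ne_zero).1 ?_
    nlinarith [Real.exp_pos (-(D + C + 1))]
  have out : ∀ ζ : ℂ, ‖ζ‖ < 1 → (¬∃ p ∈ N, dd p ζ < 1 / 4) → W ζ = C * B (psi ζ - c0) := by
    intro ζ hζ k
    push Not at k
    exact h.out ζ hζ fun p hp => by linarith [k p hp]
  refine ⟨h.β0, hβ, h.hc0, hC, hDD, h.node, h.sep, h.cob, fun ζ hζ hs => ?_,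
    fun p hp ζ hζ hd => ?_, fun ζ => nonneg hB _, fun ζ => le_max hB _, fun ζ ζ' => ?_,
    fun ζ hζ => ?_, fun p hp => ?_, fun p hp ζ hζ hd => ?_, fun ζ hζ hw => ?_⟩
  · rw [h.out ζ hζ fun p hp => ?_, hB.zero _ (by linarith), mul_zero]
    by_contra k
    have := abs_le.1 (hD.near1 p ζ (h.node p hp).1 hζ (by linarith))
    linarith [(h.node p hp).2]
  · rw [flatv hD h hβ hC hp hζ hd.le,
      flatv hD h hβ hC hp (h.node p hp).1 (by rw [hD.self]; exact h.β0.le)]
  · simpa using lip hB (psi ζ - c0) (psi ζ' - c0)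
  · by_cases k : ∃ p ∈ N, dd p ζ < 1 / 4
    · obtain ⟨p, hp, hd⟩ := k
      have k1 := abs_le.1 (hD.near1 p ζ (h.node p hp).1 hζ hd.le)
      have k4 := (h.node p hp).2
      have k5 : -C ≤ C * (psi ζ - psi p) := by nlinarith
      have k6 := mono hB (show C * (psi ζ - psi p) - B (-Real.log (64 * (dd p ζ ^ 2 + β ^ 2))) + D ≤
        C * (psi ζ - psi p) + D by linarith [nonneg hB (-Real.log (64 * (dd p ζ ^ 2 + β ^ 2)))])
      rw [hB.lin (C * (psi ζ - psi p) + D) (by linarith)] at k6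
      rw [h.cell p hp ζ hζ hd, hB.lin (psi p - c0) (by linarith),
        hB.lin (psi ζ - c0) (by linarith)]
      linarith
    · rw [out ζ hζ k]; linarith
  · rw [flatv hD h hβ hC hp (h.node p hp).1 (by rw [hD.self]; exact h.β0.le)]
    linarith [hB.c1]
  · rw [h.cell p hp ζ hζ hd]
    linarith [hB.c0, nonneg hB
      (C * (psi ζ - psi p) - B (-Real.log (64 * (dd p ζ ^ 2 + β ^ 2))) + D)]
  · by_cases k : ∃ p ∈ N, dd p ζ < 1 / 4
    · obtain ⟨p, hp, hd⟩ := k
      refine ⟨p, hp, ?_⟩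
      have k1 := abs_le.1 (hD.near1 p ζ (h.node p hp).1 hζ hd.le)
      have k4 := (h.node p hp).2
      have k6 := sub_le hB (C * (psi ζ - psi p) - B (-Real.log (64 * (dd p ζ ^ 2 + β ^ 2))) + D)
      rw [h.cell p hp ζ hζ hd, hB.lin (psi p - c0) (by linarith),
        hB.lin (psi ζ - c0) (by linarith)] at hw
      have k7 : 200 < max (-Real.log (64 * (dd p ζ ^ 2 + β ^ 2))) 0 := by
        linarith [le_max hB (-Real.log (64 * (dd p ζ ^ 2 + β ^ 2)))]
      have k8 : Real.log (64 * (dd p ζ ^ 2 + β ^ 2)) < -200 := by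
        rcases lt_max_iff.1 k7 with k | k <;> linarith
      have hb := h.β0
      rw [Real.log_lt_iff_lt_exp (by positivity)] at k8
      have k9 := exp_neg_le (x := 200) (by norm_num)
      refine (pow_le_pow_iff_left₀ (norm_nonneg _) (by norm_num) two_ne_zero).1 ?_
      change dd p ζ ^ 2 ≤ _
      nlinarith [sq_nonneg β]
    · rw [out ζ hζ k] at hw
      linarith

end Vale.Agent.P250
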