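import Vale.Agent.P250.Spec

/-! Module W2 of P250: the weight is smooth and subharmonic. -/

open scoped Topology ComplexConjugate ContDiff
open Set Filter

namespace Vale.Agent.P250

namespace W2m

variable {B : ℝ → ℝ} {cB CB : ℝ}

lemma two {f : ℂ → ℝ} {x : ℂ} (h : ContDiffAt ℝ ∞ f x) : ContDiffAt ℝ 2 f x :=
  h.of_le (by norm_cast)

lemma comp_nn (hL : LevFacts) (hB : IsB B cB CB) {s : ℂ → ℝ} {x u : ℂ} (hs : ContDiffAt ℝ ∞ s x)
    (h : 0 ≤ lev s x u u) : 0 ≤ lev (fun z => B (s z)) x u u := by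
  rw [hL.comp B s x u u (two hs) (hB.smooth.contDiffAt.of_le (by norm_cast))]
  exact add_nonneg (mul_nonneg (hB.d1 _).1 h)
    (mul_nonneg (hB.d2 _).1 (add_nonneg (mul_self_nonneg _) (mul_self_nonneg _)))

lemma add_c (hL : LevFacts) {s : ℂ → ℝ} {x : ℂ} (u : ℂ) (c : ℝ) (hs : ContDiffAt ℝ ∞ s x) :
    lev (fun z => s z + c) x u u = lev s x u u := by
  rw [hL.add s (fun _ => c) x u u (two hs) contDiffAt_const, hL.const, add_zero]

lemma B_sm (hB : IsB B cB CB) {s : ℂ → ℝ} {x : ℂ} (hs : ContDiffAt ℝ ∞ s x) :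
    ContDiffAt ℝ ∞ (fun z => B (s z)) x := hB.smooth.contDiffAt.comp x hs

lemma dd_zero (hB : IsB B cB CB) {t : ℝ} (ht : 1 < t) : deriv (deriv B) t = 0 := by
  have h : deriv B =ᶠ[𝓝 t] fun _ => 1 := by
    filter_upwards [eventually_gt_nhds ht] with s hs
    have : B =ᶠ[𝓝 s] fun x => x - cB := (eventually_gt_nhds hs).mono fun x hx => hB.lin x hx.le
    rw [this.deriv_eq]
    simp
  rw [h.deriv_eq]
  simp

/-- the one-variable profile of the well -/
noncomputable def Fw (B : ℝ → ℝ) (b x : ℝ) : ℝ := -B (-Real.log (64 * (x + b)))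

lemma l_der {b x : ℝ} (h : 0 < x + b) :
    HasDerivAt (fun x => -Real.log (64 * (x + b))) (-(x + b)⁻¹) x := by
  have h1 := ((((hasDerivAt_id x).add_const b).const_mul 64).log
    (by simp only [id]; positivity)).fun_neg
  simp only [id] at h1
  refine h1.congr_deriv ?_
  field_simp

lemma Fw_sm (hB : IsB B cB CB) {b x : ℝ} (h : 0 < x + b) : ContDiffAt ℝ ∞ (Fw B b) x :=
  (hB.smooth.contDiffAt.comp x
    ((contDiffAt_const.mul (contDiffAt_id.add contDiffAt_const)).log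
      (by simp only [id]; positivity)).neg).neg

lemma Fw_d1 (hB : IsB B cB CB) {b x : ℝ} (h : 0 < x + b) :
    deriv (Fw B b) x = deriv B (-Real.log (64 * (x + b))) * (x + b)⁻¹ := by
  have h1 := (((hB.smooth.differentiable (by simp) _).hasDerivAt).comp x (l_der h)).fun_neg
  exact (h1.congr_deriv (by ring)).deriv

lemma Fw_d2 (hB : IsB B cB CB) {b x : ℝ} (h : 0 < x + b) :
    deriv (deriv (Fw B b)) x = -(deriv (deriv B) (-Real.log (64 * (x + b))) +
      deriv B (-Real.log (64 * (x + b)))) * (x + b)⁻¹ ^ 2 := by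
  have e : deriv (Fw B b) =ᶠ[𝓝 x] fun x => deriv B (-Real.log (64 * (x + b))) * (x + b)⁻¹ := by
    have : ∀ᶠ y in 𝓝 x, 0 < y + b :=
      (continuous_id.add continuous_const).continuousAt.eventually (lt_mem_nhds h)
    exact this.mono fun y hy => Fw_d1 hB hy
  have hd := (contDiff_infty_iff_deriv.1 hB.smooth).2.differentiable (by simp)
  have h1 := (((hd _).hasDerivAt).comp x (l_der h)).mul
    (((hasDerivAt_id x).add_const b).fun_inv (by simp only [id]; positivity))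
  simp only [id, Function.comp] at h1
  rw [e.deriv_eq]
  refine (h1.congr_deriv ?_).deriv
  field_simp
  ring

lemma nsq_sm (x : ℂ) : ContDiffAt ℝ ∞ (fun z : ℂ => ‖z‖ ^ 2) x := (contDiff_norm_sq ℝ).contDiffAt

lemma well (hL : LevFacts) (hB : IsB B cB CB) {b : ℝ} (hb : 0 < b) (η u : ℂ) :
    -(800 * CB * ‖u‖ ^ 2) ≤ lev (fun z : ℂ => Fw B b (‖z‖ ^ 2)) η u u := by
  have h : 0 < ‖η‖ ^ 2 + b := by positivity
  rw [hL.comp (Fw B b) (fun z : ℂ => ‖z‖ ^ 2) η u u (two (nsq_sm η))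
    ((Fw_sm hB h).of_le (by norm_cast)), (hL.nsq1 η u u).1, (hL.nsq1 η u u).2,
    (hL.nsq1 η (Complex.I • u) u).1, Fw_d1 hB h, Fw_d2 hB h]
  have e1 : (conj u * u).re = ‖u‖ ^ 2 := by
    simp [Complex.sq_norm, Complex.normSq_apply]
  have e2 : 2 * (conj η * u).re * (2 * (conj η * u).re) + 2 * (conj η * Complex.I • u).re *
      (2 * (conj η * Complex.I • u).re) = 4 * ‖η‖ ^ 2 * ‖u‖ ^ 2 := by
    simp [Complex.sq_norm, Complex.normSq_apply]
    ring
  rw [e1, e2]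
  have h1 := (hB.d1 (-Real.log (64 * (‖η‖ ^ 2 + b)))).1
  have h2 := hB.d2 (-Real.log (64 * (‖η‖ ^ 2 + b)))
  have hCB : 0 ≤ CB := h2.1.trans h2.2
  have hi : 0 < (‖η‖ ^ 2 + b)⁻¹ := inv_pos.2 h
  have h3 : ‖η‖ ^ 2 * (‖η‖ ^ 2 + b)⁻¹ ≤ 1 := by
    rw [mul_inv_le_iff₀ h]; linarith
  have h4 : deriv (deriv B) (-Real.log (64 * (‖η‖ ^ 2 + b))) * (‖η‖ ^ 2 + b)⁻¹ ≤ 200 * CB := by
    rcases lt_or_ge 1 (-Real.log (64 * (‖η‖ ^ 2 + b))) with k | k
    · rw [dd_zero hB k, zero_mul]; positivity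
    · have k1 : Real.exp (-1) ≤ 64 * (‖η‖ ^ 2 + b) := by
        rw [← Real.le_log_iff_exp_le (by positivity)]; linarith
      have k2 : (‖η‖ ^ 2 + b)⁻¹ ≤ 200 := by
        rw [inv_le_comm₀ h (by norm_num)]
        linarith [Real.exp_neg_one_gt_d9]
      nlinarith
  generalize deriv (deriv B) (-Real.log (64 * (‖η‖ ^ 2 + b))) = B2 at *
  generalize deriv B (-Real.log (64 * (‖η‖ ^ 2 + b))) = B1 at *
  generalize (‖η‖ ^ 2 + b)⁻¹ = i at *
  have hu : 0 ≤ ‖u‖ ^ 2 := by positivity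
  have k1 : 0 ≤ B1 * i * (1 - ‖η‖ ^ 2 * i) := mul_nonneg (by positivity) (by linarith)
  have k2 : B2 * i * (‖η‖ ^ 2 * i) ≤ 200 * CB * 1 :=
    mul_le_mul h4 h3 (by positivity) (by positivity)
  nlinarith [mul_nonneg k1 hu, mul_le_mul_of_nonneg_right k2 hu]

lemma cellG (hL : LevFacts) (hD : DiscFacts) (hB : IsB B cB CB) {b C D K : ℝ} (hb : 0 < b)
    (hC : 200 * CB + 1 ≤ C) {p η : ℂ} (hp : ‖p‖ < 1) (hη : ‖η‖ < 1) :
    ContDiffAt ℝ ∞ (fun z : ℂ => B (C * (psi z + Real.log (‖1 + conj p * z‖ ^ 2)) +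
      Fw B b (‖z‖ ^ 2) + D) + K) η ∧ ∀ u, 0 ≤ lev (fun z : ℂ =>
      B (C * (psi z + Real.log (‖1 + conj p * z‖ ^ 2)) + Fw B b (‖z‖ ^ 2) + D) + K) η u u := by
  have h1 := hL.psi1 η hη
  have h2 := fun u => hL.logn (fun z : ℂ => 1 + conj p * z) η u u (by fun_prop)
    (hD.den p η hp.le hη)
  have h3 : ContDiffAt ℝ ∞ (fun z : ℂ => Fw B b (‖z‖ ^ 2)) η :=
    (Fw_sm hB (by positivity)).comp η (nsq_sm η)
  have h4 := h1.1.add (h2 0).1
  have h5 := (contDiffAt_const (c := C)).mul h4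
  have h6 := (h5.add h3).add (contDiffAt_const (c := D))
  have h7 := B_sm hB h6
  refine ⟨h7.add contDiffAt_const, fun u => ?_⟩
  rw [add_c hL u K h7]
  refine comp_nn hL hB h6 ?_
  rw [add_c hL u D (h5.add h3), hL.add _ _ η u u (two h5) (two h3), hL.cmul C _ η u u (two h4),
    hL.add _ _ η u u (two h1.1) (two (h2 0).1), (h2 u).2, add_zero]
  have hCB : 0 ≤ CB := (hB.d2 0).1.trans (hB.d2 0).2
  have k1 := well hL hB hb η u
  have k2 := mul_le_mul_of_nonneg_left (h1.2 u) (show 0 ≤ C by linarith)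
  nlinarith [sq_nonneg ‖u‖]

end W2m

open W2m in
theorem w2Stmt : W2Stmt := by
  intro hL hD B cB CB W N β c0 C D h ζ hζ
  have hB := h.isB
  have hb : ∀ᶠ z in 𝓝 ζ, ‖z‖ < 1 := continuous_norm.continuousAt.eventually (gt_mem_nhds hζ)
  by_cases k : ∃ p ∈ N, dd p ζ < 1 / 4
  · obtain ⟨p, hp, hd⟩ := k
    have hp1 := (h.node p hp).1
    have hp2 : ‖-p‖ < 1 := by simpa using hp1
    obtain ⟨g1, g2⟩ := cellG (D := D) (K := C * B (psi p - c0) - D + cB) hL hD hB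
      (pow_pos h.β0 2) h.hC hp1 (hD.mem _ _ hp2 hζ)
    have e : W =ᶠ[𝓝 ζ] fun z => (fun z : ℂ => B (C * (psi z + Real.log (‖1 + conj p * z‖ ^ 2)) +
        Fw B (β ^ 2) (‖z‖ ^ 2) + D) + (C * B (psi p - c0) - D + cB)) (mob (-p) z) := by
      filter_upwards [hb, (hD.cont p ζ hp1 hζ).eventually (gt_mem_nhds hd)] with z hz hz'
      have e1 := hD.psi_mob p _ hp1 (hD.mem _ _ hp2 hz)
      rw [hD.inv p z hp1 hz] at e1
      have e2 : psi z - psi p = psi (mob (-p) z) + Real.log (‖1 + conj p * mob (-p) z‖ ^ 2) := by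
        linarith
      rw [h.cell p hp z hz hz', e2, dd, sub_eq_add_neg (C * _)]
      simp only [Fw]
      ring
    have ha := hD.ana _ _ hp2 hζ
    refine ⟨(g1.comp ζ (ha.contDiffAt.restrict_scalars ℝ)).congr_of_eventuallyEq e, fun u => ?_⟩
    rw [hL.congr _ _ ζ u u e, hL.pull _ _ ζ u u ha (two g1)]
    exact g2 _
  · push Not at k
    have e : W =ᶠ[𝓝 ζ] fun z => C * B (psi z + -c0) := by
      filter_upwards [hb, (hD.cont ζ ζ hζ hζ).eventually
        (gt_mem_nhds (show dd ζ ζ < 1 / 8 by rw [hD.self]; norm_num))] with z hz hz'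
      refine h.out z hz fun p hp => ?_
      have := hD.tri p z ζ (h.node p hp).1 hz hζ
      rw [hD.symm z ζ] at this
      linarith [k p hp]
    have h1 := hL.psi1 ζ hζ
    have h2 := h1.1.add (contDiffAt_const (c := -c0))
    have h3 := B_sm hB h2
    have hCB : 0 ≤ CB := (hB.d2 0).1.trans (hB.d2 0).2
    refine ⟨(contDiffAt_const.mul h3).congr_of_eventuallyEq e, fun u => ?_⟩
    rw [hL.congr _ _ ζ u u e, hL.cmul C _ ζ u u (two h3)]
    refine mul_nonneg (by linarith [h.hC]) (comp_nn hL hB h2 ?_)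
    rw [add_c hL u _ h1.1]
    exact le_trans (by positivity) (h1.2 u)

end Vale.Agent.P250
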