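import Vale.Agent.P250.Spec

/-! Modules K and W3 of P250: uniform bounds on jets. -/

open scoped Topology ComplexConjugate ContDiff
open Set Filter Metric

namespace Vale.Agent.P250

namespace W3m

section
variable {P F F' : Type} [NormedAddCommGroup P] [NormedSpace ℝ P] [NormedAddCommGroup F]
  [NormedSpace ℝ F] [NormedAddCommGroup F'] [NormedSpace ℝ F']

lemma step {G : P × V → F} {π : P} (hG : ContDiffAt ℝ ∞ G (π, 0)) (L : F →L[ℝ] F') {f : V → F'}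
    {c : F'} (hf : ∀ᶠ z in 𝓝 0, f z = L (G (π, z)) + c) :
    ∀ᶠ z in 𝓝 0, fderiv ℝ f z = L ∘L fderiv ℝ G (π, z) ∘L ContinuousLinearMap.inr ℝ P V := by
  have h1 : ∀ᶠ w in 𝓝 (π, (0 : V)), ContDiffAt ℝ 1 G w :=
    (hG.of_le (by norm_cast)).eventually (by simp)
  filter_upwards [hf.eventually_nhds,
    (Continuous.prodMk_right π).continuousAt.eventually h1] with z hz hz'
  have h2 := (L.hasFDerivAt.comp z ((hz'.differentiableAt one_ne_zero).hasFDerivAt.comp z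
    (hasFDerivAt_prodMk_right π z))).add_const c
  exact (h2.congr_of_eventuallyEq hz).fderiv

lemma bd {G : P × V → F} {S : Set P} (hS : IsCompact S) (hG : ∀ π ∈ S, ContDiffAt ℝ ∞ G (π, 0)) :
    ∃ K, 0 ≤ K ∧ ∀ π ∈ S, ‖G (π, 0)‖ ≤ K := by
  obtain ⟨K, hK⟩ := hS.exists_bound_of_continuousOn (f := fun π => G (π, 0)) fun π hπ =>
    ((hG π hπ).continuousAt.comp (f := fun π : P => (π, (0 : V)))
      (Continuous.prodMk_left 0).continuousAt).continuousWithinAt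
  exact ⟨max K 0, le_max_right _ _, fun π hπ => (hK π hπ).trans (le_max_left _ _)⟩

lemma ap (T : P × V →L[ℝ] F) {K : ℝ} (h : ‖T‖ ≤ K) (X : V) : ‖T (0, X)‖ ≤ K * ‖X‖ := by
  have := T.le_of_opNorm_le h (0, X)
  simpa [Prod.norm_def] using this

lemma dsm {G : P × V → F} {w : P × V} (h : ContDiffAt ℝ ∞ G w) : ContDiffAt ℝ ∞ (fderiv ℝ G) w :=
  h.fderiv_right (by simp)

end

lemma mono {f : V → ℝ} {a b : ℝ} (h : JB f a) (hab : a ≤ b) : JB f b :=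
  ⟨fun X Y => (h.1 X Y).trans (by gcongr), fun X Y Z => (h.2.1 X Y Z).trans (by gcongr),
    fun X Y Z T => (h.2.2 X Y Z T).trans (by gcongr)⟩

section
variable {X : Type} [NormedAddCommGroup X] [NormedSpace ℝ X] {f g : X → ℂ} {x : X}

lemma cj (h : ContDiffAt ℝ ∞ f x) : ContDiffAt ℝ ∞ (fun y => conj (f y)) x :=
  Complex.conjCLE.contDiff.contDiffAt.comp x h

lemma dn (h : ContDiffAt ℝ ∞ f x) (h' : ContDiffAt ℝ ∞ g x) :
    ContDiffAt ℝ ∞ (fun y => 1 + conj (f y) * g y) x := contDiffAt_const.add ((cj h).mul h')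

lemma dv (h : ContDiffAt ℝ ∞ f x) (h' : ContDiffAt ℝ ∞ g x) (h0 : g x ≠ 0) :
    ContDiffAt ℝ ∞ (fun y => f y / g y) x := by
  simp only [div_eq_mul_inv]
  exact h.mul (h'.inv h0)

lemma mb (h : ContDiffAt ℝ ∞ f x) (h' : ContDiffAt ℝ ∞ g x) (h0 : 1 + conj (f x) * g x ≠ 0) :
    ContDiffAt ℝ ∞ (fun y => mob (f y) (g y)) x := dv (h'.add h) (dn h h') h0

lemma ps (h : ContDiffAt ℝ ∞ f x) (h0 : ‖f x‖ < 1) : ContDiffAt ℝ ∞ (fun y => psi (f y)) x :=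
  ((contDiffAt_const.sub (h.norm_sq ℝ)).log (by nlinarith [norm_nonneg (f x)])).neg

lemma ln (h : ContDiffAt ℝ ∞ f x) (h0 : f x ≠ 0) :
    ContDiffAt ℝ ∞ (fun y => Real.log (‖f y‖ ^ 2)) x :=
  (h.norm_sq ℝ).log (pow_ne_zero _ (norm_ne_zero_iff.2 h0))

end

/-- the inner map -/
noncomputable def mm (a : ℂ) (κ : ℝ) (z : V) : ℂ := κ * z.1 / (1 + conj a * z.2)

lemma mm_zero (a : ℂ) (κ : ℝ) : mm a κ 0 = 0 := by simp [mm]

lemma mm_sm {X : Type} [NormedAddCommGroup X] [NormedSpace ℝ X] {a : X → ℂ} {κ : X → ℝ}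
    {z : X → V} {x : X} (ha : ContDiffAt ℝ ∞ a x) (hκ : ContDiffAt ℝ ∞ κ x)
    (hz : ContDiffAt ℝ ∞ z x) (h0 : z x = 0) :
    ContDiffAt ℝ ∞ (fun y => mm (a y) (κ y) (z y)) x :=
  dv ((Complex.ofRealCLM.contDiff.contDiffAt.comp x hκ).mul hz.fst) (dn ha hz.snd) (by simp [h0])

lemma mm_cont (a : ℂ) (κ : ℝ) : Tendsto (mm a κ) (𝓝 0) (𝓝 0) := by
  have h := (mm_sm (a := fun _ : V => a) (κ := fun _ => κ) (z := fun y => y) (x := 0)
    contDiffAt_const contDiffAt_const contDiffAt_id rfl).continuousAt.tendsto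
  rwa [mm_zero] at h

lemma mob_zero (a : ℂ) : mob a 0 = a := by simp [mob]

/-- the family for the cells -/
noncomputable def F1 (B : ℝ → ℝ) (β C D : ℝ) (p η : ℂ) : ℝ :=
  B (C * (psi η + Real.log (‖1 + conj p * η‖ ^ 2)) - B (-Real.log (64 * (‖η‖ ^ 2 + β ^ 2))) + D)

lemma cell (hD : DiscFacts) (hK : KStmt) {B : ℝ → ℝ} (hB : ContDiff ℝ ∞ B) {β : ℝ} (hβ : 0 < β)
    (C D : ℝ) : ∃ Λ, ∀ (p q e a : ℂ) (κ : ℝ), ‖p‖ ≤ 1 → ‖q‖ ≤ 1 / 4 → ‖e‖ ≤ 1 → ‖a‖ ≤ 1 → |κ| ≤ 1 →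
      ∀ (f : V → ℝ) (c : ℝ), (∀ᶠ z in 𝓝 0, f z = F1 B β C D p (mob q (e * mm a κ z)) + c) →
        JB f Λ := by
  obtain ⟨Λ, h⟩ := hK (ℂ × ℂ × ℂ × ℂ × ℝ) (closedBall 0 1 ×ˢ closedBall 0 (1 / 4) ×ˢ
    closedBall 0 1 ×ˢ closedBall 0 1 ×ˢ Icc (-1) 1)
    (fun w => F1 B β C D w.1.1 (mob w.1.2.1 (w.1.2.2.1 * mm w.1.2.2.2.1 w.1.2.2.2.2 w.2)))
    ((isCompact_closedBall _ _).prod ((isCompact_closedBall _ _).prod
      ((isCompact_closedBall _ _).prod ((isCompact_closedBall _ _).prod isCompact_Icc)))) (by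
    rintro π ⟨h1, h2, -⟩
    have k1 : ‖π.1‖ ≤ 1 := mem_closedBall_zero_iff.1 h1
    have k2 : ‖π.2.1‖ < 1 := (mem_closedBall_zero_iff.1 h2).trans_lt (by norm_num)
    have c1 : ContDiffAt ℝ ∞ (fun w : (ℂ × ℂ × ℂ × ℂ × ℝ) × V => w.1) (π, 0) := contDiffAt_fst
    have hm := c1.snd.snd.fst.mul (mm_sm c1.snd.snd.snd.fst c1.snd.snd.snd.snd contDiffAt_snd rfl)
    have hη := mb c1.snd.fst hm (by simp [mm_zero])
    exact hB.contDiffAt.comp _ (((contDiffAt_const.mul ((ps hη (by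
      simpa [mm_zero, mob_zero] using k2)).add (ln (dn c1.fst hη) (by
      simpa [mm_zero, mob_zero] using hD.den _ _ k1 k2)))).sub (hB.contDiffAt.comp _
      ((contDiffAt_const.mul ((hη.norm_sq ℝ).add contDiffAt_const)).log
        (by positivity)).neg)).add contDiffAt_const))
  exact ⟨Λ, fun p q e a κ h1 h2 h3 h4 h5 f c hf => h (p, q, e, a, κ)
    ⟨mem_closedBall_zero_iff.2 h1, mem_closedBall_zero_iff.2 h2, mem_closedBall_zero_iff.2 h3,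
      mem_closedBall_zero_iff.2 h4, abs_le.1 h5⟩ f c hf⟩

lemma out (hK : KStmt) {B : ℝ → ℝ} (hB : ContDiff ℝ ∞ B) (C l : ℝ) :
    ∃ Λ, ∀ (s : ℝ) (ζ a : ℂ) (κ : ℝ), s ∈ Icc l 2 → ‖ζ‖ ≤ 1 → ‖a‖ ≤ 1 → |κ| ≤ 1 →
      ∀ (f : V → ℝ) (c : ℝ), (∀ᶠ z in 𝓝 0, f z = C * B (s + (psi (mm a κ z) +
        Real.log (‖1 + conj ζ * mm a κ z‖ ^ 2))) + c) → JB f Λ := by
  obtain ⟨Λ, h⟩ := hK (ℝ × ℂ × ℂ × ℝ) (Icc l 2 ×ˢ closedBall 0 1 ×ˢ closedBall 0 1 ×ˢ Icc (-1) 1)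
    (fun w => C * B (w.1.1 + (psi (mm w.1.2.2.1 w.1.2.2.2 w.2) +
      Real.log (‖1 + conj w.1.2.1 * mm w.1.2.2.1 w.1.2.2.2 w.2‖ ^ 2))))
    (isCompact_Icc.prod ((isCompact_closedBall _ _).prod
      ((isCompact_closedBall _ _).prod isCompact_Icc))) (by
    intro π _
    have c1 : ContDiffAt ℝ ∞ (fun w : (ℝ × ℂ × ℂ × ℝ) × V => w.1) (π, 0) := contDiffAt_fst
    have hm := mm_sm c1.snd.snd.fst c1.snd.snd.snd contDiffAt_snd rfl
    exact contDiffAt_const.mul (hB.contDiffAt.comp _ (c1.fst.add ((ps hm (by simp [mm_zero])).add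
      (ln (dn c1.snd.fst hm) (by simp [mm_zero]))))))
  exact ⟨Λ, fun s ζ a κ h1 h2 h3 h4 f c hf => h (s, ζ, a, κ)
    ⟨h1, mem_closedBall_zero_iff.2 h2, mem_closedBall_zero_iff.2 h3, abs_le.1 h4⟩ f c hf⟩

end W3m

open W3m in
theorem kStmt : KStmt := by
  intro P _ _ S Φ hS hΦ
  obtain ⟨K2, p2, h2⟩ := bd hS fun π hπ => dsm (dsm (hΦ π hπ))
  obtain ⟨K3, p3, h3⟩ := bd hS fun π hπ => dsm (dsm (dsm (hΦ π hπ)))
  obtain ⟨K4, p4, h4⟩ := bd hS fun π hπ => dsm (dsm (dsm (dsm (hΦ π hπ))))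
  refine ⟨K2 + K3 + K4, fun π hπ f c hf => ?_⟩
  have s0 := hΦ π hπ
  have e1 := step s0 (ContinuousLinearMap.id ℝ ℝ) hf
  have e2 := step (dsm s0) ((ContinuousLinearMap.compL ℝ V (P × V) ℝ).flip
    (ContinuousLinearMap.inr ℝ P V)) (f := fderiv ℝ f) (c := 0)
    (e1.mono fun z hz => by rw [hz]; ext <;> simp)
  have e3 : ∀ X Y : V, ∀ᶠ z in 𝓝 0, ∀ Z, D3 f z X Y Z =
      fderiv ℝ (fderiv ℝ (fderiv ℝ Φ)) (π, z) (0, Z) (0, X) (0, Y) := by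
    intro X Y
    filter_upwards [step (dsm (dsm s0)) (ContinuousLinearMap.apply ℝ ℝ ((0, Y) : P × V) ∘L
      ContinuousLinearMap.apply ℝ (P × V →L[ℝ] ℝ) ((0, X) : P × V))
      (f := fun z => D2 f z X Y) (c := 0) (e2.mono fun z hz => by simp [D2, hz])] with z hz Z
    simp [D3, hz]
  refine ⟨fun X Y => ?_, fun X Y Z => ?_, fun X Y Z T => ?_⟩
  · have e : D2 f 0 X Y = fderiv ℝ (fderiv ℝ Φ) (π, 0) (0, X) (0, Y) := by
      simp [D2, e2.self_of_nhds]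
    rw [e]
    refine (ap _ (ap _ (h2 π hπ) X) Y).trans ?_
    gcongr
    linarith
  · rw [(e3 X Y).self_of_nhds]
    refine (ap _ (ap _ (ap _ (h3 π hπ) Z) X) Y).trans ?_
    calc K3 * ‖Z‖ * ‖X‖ * ‖Y‖ = K3 * ‖X‖ * ‖Y‖ * ‖Z‖ := by ring
      _ ≤ _ := by gcongr; linarith
  · have e4 := (step (dsm (dsm (dsm s0))) (ContinuousLinearMap.apply ℝ ℝ ((0, Y) : P × V) ∘L
      ContinuousLinearMap.apply ℝ (P × V →L[ℝ] ℝ) ((0, X) : P × V) ∘L
      ContinuousLinearMap.apply ℝ (P × V →L[ℝ] P × V →L[ℝ] ℝ) ((0, Z) : P × V))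
      (f := fun z => D3 f z X Y Z) (c := 0)
      ((e3 X Y).mono fun z hz => by simp [hz])).self_of_nhds
    rw [D4, e4]
    refine (ap _ (ap _ (ap _ (ap _ (h4 π hπ) T) Z) X) Y).trans ?_
    calc K4 * ‖T‖ * ‖Z‖ * ‖X‖ * ‖Y‖ = K4 * ‖X‖ * ‖Y‖ * ‖Z‖ * ‖T‖ := by ring
      _ ≤ _ := by gcongr; linarith

open W3m in
theorem w3Stmt : W3Stmt := by
  intro hD hK B cB CB W N β c0 C D h
  have hB := h.isB
  obtain ⟨L1, h1⟩ := cell hD hK hB.smooth h.β0 C D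
  obtain ⟨L2, h2⟩ := out hK hB.smooth C (-|c0|)
  refine ⟨max L1 L2, fun ζ a κ hζ ha hκ => ?_⟩
  have tm := mm_cont a κ
  have hm : ∀ᶠ z in 𝓝 0, ‖mm a κ z‖ < 1 :=
    tm.norm.eventually (gt_mem_nhds (by simp))
  have tw : Tendsto (fun z => mob ζ (mm a κ z)) (𝓝 0) (𝓝 ζ) := by
    have := (hD.ana ζ 0 hζ (by simp)).continuousAt.tendsto.comp tm
    rwa [mob_zero] at this
  change JB (fun z => W (mob ζ (mm a κ z))) _
  by_cases k : ∃ p ∈ N, dd p ζ < 1 / 4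
  · obtain ⟨p, hp, hd⟩ := k
    have hp1 := (h.node p hp).1
    have hp2 : ‖-p‖ < 1 := by simpa using hp1
    obtain ⟨e, he, hc⟩ := hD.comp p ζ hp1 hζ
    refine mono (h1 p (mob (-p) ζ) e a κ hp1.le hd.le he.le ha hκ _
      (C * B (psi p - c0) - D + cB) ?_) (le_max_left _ _)
    filter_upwards [hm, ((hD.cont p ζ hp1 hζ).tendsto.comp tw).eventually (gt_mem_nhds hd)]
      with z hz hz'
    have hw := hD.mem _ _ hζ hz
    have e1 := hD.psi_mob p _ hp1 (hD.mem _ _ hp2 hw)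
    rw [hD.inv p _ hp1 hw] at e1
    rw [h.cell p hp _ hw hz', ← hc _ hz, F1, dd, e1, add_assoc (psi p), add_sub_cancel_left]
    ring
  · push Not at k
    have hs : min (psi ζ - c0) 2 ∈ Icc (-|c0|) 2 :=
      ⟨le_min (by linarith [hD.psi_nonneg ζ hζ, le_abs_self c0]) (by linarith [abs_nonneg c0]),
        min_le_right _ _⟩
    refine mono (h2 _ ζ a κ hs hζ.le ha hκ _ (C * (psi ζ - c0 - min (psi ζ - c0) 2)) ?_)
      (le_max_right _ _)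
    have t1 := ((hD.cont ζ ζ hζ hζ).tendsto.comp tw).eventually
      (gt_mem_nhds (show dd ζ ζ < 1 / 8 by rw [hD.self]; norm_num))
    filter_upwards [hm, t1] with z hz hz'
    have hw := hD.mem _ _ hζ hz
    have e1 := hD.psi_mob ζ _ hζ hz
    have e2 := abs_le.1 (hD.near1 ζ _ hζ hw (le_trans hz'.le (by norm_num)))
    rw [h.out _ hw fun p hp => ?_]
    · rcases le_total (psi ζ - c0) 2 with k1 | k1
      · rw [min_eq_left k1, e1, sub_self, mul_zero, add_zero]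
        congr 2
        ring
      · rw [min_eq_right k1, hB.lin _ (by linarith), hB.lin _ (by linarith), e1]
        ring
    · have := hD.tri p _ ζ (h.node p hp).1 hw hζ
      rw [hD.symm (mob ζ (mm a κ z)) ζ] at this
      have k2 : dd ζ (mob ζ (mm a κ z)) < 1 / 8 := hz'
      linarith [k p hp]

end Vale.Agent.P250
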