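import Vale.Agent.P250.X4

/-! P250, module X: the local pinching estimate. -/

open scoped ComplexConjugate
open Complex

namespace Vale.Agent.P250

namespace Xx

theorem GG_symm (h1 h2 P : ℝ) (u v : E) : GG h1 h2 P u v = GG h1 h2 P v u := by
  simp [GG, al]; ring

theorem GG_shift (h1 h2 P t : ℝ) (u v w : E) :
    GG h1 h2 P w (v + t • u) = GG h1 h2 P w v + t * GG h1 h2 P w u := by
  simp [GG, al]; ring

theorem al_shift (h1 h2 t : ℝ) (u v : E) :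
    al h1 h2 u.1 (v + t • u).1 = al h1 h2 u.1 v.1 + t * al h1 h2 u.1 u.1 := by
  simp [al]; ring

theorem area_shift (h1 h2 P t : ℝ) (u v : E) :
    GG h1 h2 P u u * GG h1 h2 P (v + t • u) (v + t • u) - GG h1 h2 P u (v + t • u) ^ 2 =
      GG h1 h2 P u u * GG h1 h2 P v v - GG h1 h2 P u v ^ 2 := by
  rw [GG_shift, GG_shift h1 h2 P t u v u, GG_symm _ _ _ (v + t • u), GG_symm _ _ _ (v + t • u),
    GG_shift, GG_shift, GG_symm _ _ _ v u]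
  ring

theorem GG_pos {h1 h2 P : ℝ} (p1 : 0 < h1) (p2 : 0 < h2) (p3 : 0 < P) {u : E} (hu : u ≠ 0) :
    0 < GG h1 h2 P u u := by
  rw [GG, al_self, cself]
  by_contra! h
  have a := mul_nonneg p1.le (sq_nonneg ‖u.1.1‖)
  have b := mul_nonneg p2.le (sq_nonneg ‖u.1.2‖)
  have c := mul_nonneg p3.le (sq_nonneg ‖u.2‖)
  have a' : h1 * ‖u.1.1‖ ^ 2 = 0 := by linarith
  have b' : h2 * ‖u.1.2‖ ^ 2 = 0 := by linarith
  have c' : P * ‖u.2‖ ^ 2 = 0 := by linarith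
  simp only [mul_eq_zero, p1.ne', p2.ne', p3.ne', false_or, pow_eq_zero_iff two_ne_zero,
    norm_eq_zero] at a' b' c'
  exact hu (Prod.ext (Prod.ext a' b') c')

end Xx

open Xx in
theorem xStmt : XStmt := fun hR hF hJ h1 h2 Λ hΛ => by
  obtain ⟨A, ε, K, A0, ε0, K0, hG⟩ := h2 Λ hΛ
  refine ⟨A, ε, 1 / (1600 * K), 4 + 5 * K + 4 * Λ * K + 2 * Λ + Λ ^ 2, A0, ε0, by positivity,
    fun χ a1 a2 θ hχ hs => ?_⟩
  obtain ⟨r, r1, sm, d1, d2, d3, d4⟩ := h1 ε _ ε0 hs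
  obtain ⟨μ, ν, g⟩ := hG r r1
  obtain ⟨j0, j2, j3, j4⟩ := hJ A (pf ε) χ a1 a2 Λ θ hχ sm
  rw [d1, d2] at j2 j3 j4
  rw [d3] at j3 j4
  rw [d4] at j4
  generalize tau ε r = τ at *
  generalize PP ε r = P at *
  generalize P1 ε r = Q1 at *
  generalize P2 ε r = Q2 at *
  generalize model A (pf ε) χ = Φ at *
  have hτ := g.hτ
  have hP := g.hP
  have p1 : 0 < A + τ * a1 := by have := hχ.h1.1; positivity
  have p2 : 0 < A + τ * a2 := by have := hχ.h2.1; positivity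
  have L : ∀ u v, lev Φ (0, θ) u v = GG (A + τ * a1) (A + τ * a2) P u v := fun u v => by
    rw [lev, j2, j2, lev2]
  have pos : ∀ u, u ≠ 0 → 0 < lev Φ (0, θ) u u := fun u hu => L u u ▸ GG_pos p1 p2 hP hu
  have lm := hF.lm Φ _ j0 pos
  have kn : ∀ a, 1 ≤ a → (A + τ * a) * (P * a / (A + τ * a)) = P * a ∧ τ ≤ A + τ * a ∧
      0 ≤ P * a / (A + τ * a) ∧ τ * (P * a / (A + τ * a)) ≤ P := fun a ha => by
    have p : 0 < A + τ * a := by positivity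
    refine ⟨by field_simp, by nlinarith, by positivity, ?_⟩
    rw [← mul_div_assoc, div_le_iff₀ p]
    nlinarith [mul_pos hP A0]
  obtain ⟨e1, f1, q1, s1⟩ := kn a1 hχ.h1.1
  obtain ⟨e2, f2, q2, s2⟩ := kn a2 hχ.h2.1
  have w1 := g.lo a1 hχ.h1.1 hχ.h1.2
  have w2 := g.lo a2 hχ.h2.1 hχ.h2.2
  generalize P * a1 / (A + τ * a1) = n1 at *
  generalize P * a2 / (A + τ * a2) = n2 at *
  have c3 : (fun a b c => D3 Φ (0, θ) a b c) =
      J3 τ P (P * Q1) a1 a2 fun X Y Z => D3 χ 0 X Y Z := by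
    funext a b c; exact j3 a b c
  have c4 : (fun a b c d => D4 Φ (0, θ) a b c d) = J4 A τ P (P * Q1) (P * (Q1 ^ 2 + P * Q2)) a1 a2
      (fun X Y Z => D3 χ 0 X Y Z) fun X Y Z T => D4 χ 0 X Y Z T := by
    funext a b c d; exact j4 a b c d
  have cv : ∀ u v : E, ∃ e, |e| ≤ 16 * (Λ * P * ‖u.1‖ * ‖v.1‖ * (‖u.1‖ * ‖v.2‖ + ‖v.1‖ * ‖u.2‖))
      + 4 * (Λ ^ 2 * τ * ‖u.1‖ ^ 2 * ‖v.1‖ ^ 2) ∧ -curv (met Φ) (0, θ) u v =
      4 * (A * SS 1 1 u.1 v.1 + P * SS a1 a2 u.1 v.1 + P * TF (a1 * (Q1 - n1)) (a2 * (Q1 - n2)) u v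
        + 2 * P ^ 2 * Q2 * (conj u.2 * v.2).im ^ 2) - e := fun u v => by
    obtain ⟨Za, ha⟩ := solb _ _ (τ / 4) p1.ne' p2.ne' (D3 χ 0) u.1 v.1
    obtain ⟨Zb, hb⟩ := solb _ _ (τ / 4) p1.ne' p2.ne' (D3 χ 0) u.1 u.1
    obtain ⟨Zc, hc⟩ := solb _ _ (τ / 4) p1.ne' p2.ne' (D3 χ 0) v.1 v.1
    refine ⟨_, err_le hΛ hχ.d3 hχ.d4 hτ hP f1 f2 q1 q2 s1 s2 u v ha hb hc, ?_⟩
    rw [hF.form Φ _ j0 pos u v _ _ _
      (fun w => by rw [L, c3]; exact gam A τ P Q1 a1 a2 n1 n2 e1 e2 _ u v Za ha w)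
      (fun w => by rw [L, c3]; exact gam A τ P Q1 a1 a2 n1 n2 e1 e2 _ u u Zb hb w)
      (fun w => by rw [L, c3]; exact gam A τ P Q1 a1 a2 n1 n2 e1 e2 _ v v Zc hc w), L, L, c4,
      main A τ P Q1 Q2 a1 a2 n1 n2 e1 e2]
    ring
  refine ⟨j0, lm, fun u v => ?_⟩
  simp only [area, met_apply, L]
  constructor
  · obtain ⟨t, ht⟩ : ∃ t : ℝ, al a1 a2 u.1 (v + t • u).1 = 0 := by
      by_cases h : u.1 = 0
      · exact ⟨0, by simp [h, al]⟩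
      · have : 0 < al a1 a2 u.1 u.1 := lt_of_lt_of_le (by have := norm_pos_iff.2 h; positivity)
          (norm_le_al zero_le_one hχ.h1.1 hχ.h2.1 u.1)
        exact ⟨-(al a1 a2 u.1 v.1 / al a1 a2 u.1 u.1), by rw [al_shift]; field_simp; ring⟩
    obtain ⟨e, he, hc⟩ := cv u (v + t • u)
    have := lower g hΛ hχ.h1 hχ.h2 w1 w2 u _ ht he
    rw [← hc, hR.shift _ _ lm, area_shift] at this
    rw [div_mul_eq_mul_div, one_mul, div_le_iff₀ (by positivity)]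
    linarith
  · obtain ⟨t, ht⟩ : ∃ t : ℝ, GG (A + τ * a1) (A + τ * a2) P u (v + t • u) = 0 := by
      by_cases h : u = 0
      · exact ⟨0, by simp [h, GG, al]⟩
      · have := GG_pos p1 p2 hP h
        exact ⟨-(GG (A + τ * a1) (A + τ * a2) P u v / GG (A + τ * a1) (A + τ * a2) P u u), by
          rw [GG_shift]; field_simp; ring⟩
    obtain ⟨e, he, hc⟩ := cv u (v + t • u)
    have := upper g hΛ hχ.h1 hχ.h2 w1 w2 u _ he
    rw [← hc, hR.shift _ _ lm] at this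
    rw [← area_shift _ _ _ t, ht]
    linarith

end Vale.Agent.P250
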