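import Vale.Agent.P250.R
import Vale.Agent.P250.I
import Vale.Agent.P250.F
import Vale.Agent.P250.C
import Vale.Agent.P250.L
import Vale.Agent.P250.D
import Vale.Agent.P250.W0
import Vale.Agent.P250.W2
import Vale.Agent.P250.W3
import Vale.Agent.P250.T
import Vale.Agent.P250.N
import Vale.Agent.P250.M
import Vale.Agent.P250.S
import Vale.Agent.P250.O
import Vale.Agent.P250.Nm
import Vale.Agent.P250.U
import Vale.Agent.P250.P1
import Vale.Agent.P250.P2
import Vale.Agent.P250.J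
import Vale.Agent.P250.G
import Vale.Agent.P250.X

/-! P250: assembly. -/

namespace Vale.Agent.P250

theorem final : ∃ (Ω : Set E) (g : E → Bil), IsOpen Ω ∧ IsSimplyConnected Ω ∧ IsKahler g Ω ∧
    Complete g Ω ∧ Pinched g Ω ∧ ¬ BiholBounded Ω := by
  have hA := aStmt discFacts
  have hF := fStmt rFacts
  obtain ⟨B, cB, CB, W, N, β, c0, C, D, hW⟩ := w0Stmt discFacts
  have ho := w1Stmt discFacts _ _ _ _ _ _ _ _ _ hW
  obtain ⟨f, hT⟩ := tStmt discFacts hA _ _ _ _ _ _ _ ho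
  have c00 : 0 ≤ c0 := by
    rw [ho.hc0]
    refine Real.log_nonneg ?_
    have := ho.β0
    rw [le_div_iff₀ (by positivity)]
    nlinarith [ho.β1]
  have l0 : 0 < 5 * (c0 + 3) := by positivity
  obtain ⟨hP, Λ, hΛ, hC⟩ := uStmt levFacts discFacts hA nmStmt W N f
    (w2Stmt levFacts discFacts _ _ _ _ _ _ _ _ _ hW) (w3Stmt discFacts kStmt _ _ _ _ _ _ _ _ _ hW)
    hT _ l0.le
  obtain ⟨A, ε, a, b, A0, ε0, a0, hL⟩ := xStmt rFacts hF jStmt p1Stmt p2Stmt Λ hΛ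
  obtain ⟨m1, m2, m3, e, K, m4⟩ := mStmt levFacts _ A ε hP A0 ε0
  have hK := hF.kah _ _ m1 m2 m3
  refine ⟨_, _, m1, sStmt _ fun x hx => (hP x hx).1.continuousAt.continuousWithinAt, hK,
    cStmt _ _ e K ⟨m1, hK.smooth, hK.symm, hK.pos⟩ m4,
    gStmt levFacts rFacts iStmt _ Λ A ε a b a0 m1 m2 hK hC hL, fun h => ?_⟩
  refine zStmt W N f _ l0 hT (nStmt discFacts hFacts _ _ _ _ _ _ _ ho _ (by positivity) ?_)
    (jcStmt oStmt _ m1 h)
  rw [div_mul_eq_mul_div, div_self l0.ne']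

end Vale.Agent.P250
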