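import Vale.Agent.P250.Spec

/-! Module J: the 4-jet of the model potential. -/

open scoped ContDiff Topology ComplexConjugate
open Set Filter

namespace Vale.Agent.P250

namespace Jx

section gen
variable {W : Type} [NormedAddCommGroup W] [NormedSpace ℝ W] {x w : W} {g g' k k' : W → ℝ}

/-- near `x`, the derivative of `g` in direction `w` is `g'` -/
def Dr (x w : W) (g g' : W → ℝ) : Prop :=
  ∀ᶠ z in 𝓝 x, DifferentiableAt ℝ g z ∧ fderiv ℝ g z w = g' z

theorem Dr.add (h : Dr x w g g') (h' : Dr x w k k') :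
    Dr x w (fun z => g z + k z) fun z => g' z + k' z :=
  (h.and h').mono fun z ⟨a, b⟩ => ⟨a.1.add b.1, by
    rw [fderiv_fun_add a.1 b.1, add_apply, a.2, b.2]⟩

theorem Dr.mul (h : Dr x w g g') (h' : Dr x w k k') :
    Dr x w (fun z => g z * k z) fun z => g' z * k z + g z * k' z :=
  (h.and h').mono fun z ⟨a, b⟩ => ⟨a.1.mul b.1, by
    rw [fderiv_fun_mul a.1 b.1, add_apply, smul_apply, smul_apply, a.2, b.2]
    simp only [smul_eq_mul]; ring⟩

theorem Dr.const (x w : W) (c : ℝ) : Dr x w (fun _ => c) fun _ => 0 :=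
  .of_forall fun _ => ⟨differentiableAt_const c, by simp⟩

theorem Dr.clm (x w : W) (L : W →L[ℝ] ℝ) : Dr x w L fun _ => L w :=
  .of_forall fun _ => ⟨L.differentiableAt, by rw [L.fderiv]⟩

theorem Dr.of_eq (h : Dr x w g g') (e : ∀ z, g z = k z) (e' : ∀ z, g' z = k' z) : Dr x w k k' := by
  rwa [← funext e, ← funext e']

theorem Dr.cmul (c : ℝ) (h : Dr x w g g') : Dr x w (fun z => c * g z) fun z => c * g' z :=
  ((Dr.const x w c).mul h).of_eq (fun _ => rfl) fun _ => by ring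

theorem Dr.uniq (h : Dr x w g g') (h' : Dr x w k k') (e : g =ᶠ[𝓝 x] k) : g' =ᶠ[𝓝 x] k' := by
  filter_upwards [h, h', e.eventuallyEq_nhds] with z a b c
  rw [← a.2, ← b.2, c.fderiv_eq]

theorem Dr.comp {F F' : ℝ → ℝ} (h : Dr x w g g') (hF : ∀ᶠ t in 𝓝 (g x), HasDerivAt F (F' t) t) :
    Dr x w (fun z => F (g z)) fun z => F' (g z) * g' z := by
  filter_upwards [h, h.self_of_nhds.1.continuousAt.eventually hF] with z a b
  have := b.comp_hasFDerivAt z a.1.hasFDerivAt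
  exact ⟨this.differentiableAt, by rw [← a.2]; exact congrArg (fun L => L w) this.fderiv⟩

theorem Dr.lin {W' : Type} [NormedAddCommGroup W'] [NormedSpace ℝ W'] (L : W' →L[ℝ] W)
    {y v : W'} (h : Dr (L y) (L v) g g') : Dr y v (fun z => g (L z)) fun z => g' (L z) := by
  filter_upwards [L.continuous.continuousAt.eventually h] with z a
  have := a.1.hasFDerivAt.comp z L.hasFDerivAt
  exact ⟨this.differentiableAt, by rw [← a.2]; exact congrArg (fun L => L v) this.fderiv⟩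

/-- a 4-jet near `x` -/
structure Jt (x : W) (g : W → ℝ) (S1 : W → W → ℝ) (S2 : W → W → W → ℝ) (S3 : W → W → W → W → ℝ)
    (S4 : W → W → W → W → W → ℝ) : Prop where
  d1 : ∀ u, Dr x u g (S1 u)
  d2 : ∀ u v, Dr x v (S1 u) (S2 u v)
  d3 : ∀ u v w, Dr x w (S2 u v) (S3 u v w)
  d4 : ∀ u v w t, Dr x t (S3 u v w) (S4 u v w t)

theorem Jt.self (h : ∀ᶠ z in 𝓝 x, ContDiffAt ℝ ∞ g z) : Jt x g (fun u z => fderiv ℝ g z u)
    (fun u v z => D2 g z u v) (fun u v w z => D3 g z u v w) fun u v w t z => D4 g z u v w t := by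
  have c1 : ∀ z, ContDiffAt ℝ ∞ g z → ContDiffAt ℝ ∞ (fderiv ℝ g) z := fun z a =>
    a.fderiv_right (m := ∞) (by simp)
  have c2 : ∀ u v z, ContDiffAt ℝ ∞ g z → ContDiffAt ℝ ∞ (fun z => D2 g z u v) z := fun u v z a =>
    (((c1 z a).fderiv_right (m := ∞) (by simp)).clm_apply contDiffAt_const).clm_apply
      contDiffAt_const
  refine ⟨fun u => h.mono fun z a => ⟨a.differentiableAt (by simp), rfl⟩,
    fun u v => h.mono fun z a => ?_,
    fun u v w => h.mono fun z a => ⟨(c2 u v z a).differentiableAt (by simp), rfl⟩,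
    fun u v w t => h.mono fun z a => ⟨(((c2 u v z a).fderiv_right (m := ∞) (by simp)).clm_apply
      contDiffAt_const).differentiableAt (by simp), rfl⟩⟩
  have := ((c1 z a).differentiableAt (by simp)).hasFDerivAt.clm_apply (hasFDerivAt_const u z)
  refine ⟨this.differentiableAt, ?_⟩
  simp only [D2]
  rw [this.fderiv, (a.isSymmSndFDerivAt (by simp; norm_cast)).eq u v]
  simp

variable {S1 T1 : W → W → ℝ} {S2 T2 : W → W → W → ℝ} {S3 T3 : W → W → W → W → ℝ}
  {S4 T4 : W → W → W → W → W → ℝ}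

theorem Jt.uniq (h : Jt x g S1 S2 S3 S4) (h' : Jt x g T1 T2 T3 T4) :
    (∀ u v, S2 u v x = T2 u v x) ∧ (∀ u v w, S3 u v w x = T3 u v w x) ∧
      ∀ u v w t, S4 u v w t x = T4 u v w t x := by
  have e2 := fun u v => (h.d2 u v).uniq (h'.d2 u v) ((h.d1 u).uniq (h'.d1 u) .rfl)
  have e3 := fun u v w => (h.d3 u v w).uniq (h'.d3 u v w) (e2 u v)
  exact ⟨fun u v => (e2 u v).eq_of_nhds, fun u v w => (e3 u v w).eq_of_nhds,
    fun u v w t => ((h.d4 u v w t).uniq (h'.d4 u v w t) (e3 u v w)).eq_of_nhds⟩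

theorem Jt.add (c : ℝ) (h : Jt x g S1 S2 S3 S4) (h' : Jt x k T1 T2 T3 T4) :
    Jt x (fun z => c * g z + k z) (fun u z => c * S1 u z + T1 u z)
      (fun u v z => c * S2 u v z + T2 u v z) (fun u v w z => c * S3 u v w z + T3 u v w z)
      fun u v w t z => c * S4 u v w t z + T4 u v w t z :=
  ⟨fun u => ((h.d1 u).cmul c).add (h'.d1 u), fun u v => ((h.d2 u v).cmul c).add (h'.d2 u v),
    fun u v w => ((h.d3 u v w).cmul c).add (h'.d3 u v w),
    fun u v w t => ((h.d4 u v w t).cmul c).add (h'.d4 u v w t)⟩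

theorem Jt.lin {W' : Type} [NormedAddCommGroup W'] [NormedSpace ℝ W'] (L : W' →L[ℝ] W) {y : W'}
    (h : Jt (L y) g S1 S2 S3 S4) : Jt y (fun z => g (L z)) (fun u z => S1 (L u) (L z))
      (fun u v z => S2 (L u) (L v) (L z)) (fun u v w z => S3 (L u) (L v) (L w) (L z))
      fun u v w t z => S4 (L u) (L v) (L w) (L t) (L z) :=
  ⟨fun _ => (h.d1 _).lin L, fun _ _ => (h.d2 _ _).lin L, fun _ _ _ => (h.d3 _ _ _).lin L,
    fun _ _ _ _ => (h.d4 _ _ _ _).lin L⟩

theorem Jt.clm (x : W) (L : W →L[ℝ] ℝ) :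
    Jt x L (fun u _ => L u) (fun _ _ _ => 0) (fun _ _ _ _ => 0) fun _ _ _ _ _ => 0 :=
  ⟨fun u => Dr.clm x u L, fun _ _ => Dr.const _ _ _, fun _ _ _ => Dr.const _ _ _,
    fun _ _ _ _ => Dr.const _ _ _⟩

/-- Faa di Bruno up to order four -/
theorem Jt.comp {F0 F1 F2 F3 F4 : ℝ → ℝ} (h : Jt x g S1 S2 S3 S4)
    (h0 : ∀ᶠ t in 𝓝 (g x), HasDerivAt F0 (F1 t) t) (h1 : ∀ᶠ t in 𝓝 (g x), HasDerivAt F1 (F2 t) t)
    (h2 : ∀ᶠ t in 𝓝 (g x), HasDerivAt F2 (F3 t) t) (h3 : ∀ᶠ t in 𝓝 (g x), HasDerivAt F3 (F4 t) t) :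
    Jt x (fun z => F0 (g z)) (fun u z => F1 (g z) * S1 u z)
      (fun u v z => F2 (g z) * S1 u z * S1 v z + F1 (g z) * S2 u v z)
      (fun u v w z => F3 (g z) * S1 u z * S1 v z * S1 w z +
        F2 (g z) * (S2 u v z * S1 w z + S2 u w z * S1 v z + S2 v w z * S1 u z) +
        F1 (g z) * S3 u v w z)
      fun u v w t z => F4 (g z) * S1 u z * S1 v z * S1 w z * S1 t z +
        F3 (g z) * (S2 u v z * S1 w z * S1 t z + S2 u w z * S1 v z * S1 t z +
          S2 u t z * S1 v z * S1 w z + S2 v w z * S1 u z * S1 t z + S2 v t z * S1 u z * S1 w z +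
          S2 w t z * S1 u z * S1 v z) +
        F2 (g z) * (S2 u v z * S2 w t z + S2 u w z * S2 v t z + S2 u t z * S2 v w z) +
        F2 (g z) * (S3 u v w z * S1 t z + S3 u v t z * S1 w z + S3 u w t z * S1 v z +
          S3 v w t z * S1 u z) + F1 (g z) * S4 u v w t z := by
  obtain ⟨d1, d2, d3, d4⟩ := h
  refine ⟨fun u => (d1 u).comp h0, fun u v => ?_, fun u v w => ?_, fun u v w t => ?_⟩
  · exact (((d1 v).comp h1).mul (d2 u v)).of_eq (fun _ => rfl) fun _ => by ring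
  · exact (((((d1 w).comp h2).mul (d2 u w)).mul (d2 v w)).add
      (((d1 w).comp h1).mul (d3 u v w))).of_eq (fun _ => rfl) fun _ => by ring
  · exact (((((((d1 t).comp h3).mul (d2 u t)).mul (d2 v t)).mul (d2 w t)).add
      (((d1 t).comp h2).mul ((((d3 u v t).mul (d2 w t)).add ((d3 u w t).mul (d2 v t))).add
        ((d3 v w t).mul (d2 u t))))).add (((d1 t).comp h1).mul (d4 u v w t))).of_eq
      (fun _ => rfl) fun _ => by ring

end gen

theorem sm1 {f : ℝ → ℝ} {s : ℝ} (h : ∀ᶠ t in 𝓝 s, ContDiffAt ℝ ∞ f t) :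
    (∀ᶠ t in 𝓝 s, HasDerivAt f (deriv f t) t) ∧ ∀ᶠ t in 𝓝 s, ContDiffAt ℝ ∞ (deriv f) t :=
  ⟨h.mono fun _ a => (a.differentiableAt (by simp)).hasDerivAt,
    h.mono fun _ a => a.derivWithin (m := ∞) (by simp)⟩

theorem jnsq (x : V) : Jt x nsq (fun u z => 2 * al 1 1 u z) (fun u v _ => 2 * al 1 1 u v)
    (fun _ _ _ _ => 0) fun _ _ _ _ _ => 0 := by
  have a := fun u => Dr.clm x u (Complex.reCLM.comp (.fst ℝ ℂ ℂ))
  have b := fun u => Dr.clm x u (Complex.imCLM.comp (.fst ℝ ℂ ℂ))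
  have c := fun u => Dr.clm x u (Complex.reCLM.comp (.snd ℝ ℂ ℂ))
  have d := fun u => Dr.clm x u (Complex.imCLM.comp (.snd ℝ ℂ ℂ))
  refine ⟨fun u => ?_, fun u v => ?_, fun _ _ _ => Dr.const _ _ _, fun _ _ _ _ => Dr.const _ _ _⟩
  · refine ((((a u).mul (a u)).add ((b u).mul (b u))).add (((c u).mul (c u)).add
      ((d u).mul (d u)))).of_eq (fun z => ?_) fun z => ?_
    · simp [nsq, Complex.sq_norm, Complex.normSq_apply]
    · simp [al]; ring
  · refine (((((a v).cmul u.1.re).add ((b v).cmul u.1.im)).add (((c v).cmul u.2.re).add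
      ((d v).cmul u.2.im))).cmul 2).of_eq (fun z => ?_) fun z => ?_
    · simp [al]
    · simp [al]

theorem dq {t : ℝ} (h : t < 1) : HasDerivAt (fun t : ℝ => (1 - t)⁻¹) ((1 - t)⁻¹ ^ 2) t := by
  refine (((hasDerivAt_id t).const_sub 1).inv (sub_pos.2 h).ne').congr_deriv ?_
  simp

end Jx

open Jx in
theorem jStmt : JStmt := by
  intro A f χ a1 a2 Λ θ hJ hf
  have n0 : nsq 0 = 0 := by simp [nsq]
  have e1 : ∀ᶠ t in 𝓝 (nsq 0), t < 1 := by rw [n0]; exact gt_mem_nhds one_pos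
  have sm : ∀ᶠ z in 𝓝 ((0, θ) : E), ContDiffAt ℝ ∞ (model A f χ) z := by
    have c0 : ContDiff ℝ ∞ nsq := (contDiff_fst.norm_sq ℝ).add (contDiff_snd.norm_sq ℝ)
    have c1 : ContinuousAt (fun p : E => 2 * p.2.re + χ p.1) (0, θ) :=
      (by fun_prop : ContinuousAt (fun p : E => 2 * p.2.re) (0, θ)).add
        (hJ.smooth.self_of_nhds.continuousAt.comp (f := Prod.fst) continuousAt_fst)
    filter_upwards [c1.eventually hf, (continuousAt_fst (p := ((0, θ) : E))).eventually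
      (hJ.smooth.and (c0.continuous.continuousAt.eventually e1))] with z a b
    refine (contDiffAt_const.mul (((contDiffAt_const.sub c0.contDiffAt).log
      (sub_pos.2 b.2).ne').neg.comp z contDiffAt_fst)).add (a.comp z ?_)
    exact (contDiffAt_const.mul (Complex.reCLM.contDiff.contDiffAt.comp z contDiffAt_snd)).add
      (b.1.comp z contDiffAt_fst)
  have j1 := ((jnsq 0).comp (F0 := fun t => -Real.log (1 - t)) (F1 := fun t => (1 - t)⁻¹)
    (F2 := fun t => (1 - t)⁻¹ ^ 2) (F3 := fun t => 2 * (1 - t)⁻¹ ^ 3)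
    (F4 := fun t => 6 * (1 - t)⁻¹ ^ 4)
    (e1.mono fun t h => ((((hasDerivAt_id t).const_sub 1).log
      (sub_pos.2 h).ne').neg).congr_deriv (by simp [div_eq_mul_inv]))
    (e1.mono fun t h => dq h) (e1.mono fun t h => ((dq h).pow 2).congr_deriv (by push_cast; ring))
    (e1.mono fun t h => (((dq h).pow 3).const_mul 2).congr_deriv (by push_cast; ring))).lin
    (ContinuousLinearMap.fst ℝ V ℂ) (y := (0, θ))
  have j2 := ((Jt.clm ((0, θ) : E) (Complex.reCLM.comp (.snd ℝ V ℂ))).add 2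
    ((Jt.self hJ.smooth).lin (ContinuousLinearMap.fst ℝ V ℂ) (y := (0, θ)))).comp
    (sm1 hf).1 (sm1 (sm1 hf).2).1 (sm1 (sm1 (sm1 hf).2).2).1 (sm1 (sm1 (sm1 (sm1 hf).2).2).2).1
  obtain ⟨k2, k3, k4⟩ := (Jt.self sm).uniq (j1.add A j2)
  have z1 : ∀ u : V, al 1 1 u 0 = 0 := fun u => by simp [al]
  refine ⟨sm, fun u v => (k2 u v).trans ?_, fun u v w => (k3 u v w).trans ?_,
    fun u v w t => (k4 u v w t).trans ?_⟩
  all_goals
    simp only [ContinuousLinearMap.coe_fst', ContinuousLinearMap.comp_apply,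
      ContinuousLinearMap.coe_snd', Complex.reCLM_apply, n0, z1, hJ.d1, hJ.d2, zero_apply, J2, J3,
      J4, sg]
    ring

end Vale.Agent.P250
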