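import Vale.Agent.P250.A0

/-! Module R: the curvature form. -/

open scoped ContDiff Topology
open Set Filter

namespace Vale.Agent.P250

open Aa in
theorem rFacts : RFacts := by
  refine ⟨?_, ?_, ?_⟩
  · rintro G y ⟨Ω, hy, h⟩ u v x1 x2 x3 e1 e2 e3
    obtain ⟨Γ, hΓ⟩ := gam G Ω h
    have k : ∀ a b x, (∀ w, G y x w = koszul G y a b w) → x = Γ y a b := fun a b x e =>
      nondeg h hy fun w => by simp only [e, koszul, fd2 (cm_diff h hy), hΓ.low y hy]
    have s : ∀ a b c d, fderiv ℝ (fun z => fderiv ℝ G z a c d) y b =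
        fderiv ℝ (fun z => fderiv ℝ G z a d c) y b := fun a b c d => by
      have : (fun z => fderiv ℝ G z a c d) =ᶠ[𝓝 y] fun z => fderiv ℝ G z a d c :=
        (eventually_mem_set.2 (h.isOpen.mem_nhds hy)).mono fun z hz => dg_symm h hz a c d
      rw [this.fderiv_eq]
    have a1 := dlow h hΓ hy u v v u
    have a2 := dlow h hΓ hy v u v u
    rw [cmp h hΓ hy] at a1 a2
    rw [ddg_symm h hy v u, s u v v u, h.symm y hy (Γ y v v)] at a1
    rw [s u v v u, hΓ.symm y hy v u] at a2
    rw [k _ _ _ e1, k _ _ _ e2, k _ _ _ e3]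
    simp only [curv, ddg, riem_eq h hΓ hy, map_add, map_sub, add_apply, sub_apply]
    linarith
  · rintro G y ⟨Ω, hy, h⟩ u v t
    obtain ⟨Γ, hΓ⟩ := gam G Ω h
    have a := skew h hy u v u
    simp only [curv, riem_eq h hΓ hy, map_add, map_sub, map_smul, add_apply, sub_apply, smul_apply,
      smul_eq_mul] at a ⊢
    linear_combination t * a
  · rintro G y ⟨Ω, hy, h⟩ u v
    obtain ⟨Γ, hΓ⟩ := gam G Ω h
    have n := h.isOpen.mem_nhds hy
    have c1 := (cm_at h hy).continuousAt
    have c2 := (hΓ.smooth.contDiffAt n).continuousAt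
    have c3 : ∀ a b c, ContinuousAt (fun z => fderiv ℝ Γ z a b c) y := fun a b c =>
      (((((hΓ.smooth.fderiv_of_isOpen (m := ∞) h.isOpen (by simp)).clm_apply
        contDiffOn_const).clm_apply contDiffOn_const).clm_apply contDiffOn_const).contDiffAt
          n).continuousAt
    have c4 : ∀ a b c, ContinuousAt (fun z => Γ z a (Γ z b c)) y := fun a b c =>
      (c2.clm_apply continuousAt_const).clm_apply
        ((c2.clm_apply continuousAt_const).clm_apply continuousAt_const)
    refine ((c1.clm_apply ((((c3 u v v).sub (c3 v u v)).add (c4 u v v)).sub (c4 v u v))).clm_apply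
      (continuousAt_const (y := u))).congr ((eventually_mem_set.2 n).mono fun z hz => ?_)
    simp only [curv, riem_eq h hΓ hz]
    rfl

end Vale.Agent.P250
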