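import Vale.Agent.P250.Defs

/-! Module statements for P250.  Every `...Stmt` / `...Facts` below is one module;
paper proofs are in notes/P250.md. -/

open scoped ContDiff Topology ComplexConjugate
open Set Filter

namespace Vale.Agent.P250

abbrev V : Type := ℂ × ℂ

section
variable {W : Type} [NormedAddCommGroup W] [NormedSpace ℝ W]

noncomputable def D2 (f : W → ℝ) (x : W) : W →L[ℝ] W →L[ℝ] ℝ := fderiv ℝ (fderiv ℝ f) x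

noncomputable def D3 (f : W → ℝ) (x u v : W) : W →L[ℝ] ℝ := fderiv ℝ (fun z => D2 f z u v) x

noncomputable def D4 (f : W → ℝ) (x u v w : W) : W →L[ℝ] ℝ :=
  fderiv ℝ (fun z => D3 f z u v w) x

/-- the (real) Levi form -/
noncomputable def lev [NormedSpace ℂ W] (f : W → ℝ) (x u v : W) : ℝ :=
  D2 f x u v + D2 f x (Complex.I • u) (Complex.I • v)
end

noncomputable def JE : E →L[ℝ] E := (Complex.I • ContinuousLinearMap.id ℂ E).restrictScalars ℝ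

/-- the Levi form as a metric -/
noncomputable def met (f : E → ℝ) (y : E) : Bil := D2 f y + (D2 f y).bilinearComp JE JE

theorem met_apply (f : E → ℝ) (y u v : E) : met f y u v = lev f y u v := rfl

/-! ### Riemannian calculus (A.lean is already proved; modules R, I, F, C) -/

structure CM (g : E → Bil) (Ω : Set E) : Prop where
  isOpen : IsOpen Ω
  smooth : ContDiffOn ℝ ∞ g Ω
  symm : ∀ y ∈ Ω, ∀ u v, g y u v = g y v u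
  pos : ∀ y ∈ Ω, ∀ u, u ≠ 0 → 0 < g y u u

structure IsGam (g : E → Bil) (Ω : Set E) (Γ : E → E →L[ℝ] E →L[ℝ] E) : Prop where
  smooth : ContDiffOn ℝ ∞ Γ Ω
  eq : ∀ y ∈ Ω, ∀ u v, chr g y u v = Γ y u v
  symm : ∀ y ∈ Ω, ∀ u v, Γ y u v = Γ y v u
  low : ∀ y ∈ Ω, ∀ u v w, g y (Γ y u v) w =
    (fderiv ℝ g y u v w + fderiv ℝ g y v u w - fderiv ℝ g y w u v) / 2

/-- germ of a Riemannian metric at `y` -/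
def LM (g : E → Bil) (y : E) : Prop := ∃ Ω, y ∈ Ω ∧ CM g Ω

noncomputable def curv (g : E → Bil) (y u v : E) : ℝ := g y (riem g y u v v) u

noncomputable def area (g : E → Bil) (y u v : E) : ℝ := g y u u * g y v v - g y u v ^ 2

/-- `∂_b ∂_a g(u,v)` -/
noncomputable def ddg (g : E → Bil) (y a b u v : E) : ℝ :=
  fderiv ℝ (fun z => fderiv ℝ g z a u v) y b

/-- module R -/
structure RFacts : Prop where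
  form : ∀ g y, LM g y → ∀ u v x1 x2 x3 : E, (∀ w, g y x1 w = koszul g y u v w) →
    (∀ w, g y x2 w = koszul g y u u w) → (∀ w, g y x3 w = koszul g y v v w) →
    curv g y u v = ddg g y u v u v - ddg g y u u v v / 2 - ddg g y v v u u / 2
      + g y x1 x1 - g y x2 x3
  shift : ∀ g y, LM g y → ∀ (u v : E) (t : ℝ), curv g y u (v + t • u) = curv g y u v
  cont : ∀ g y, LM g y → ∀ u v, ContinuousAt (fun z => curv g z u v) y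

/-- module I: local isometries preserve the curvature -/
def IStmt : Prop := ∀ (g₁ g₂ : E → Bil) (Ψ : E → E) (y : E), LM g₁ y → LM g₂ (Ψ y) →
  (∀ᶠ z in 𝓝 y, ContDiffAt ℝ ∞ Ψ z ∧
    ∀ u v, g₁ z u v = g₂ (Ψ z) (fderiv ℝ Ψ z u) (fderiv ℝ Ψ z v)) →
  Function.Surjective (fderiv ℝ Ψ y) ∧
    ∀ u v, curv g₁ y u v = curv g₂ (Ψ y) (fderiv ℝ Ψ y u) (fderiv ℝ Ψ y v)

noncomputable def kz3 (C : E → E → E → ℝ) (u v w : E) : ℝ :=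
  (C u v w + C u (Complex.I • v) (Complex.I • w) + C (Complex.I • u) v (Complex.I • w)
    - C (Complex.I • u) (Complex.I • v) w) / 2

noncomputable def kz4 (T : E → E → E → E → ℝ) (u v : E) : ℝ :=
  (2 * T u v (Complex.I • u) (Complex.I • v) - T u u (Complex.I • v) (Complex.I • v)
    - T (Complex.I • u) (Complex.I • u) v v) / 2

/-- module F: metrics with a potential -/
structure FFacts : Prop where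
  kah : ∀ (Φ : E → ℝ) (Ω : Set E), IsOpen Ω → ContDiffOn ℝ ∞ Φ Ω →
    (∀ y ∈ Ω, ∀ u, u ≠ 0 → 0 < lev Φ y u u) → IsKahler (met Φ) Ω
  lm : ∀ (Φ : E → ℝ) (y : E), (∀ᶠ z in 𝓝 y, ContDiffAt ℝ ∞ Φ z) →
    (∀ u, u ≠ 0 → 0 < lev Φ y u u) → LM (met Φ) y
  form : ∀ (Φ : E → ℝ) (y : E), (∀ᶠ z in 𝓝 y, ContDiffAt ℝ ∞ Φ z) →
    (∀ u, u ≠ 0 → 0 < lev Φ y u u) → ∀ u v x1 x2 x3 : E,
    (∀ w, lev Φ y x1 w = kz3 (fun a b c => D3 Φ y a b c) u v w) →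
    (∀ w, lev Φ y x2 w = kz3 (fun a b c => D3 Φ y a b c) u u w) →
    (∀ w, lev Φ y x3 w = kz3 (fun a b c => D3 Φ y a b c) v v w) →
    curv (met Φ) y u v = kz4 (fun a b c d => D4 Φ y a b c d) u v
      + lev Φ y x1 x1 - lev Φ y x2 x3

def FStmt : Prop := RFacts → FFacts

/-- an exhaustion with bounded gradient -/
def Exh (g : E → Bil) (Ω : Set E) (e : E → ℝ) (K : ℝ) : Prop :=
  ContDiffOn ℝ 1 e Ω ∧ (∀ c, IsCompact {p | p ∈ Ω ∧ e p ≤ c}) ∧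
    ∀ p ∈ Ω, ∀ u, fderiv ℝ e p u ^ 2 ≤ K * g p u u

/-- module C -/
def CStmt : Prop := ∀ g Ω e K, CM g Ω → Exh g Ω e K → Complete g Ω

/-! ### Disc and ball -/

noncomputable def mob (a z : ℂ) : ℂ := (z + a) / (1 + conj a * z)

/-- pseudo-hyperbolic distance -/
noncomputable def dd (a b : ℂ) : ℝ := ‖mob (-a) b‖

noncomputable def psi (z : ℂ) : ℝ := -Real.log (1 - ‖z‖ ^ 2)

noncomputable def nsq (x : V) : ℝ := ‖x.1‖ ^ 2 + ‖x.2‖ ^ 2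

def Ball : Set V := {x | nsq x < 1}

noncomputable def psi0 (x : V) : ℝ := -Real.log (1 - nsq x)

noncomputable def al (a1 a2 : ℝ) (X Y : V) : ℝ :=
  a1 * (conj X.1 * Y.1).re + a2 * (conj X.2 * Y.2).re

/-- module L: calculus of the Levi form -/
structure LevFacts : Prop where
  congr : ∀ {W : Type} [NormedAddCommGroup W] [NormedSpace ℝ W] [NormedSpace ℂ W] (f g : W → ℝ)
    (x u v : W), f =ᶠ[𝓝 x] g → lev f x u v = lev g x u v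
  const : ∀ {W : Type} [NormedAddCommGroup W] [NormedSpace ℝ W] [NormedSpace ℂ W] (c : ℝ)
    (x u v : W), lev (fun _ => c) x u v = 0
  add : ∀ {W : Type} [NormedAddCommGroup W] [NormedSpace ℝ W] [NormedSpace ℂ W] (f g : W → ℝ)
    (x u v : W), ContDiffAt ℝ 2 f x → ContDiffAt ℝ 2 g x →
    lev (fun z => f z + g z) x u v = lev f x u v + lev g x u v
  cmul : ∀ {W : Type} [NormedAddCommGroup W] [NormedSpace ℝ W] [NormedSpace ℂ W] (c : ℝ)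
    (f : W → ℝ) (x u v : W), ContDiffAt ℝ 2 f x → lev (fun z => c * f z) x u v = c * lev f x u v
  mul : ∀ {W : Type} [NormedAddCommGroup W] [NormedSpace ℝ W] [NormedSpace ℂ W] (f g : W → ℝ)
    (x u v : W), ContDiffAt ℝ 2 f x → ContDiffAt ℝ 2 g x →
    lev (fun z => f z * g z) x u v = f x * lev g x u v + g x * lev f x u v
      + (fderiv ℝ f x u * fderiv ℝ g x v + fderiv ℝ f x v * fderiv ℝ g x u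
      + fderiv ℝ f x (Complex.I • u) * fderiv ℝ g x (Complex.I • v)
      + fderiv ℝ f x (Complex.I • v) * fderiv ℝ g x (Complex.I • u))
  comp : ∀ {W : Type} [NormedAddCommGroup W] [NormedSpace ℝ W] [NormedSpace ℂ W] (F : ℝ → ℝ)
    (s : W → ℝ) (x u v : W), ContDiffAt ℝ 2 s x → ContDiffAt ℝ 2 F (s x) →
    lev (fun z => F (s z)) x u v = deriv F (s x) * lev s x u v + deriv (deriv F) (s x) *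
      (fderiv ℝ s x u * fderiv ℝ s x v
        + fderiv ℝ s x (Complex.I • u) * fderiv ℝ s x (Complex.I • v))
  pull : ∀ {W W' : Type} [NormedAddCommGroup W] [NormedSpace ℝ W] [NormedSpace ℂ W]
    [IsScalarTower ℝ ℂ W] [NormedAddCommGroup W'] [NormedSpace ℝ W'] [NormedSpace ℂ W']
    [IsScalarTower ℝ ℂ W'] [CompleteSpace W'] (f : W' → ℝ) (Ψ : W → W') (x u v : W),
    AnalyticAt ℂ Ψ x →
    ContDiffAt ℝ 2 f (Ψ x) →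
    lev (fun z => f (Ψ z)) x u v = lev f (Ψ x) (fderiv ℂ Ψ x u) (fderiv ℂ Ψ x v)
  re : ∀ {W : Type} [NormedAddCommGroup W] [NormedSpace ℝ W] [NormedSpace ℂ W]
    [IsScalarTower ℝ ℂ W] (F : W → ℂ) (x u v : W), AnalyticAt ℂ F x →
    lev (fun z => (F z).re) x u v = 0
  logre : ∀ {W : Type} [NormedAddCommGroup W] [NormedSpace ℂ W] (j : W → ℂ) (x : W),
    AnalyticAt ℂ j x → j x ≠ 0 →
    ∃ F : W → ℂ, AnalyticAt ℂ F x ∧ ∀ᶠ z in 𝓝 x, Real.log (‖j z‖ ^ 2) = (F z).re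
  logn : ∀ {W : Type} [NormedAddCommGroup W] [NormedSpace ℝ W] [NormedSpace ℂ W]
    [IsScalarTower ℝ ℂ W] (j : W → ℂ) (x u v : W), AnalyticAt ℂ j x → j x ≠ 0 →
    ContDiffAt ℝ ∞ (fun z => Real.log (‖j z‖ ^ 2)) x ∧
      lev (fun z => Real.log (‖j z‖ ^ 2)) x u v = 0
  one : ∀ (f : ℂ → ℝ) (x u v : ℂ), ContDiffAt ℝ 2 f x →
    lev f x u v = (conj u * v).re * lev f x 1 1
  nsq1 : ∀ x u v : ℂ, fderiv ℝ (fun z : ℂ => ‖z‖ ^ 2) x u = 2 * (conj x * u).re ∧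
    lev (fun z : ℂ => ‖z‖ ^ 2) x u v = 4 * (conj u * v).re
  psi1 : ∀ z : ℂ, ‖z‖ < 1 → ContDiffAt ℝ ∞ psi z ∧ ∀ u, 4 * ‖u‖ ^ 2 ≤ lev psi z u u
  psi2 : ∀ x ∈ Ball, ContDiffAt ℝ ∞ psi0 x ∧ ∀ X, 4 * nsq X ≤ lev psi0 x X X ∧
    fderiv ℝ psi0 x X ^ 2 ≤ lev psi0 x X X
  psi3 : ∀ X Y, lev psi0 0 X Y = 4 * al 1 1 X Y

/-- module D -/
structure DiscFacts : Prop where
  den : ∀ a z : ℂ, ‖a‖ ≤ 1 → ‖z‖ < 1 → 1 + conj a * z ≠ 0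
  one_sub : ∀ a z : ℂ, ‖a‖ < 1 → ‖z‖ < 1 →
    1 - ‖mob a z‖ ^ 2 = (1 - ‖a‖ ^ 2) * (1 - ‖z‖ ^ 2) / ‖1 + conj a * z‖ ^ 2
  mem : ∀ a z : ℂ, ‖a‖ < 1 → ‖z‖ < 1 → ‖mob a z‖ < 1
  inv : ∀ a z : ℂ, ‖a‖ < 1 → ‖z‖ < 1 → mob a (mob (-a) z) = z
  inv' : ∀ a z : ℂ, ‖a‖ < 1 → ‖z‖ < 1 → mob (-a) (mob a z) = z
  ana : ∀ a z : ℂ, ‖a‖ < 1 → ‖z‖ < 1 → AnalyticAt ℂ (mob a) z
  psi_mob : ∀ a z : ℂ, ‖a‖ < 1 → ‖z‖ < 1 →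
    psi (mob a z) = psi a + psi z + Real.log (‖1 + conj a * z‖ ^ 2)
  psi_nonneg : ∀ z : ℂ, ‖z‖ < 1 → 0 ≤ psi z
  self : ∀ a : ℂ, dd a a = 0
  symm : ∀ a b : ℂ, dd a b = dd b a
  tri : ∀ a b c : ℂ, ‖a‖ < 1 → ‖b‖ < 1 → ‖c‖ < 1 → dd a c ≤ dd a b + dd b c
  cont : ∀ a z : ℂ, ‖a‖ < 1 → ‖z‖ < 1 → ContinuousAt (dd a) z
  near2 : ∀ a b : ℂ, ‖a‖ < 1 → ‖b‖ < 1 → dd a b ≤ 3 / 4 → |psi a - psi b| ≤ 2
  near1 : ∀ a b : ℂ, ‖a‖ < 1 → ‖b‖ < 1 → dd a b ≤ 1 / 4 → |psi a - psi b| ≤ 1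
  comp : ∀ p ζ : ℂ, ‖p‖ < 1 → ‖ζ‖ < 1 → ∃ e : ℂ, ‖e‖ = 1 ∧
    ∀ η : ℂ, ‖η‖ < 1 → mob (-p) (mob ζ η) = mob (mob (-p) ζ) (e * η)

/-- holomorphic self maps of the ball preserving the Bergman metric -/
def Aut (Θ : V → V) : Prop :=
  (∀ x ∈ Ball, AnalyticAt ℂ Θ x ∧ Θ x ∈ Ball) ∧ ∃ j : V → ℂ, ∀ x ∈ Ball,
    AnalyticAt ℂ j x ∧ j x ≠ 0 ∧ psi0 (Θ x) = psi0 x + Real.log (‖j x‖ ^ 2)

noncomputable def TT (p : ℂ) (x : V) : V :=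
  (mob p x.1, (Real.sqrt (1 - ‖p‖ ^ 2) : ℝ) * x.2 / (1 + conj p * x.1))

/-- module A -/
structure AutFacts : Prop where
  isOpen : IsOpen Ball
  fst : ∀ x ∈ Ball, ‖x.1‖ < 1 ∧ ‖x.2‖ < 1
  id : Aut fun x => x
  swap : Aut Prod.swap
  comp : ∀ Θ Θ', Aut Θ → Aut Θ' → Aut fun x => Θ (Θ' x)
  tt : ∀ p : ℂ, ‖p‖ < 1 → Aut (TT p)
  inv : ∀ p : ℂ, ‖p‖ < 1 → ∀ x ∈ Ball, TT p (TT (-p) x) = x ∧ TT (-p) (TT p x) = x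
  ratio : ∀ p : ℂ, ‖p‖ < 1 → ∀ x ∈ Ball,
    1 - nsq (TT p x) = (1 - ‖p‖ ^ 2) * (1 - nsq x) / ‖1 + conj p * x.1‖ ^ 2

def AStmt : Prop := DiscFacts → AutFacts

/-! ### The weight on the disc -/

structure IsB (B : ℝ → ℝ) (cB CB : ℝ) : Prop where
  smooth : ContDiff ℝ ∞ B
  zero : ∀ t ≤ 0, B t = 0
  lin : ∀ t, 1 ≤ t → B t = t - cB
  c0 : 0 ≤ cB
  c1 : cB ≤ 1
  d1 : ∀ t, 0 ≤ deriv B t ∧ deriv B t ≤ 1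
  d2 : ∀ t, 0 ≤ deriv (deriv B) t ∧ deriv (deriv B) t ≤ CB

structure WDef (B : ℝ → ℝ) (cB CB : ℝ) (W : ℂ → ℝ) (N : Set ℂ) (β c0 C D : ℝ) : Prop where
  isB : IsB B cB CB
  β0 : 0 < β
  hβ : 128 * β ^ 2 ≤ Real.exp (-D - C - 1)
  hc0 : c0 = Real.log (16 / β ^ 2)
  hC : 200 * CB + 1 ≤ C
  hD : 1000 * (C + 1) ≤ D
  node : ∀ p ∈ N, ‖p‖ < 1 ∧ c0 + 3 ≤ psi p
  sep : ∀ p ∈ N, ∀ q ∈ N, dd p q < 1 / 2 → p = q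
  cob : ∀ ζ : ℂ, ‖ζ‖ < 1 → c0 + 3 ≤ psi ζ → ∃ p ∈ N, dd p ζ < 1 / 2
  cell : ∀ p ∈ N, ∀ ζ : ℂ, ‖ζ‖ < 1 → dd p ζ < 1 / 4 → W ζ = C * B (psi p - c0) +
    (B (C * (psi ζ - psi p) - B (-Real.log (64 * (dd p ζ ^ 2 + β ^ 2))) + D) - D + cB)
  out : ∀ ζ : ℂ, ‖ζ‖ < 1 → (∀ p ∈ N, 1 / 8 ≤ dd p ζ) → W ζ = C * B (psi ζ - c0)

/-- module W0 -/
def W0Stmt : Prop := DiscFacts → ∃ B cB CB W N β c0 C D, WDef B cB CB W N β c0 C D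

structure WOrd (W b : ℂ → ℝ) (N : Set ℂ) (β c0 C D : ℝ) : Prop where
  β0 : 0 < β
  β1 : β ≤ 1 / 100
  hc0 : c0 = Real.log (16 / β ^ 2)
  hC : 1 ≤ C
  hD : 1000 * (C + 1) ≤ D
  node : ∀ p ∈ N, ‖p‖ < 1 ∧ c0 + 3 ≤ psi p
  sep : ∀ p ∈ N, ∀ q ∈ N, dd p q < 1 / 2 → p = q
  cob : ∀ ζ : ℂ, ‖ζ‖ < 1 → c0 + 3 ≤ psi ζ → ∃ p ∈ N, dd p ζ < 1 / 2
  zero : ∀ ζ : ℂ, ‖ζ‖ < 1 → psi ζ ≤ c0 → W ζ = 0
  flat : ∀ p ∈ N, ∀ ζ : ℂ, ‖ζ‖ < 1 → dd p ζ < β → W ζ = W p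
  b0 : ∀ ζ, 0 ≤ b ζ
  b1 : ∀ ζ, b ζ ≤ max (psi ζ - c0) 0
  lip : ∀ ζ ζ', |b ζ - b ζ'| ≤ |psi ζ - psi ζ'|
  upper : ∀ ζ : ℂ, ‖ζ‖ < 1 → W ζ ≤ C * b ζ + 1
  atn : ∀ p ∈ N, W p ≤ C * b p - D + 1
  near : ∀ p ∈ N, ∀ ζ : ℂ, ‖ζ‖ < 1 → dd p ζ < 1 / 4 → C * b p - D ≤ W ζ
  deep : ∀ ζ : ℂ, ‖ζ‖ < 1 → W ζ < C * b ζ - D / 10 → ∃ p ∈ N, dd p ζ ≤ 1 / 100

/-- module W1 -/
def W1Stmt : Prop := DiscFacts → ∀ B cB CB W N β c0 C D, WDef B cB CB W N β c0 C D →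
  WOrd W (fun ζ => B (psi ζ - c0)) N β c0 C D

def WSm (W : ℂ → ℝ) : Prop := ∀ ζ : ℂ, ‖ζ‖ < 1 → ContDiffAt ℝ ∞ W ζ ∧ ∀ u, 0 ≤ lev W ζ u u

/-- module W2 -/
def W2Stmt : Prop := LevFacts → DiscFacts → ∀ B cB CB W N β c0 C D, WDef B cB CB W N β c0 C D →
  WSm W

/-- bounds on the jet at the origin -/
def JB (f : V → ℝ) (Λ : ℝ) : Prop :=
  (∀ X Y, |D2 f 0 X Y| ≤ Λ * ‖X‖ * ‖Y‖) ∧ (∀ X Y Z, |D3 f 0 X Y Z| ≤ Λ * ‖X‖ * ‖Y‖ * ‖Z‖) ∧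
    ∀ X Y Z T, |D4 f 0 X Y Z T| ≤ Λ * ‖X‖ * ‖Y‖ * ‖Z‖ * ‖T‖

/-- module K: jets of a smooth family with compact parameter set are bounded -/
def KStmt : Prop := ∀ (P : Type) [NormedAddCommGroup P] [NormedSpace ℝ P] (S : Set P)
  (Φ : P × V → ℝ), IsCompact S → (∀ π ∈ S, ContDiffAt ℝ ∞ Φ (π, 0)) →
  ∃ Λ, ∀ π ∈ S, ∀ (f : V → ℝ) (c : ℝ), (∀ᶠ z in 𝓝 0, f z = Φ (π, z) + c) → JB f Λ

def WBd (W : ℂ → ℝ) : Prop := ∃ Λ, ∀ (ζ a : ℂ) (κ : ℝ), ‖ζ‖ < 1 → ‖a‖ ≤ 1 → |κ| ≤ 1 →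
  JB (fun z => W (mob ζ (κ * z.1 / (1 + conj a * z.2)))) Λ

/-- module W3 -/
def W3Stmt : Prop := DiscFacts → KStmt → ∀ B cB CB W N β c0 C D, WDef B cB CB W N β c0 C D →
  WBd W

/-! ### The tree of wells -/

structure Tree (W : ℂ → ℝ) (N : Set ℂ) (f : V → ℝ) : Prop where
  loc : ∀ x ∈ Ball, ∃ (Θ : V → V) (y : V) (c : ℝ), Aut Θ ∧ y ∈ Ball ∧ Θ y = x ∧
    ∀ᶠ z in 𝓝 y, f (Θ z) = W z.1 + c
  loc' : ∀ x ∈ Ball, ∃ (m : V → ℂ) (c : ℝ), AnalyticAt ℂ m x ∧ ‖m x‖ < 1 ∧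
    ∀ᶠ z in 𝓝 x, f z = W (m z) + c
  fam : ∃ S : Set (V → V), S.Nonempty ∧ ∀ Θ ∈ S, Aut Θ ∧
    (∃ c, ∀ ζ : ℂ, ‖ζ‖ < 1 → f (Θ (ζ, 0)) = W ζ + c) ∧ ∀ p ∈ N, ∃ Θ' ∈ S, Θ' (0, 0) = Θ (p, 0)

/-- module T -/
def TStmt : Prop := DiscFacts → AutFacts → ∀ W b N β c0 C D, WOrd W b N β c0 C D →
  ∃ f, Tree W N f

/-- module H: Harnack and the minimum principle -/
structure HFacts : Prop where
  harn : ∀ (F : ℂ → ℂ) (R r : ℝ) (z : ℂ), DifferentiableOn ℂ F (Metric.ball 0 R) →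
    (∀ w ∈ Metric.ball (0 : ℂ) R, 0 ≤ (F w).re) → ‖z‖ ≤ r → r < R →
    (R - r) / (R + r) * (F 0).re ≤ (F z).re
  minp : ∀ (F : ℂ → ℂ) (r m : ℝ) (z : ℂ), DifferentiableOn ℂ F (Metric.ball 0 1) → 0 < r → r < 1 →
    (∀ w : ℂ, ‖w‖ = r → m ≤ (F w).re) → ‖z‖ ≤ r → m ≤ (F z).re

def NoMin (W : ℂ → ℝ) (N : Set ℂ) (ε : ℝ) : Prop := ∀ S : Set (ℂ → ℝ), S.Nonempty →
  (∀ h ∈ S, InnerProductSpace.HarmonicOnNhd h (Metric.ball 0 1) ∧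
    (∀ ζ : ℂ, ‖ζ‖ < 1 → h ζ ≤ W ζ + ε * psi ζ) ∧
    ∀ p ∈ N, ∃ h' ∈ S, W 0 + ε * psi 0 - h' 0 = W p + ε * psi p - h p) → False

/-- module N -/
def NStmt : Prop := DiscFacts → HFacts → ∀ W b N β c0 C D, WOrd W b N β c0 C D →
  ∀ ε, 0 ≤ ε → ε * (c0 + 3) ≤ 1 → NoMin W N ε

/-! ### The domain and the metric -/

noncomputable def sig (φ : V → ℝ) (p : E) : ℝ := ‖p.2‖ ^ 2 * Real.exp (φ p.1)

def Om (φ : V → ℝ) : Set E := {p | p.1 ∈ Ball ∧ sig φ p < 1}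

noncomputable def prof (ε σ : ℝ) : ℝ := -2 * Real.sqrt (1 - σ) - ε * Real.log (1 - σ)

noncomputable def pot (A ε : ℝ) (φ : V → ℝ) (p : E) : ℝ := A * psi0 p.1 + prof ε (sig φ p)

def Psh (φ : V → ℝ) : Prop := ∀ x ∈ Ball, ContDiffAt ℝ ∞ φ x ∧ ∀ X, 0 ≤ lev φ x X X

/-- module M -/
def MStmt : Prop := LevFacts → ∀ φ A ε, Psh φ → 0 < A → 0 < ε →
  IsOpen (Om φ) ∧ ContDiffOn ℝ ∞ (pot A ε φ) (Om φ) ∧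
    (∀ p ∈ Om φ, ∀ u, u ≠ 0 → 0 < lev (pot A ε φ) p u u) ∧
    ∃ e K, Exh (met (pot A ε φ)) (Om φ) e K

/-- module S -/
def SStmt : Prop := ∀ φ, ContinuousOn φ Ball → IsSimplyConnected (Om φ)

/-- module O: the derivative of a bounded holomorphic map is holomorphic along curves -/
def OStmt : Prop := ∀ (Ω : Set E) (F : E → E) (M : ℝ), IsOpen Ω → DifferentiableOn ℂ F Ω →
  (∀ p ∈ Ω, ‖F p‖ ≤ M) → ∀ (c : ℂ → E) (ζ : ℂ) (v : E), AnalyticAt ℂ c ζ → c ζ ∈ Ω →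
  DifferentiableAt ℂ (fun η => fderiv ℂ F (c η) v) ζ

def JacB (φ : V → ℝ) : Prop := ∃ (J : V → ℂ) (K : ℝ),
  (∀ x ∈ Ball, J x ≠ 0 ∧ Real.log (‖J x‖ ^ 2) ≤ φ x + 4 * psi0 x + K) ∧
    ∀ (c : ℂ → V) (ζ : ℂ), AnalyticAt ℂ c ζ → c ζ ∈ Ball → DifferentiableAt ℂ (fun η => J (c η)) ζ

/-- module Jc -/
def JcStmt : Prop := OStmt → ∀ φ, IsOpen (Om φ) → BiholBounded (Om φ) → JacB φ

/-- module Z -/
def ZStmt : Prop := ∀ W N f lam, 0 < lam → Tree W N f → NoMin W N (5 / lam) →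
  ¬ JacB fun z => lam * f z + psi0 z

structure Jet (χ : V → ℝ) (a1 a2 Λ : ℝ) : Prop where
  smooth : ∀ᶠ z in 𝓝 0, ContDiffAt ℝ ∞ χ z
  h1 : 1 ≤ a1 ∧ a1 ≤ Λ
  h2 : 1 ≤ a2 ∧ a2 ≤ Λ
  d1 : fderiv ℝ χ 0 = 0
  d2 : ∀ X Y, D2 χ 0 X Y = 2 * al a1 a2 X Y
  d3 : ∀ X Y Z, |D3 χ 0 X Y Z| ≤ Λ * ‖X‖ * ‖Y‖ * ‖Z‖
  d4 : ∀ X Y Z T, |D4 χ 0 X Y Z T| ≤ Λ * ‖X‖ * ‖Y‖ * ‖Z‖ * ‖T‖

def Chart (φ : V → ℝ) (Λ : ℝ) (x : V) : Prop :=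
  ∃ (Θ : V → V) (F F' : V → ℂ) (χ : V → ℝ) (a1 a2 : ℝ), AnalyticAt ℂ Θ 0 ∧ Θ 0 = x ∧
    AnalyticAt ℂ F 0 ∧ AnalyticAt ℂ F' 0 ∧ (∀ᶠ z in 𝓝 0, psi0 (Θ z) = psi0 z + (F z).re) ∧
    (∀ᶠ z in 𝓝 0, φ (Θ z) = χ z + (F' z).re) ∧ Jet χ a1 a2 Λ

/-- module Nm: removing the pluriharmonic part of the 2-jet -/
def NmStmt : Prop := ∀ (χ : V → ℝ) (a1 a2 Λ : ℝ), (∀ᶠ z in 𝓝 0, ContDiffAt ℝ ∞ χ z) →
  1 ≤ a1 ∧ a1 ≤ Λ → 1 ≤ a2 ∧ a2 ≤ Λ → (∀ X Y, lev χ 0 X Y = 4 * al a1 a2 X Y) →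
  (∀ X Y Z, |D3 χ 0 X Y Z| ≤ Λ * ‖X‖ * ‖Y‖ * ‖Z‖) →
  (∀ X Y Z T, |D4 χ 0 X Y Z T| ≤ Λ * ‖X‖ * ‖Y‖ * ‖Z‖ * ‖T‖) →
  ∃ F : V → ℂ, AnalyticAt ℂ F 0 ∧ Jet (fun z => χ z - (F z).re) a1 a2 Λ

/-- module U -/
def UStmt : Prop := LevFacts → DiscFacts → AutFacts → NmStmt → ∀ W N f, WSm W → WBd W →
  Tree W N f → ∀ lam, 0 ≤ lam → Psh (fun z => lam * f z + psi0 z) ∧
    ∃ Λ, 1 ≤ Λ ∧ ∀ x ∈ Ball, Chart (fun z => lam * f z + psi0 z) Λ x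

/-! ### The local curvature computation -/

noncomputable def pf (ε s : ℝ) : ℝ := prof ε (Real.exp s)

noncomputable def tau (ε r : ℝ) : ℝ := r - 1 / r + ε * (r ^ 2 - 1)

noncomputable def PP (ε r : ℝ) : ℝ := (r ^ 2 - 1) * (r + 1 / r + 2 * ε * r ^ 2) / 2

noncomputable def P1 (ε r : ℝ) : ℝ :=
  ((3 * r ^ 2 + 1 / r ^ 2) / 2 + ε * (4 * r ^ 3 - 2 * r)) / (1 + 1 / r ^ 2 + 2 * ε * r)

noncomputable def P2 (ε r : ℝ) : ℝ :=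
  r * (3 + 6 / r ^ 2 - 1 / r ^ 4 + ε * r * (15 + 18 / r ^ 2 - 9 / r ^ 4) + 16 * (ε * r) ^ 2)
    / (1 + 1 / r ^ 2 + 2 * ε * r) ^ 3

/-- module P1 -/
def P1Stmt : Prop := ∀ ε s : ℝ, 0 < ε → s < 0 → ∃ r, 1 < r ∧
  (∀ᶠ t in 𝓝 s, ContDiffAt ℝ ∞ (pf ε) t) ∧ deriv (pf ε) s = tau ε r ∧
  deriv (deriv (pf ε)) s = PP ε r ∧ deriv (deriv (deriv (pf ε))) s = PP ε r * P1 ε r ∧
  deriv (deriv (deriv (deriv (pf ε)))) s = PP ε r * (P1 ε r ^ 2 + PP ε r * P2 ε r)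

structure Good (Λ A K τ P Q1 Q2 μ ν : ℝ) : Prop where
  hA : Λ ≤ A
  hτ : 0 < τ
  hP : 0 < P
  hμ : 0 < μ
  hν : 0 ≤ ν
  lo : ∀ a, 1 ≤ a → a ≤ Λ → μ ≤ Q1 - P * a / (A + τ * a) ∧ Q1 - P * a / (A + τ * a) ≤ μ + ν
  key : (1.01 * μ + 1.16 * ν) ^ 2 ≤ 1.96 * (P + A / (4 * Λ ^ 2)) * Q2
  e1 : 640000 * Λ ^ 2 * P ≤ μ * (P + A / (4 * Λ ^ 2))
  e2 : 400 * Λ ^ 2 * τ ≤ P + A / (4 * Λ ^ 2)
  k1 : (A + τ) ^ 2 ≤ K * (P + A / (4 * Λ ^ 2))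
  k2 : A + τ ≤ K * μ
  k3 : 1 ≤ K * Q2
  k4 : P ≤ K * (1 + τ) ^ 2
  k5 : μ + ν ≤ K * (1 + τ)
  k6 : Q2 ≤ K

/-- module P2 -/
def P2Stmt : Prop := ∀ Λ : ℝ, 1 ≤ Λ → ∃ A ε K : ℝ, 0 < A ∧ 0 < ε ∧ 0 < K ∧ ∀ r, 1 < r →
  ∃ μ ν, Good Λ A K (tau ε r) (PP ε r) (P1 ε r) (P2 ε r) μ ν

noncomputable def model (A : ℝ) (f : ℝ → ℝ) (χ : V → ℝ) (p : E) : ℝ :=
  A * psi0 p.1 + f (2 * p.2.re + χ p.1)

def sg (u : E) : ℝ := 2 * u.2.re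

noncomputable def J2 (A f1 f2 a1 a2 : ℝ) (u v : E) : ℝ :=
  2 * A * al 1 1 u.1 v.1 + f2 * sg u * sg v + 2 * f1 * al a1 a2 u.1 v.1

noncomputable def J3 (f1 f2 f3 a1 a2 : ℝ) (H3 : V → V → V → ℝ) (u v w : E) : ℝ :=
  f3 * sg u * sg v * sg w + 2 * f2 * (al a1 a2 u.1 v.1 * sg w + al a1 a2 u.1 w.1 * sg v
    + al a1 a2 v.1 w.1 * sg u) + f1 * H3 u.1 v.1 w.1

noncomputable def J4 (A f1 f2 f3 f4 a1 a2 : ℝ) (H3 : V → V → V → ℝ) (H4 : V → V → V → V → ℝ)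
    (u v w z : E) : ℝ :=
  4 * A * (al 1 1 u.1 v.1 * al 1 1 w.1 z.1 + al 1 1 u.1 w.1 * al 1 1 v.1 z.1
    + al 1 1 u.1 z.1 * al 1 1 v.1 w.1)
  + f4 * sg u * sg v * sg w * sg z
  + 2 * f3 * (al a1 a2 u.1 v.1 * sg w * sg z + al a1 a2 u.1 w.1 * sg v * sg z
    + al a1 a2 u.1 z.1 * sg v * sg w + al a1 a2 v.1 w.1 * sg u * sg z
    + al a1 a2 v.1 z.1 * sg u * sg w + al a1 a2 w.1 z.1 * sg u * sg v)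
  + 4 * f2 * (al a1 a2 u.1 v.1 * al a1 a2 w.1 z.1 + al a1 a2 u.1 w.1 * al a1 a2 v.1 z.1
    + al a1 a2 u.1 z.1 * al a1 a2 v.1 w.1)
  + f2 * (H3 u.1 v.1 w.1 * sg z + H3 u.1 v.1 z.1 * sg w + H3 u.1 w.1 z.1 * sg v
    + H3 v.1 w.1 z.1 * sg u)
  + f1 * H4 u.1 v.1 w.1 z.1

/-- module J: the 4-jet of the model potential -/
def JStmt : Prop := ∀ (A : ℝ) (f : ℝ → ℝ) (χ : V → ℝ) (a1 a2 Λ : ℝ) (θ : ℂ), Jet χ a1 a2 Λ →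
  (∀ᶠ t in 𝓝 (2 * θ.re + χ 0), ContDiffAt ℝ ∞ f t) →
  (∀ᶠ z in 𝓝 ((0, θ) : E), ContDiffAt ℝ ∞ (model A f χ) z) ∧
  (∀ u v, D2 (model A f χ) (0, θ) u v =
    J2 A (deriv f (2 * θ.re + χ 0)) (deriv (deriv f) (2 * θ.re + χ 0)) a1 a2 u v) ∧
  (∀ u v w, D3 (model A f χ) (0, θ) u v w =
    J3 (deriv f (2 * θ.re + χ 0)) (deriv (deriv f) (2 * θ.re + χ 0))
      (deriv (deriv (deriv f)) (2 * θ.re + χ 0)) a1 a2 (fun X Y Z => D3 χ 0 X Y Z) u v w) ∧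
  ∀ u v w z, D4 (model A f χ) (0, θ) u v w z =
    J4 A (deriv f (2 * θ.re + χ 0)) (deriv (deriv f) (2 * θ.re + χ 0))
      (deriv (deriv (deriv f)) (2 * θ.re + χ 0)) (deriv (deriv (deriv (deriv f))) (2 * θ.re + χ 0))
      a1 a2 (fun X Y Z => D3 χ 0 X Y Z) (fun X Y Z T => D4 χ 0 X Y Z T) u v w z

def Pin (g : E → Bil) (y : E) (a b : ℝ) : Prop :=
  ∀ u v, a * area g y u v ≤ -curv g y u v ∧ -curv g y u v ≤ b * area g y u v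

def LocP (Λ A ε a b : ℝ) : Prop := ∀ (χ : V → ℝ) (a1 a2 : ℝ) (θ : ℂ), Jet χ a1 a2 Λ →
  2 * θ.re + χ 0 < 0 → (∀ᶠ z in 𝓝 ((0, θ) : E), ContDiffAt ℝ ∞ (model A (pf ε) χ) z) ∧
    LM (met (model A (pf ε) χ)) (0, θ) ∧ Pin (met (model A (pf ε) χ)) (0, θ) a b

/-- module X (core inequality) -/
def XStmt : Prop := RFacts → FFacts → JStmt → P1Stmt → P2Stmt → ∀ Λ : ℝ, 1 ≤ Λ →
  ∃ A ε a b : ℝ, 0 < A ∧ 0 < ε ∧ 0 < a ∧ LocP Λ A ε a b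

/-- module G -/
def GStmt : Prop := LevFacts → RFacts → IStmt → ∀ φ Λ A ε a b, 0 < a → IsOpen (Om φ) →
  ContDiffOn ℝ ∞ (pot A ε φ) (Om φ) → IsKahler (met (pot A ε φ)) (Om φ) →
  (∀ x ∈ Ball, Chart φ Λ x) → LocP Λ A ε a b → Pinched (met (pot A ε φ)) (Om φ)

end Vale.Agent.P250
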