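import Vale.Agent.P250.Spec

/-! P250, module X, part 1: algebraic identities. -/

open scoped ComplexConjugate
open Complex

namespace Vale.Agent.P250

namespace Xx

noncomputable def GG (h1 h2 P : ℝ) (u v : E) : ℝ :=
  4 * (al h1 h2 u.1 v.1 + P * (conj u.2 * v.2).re)

noncomputable def SS (a1 a2 : ℝ) (X Y : V) : ℝ :=
  al a1 a2 X X * al a1 a2 Y Y - al a1 a2 X Y ^ 2 + 3 * al a1 a2 X (I • Y) ^ 2

noncomputable def TF (m1 m2 : ℝ) (u v : E) : ℝ :=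
  al m1 m2 u.1 u.1 * normSq v.2 + al m1 m2 v.1 v.1 * normSq u.2
    - 2 * al m1 m2 u.1 v.1 * (conj u.2 * v.2).re - 6 * al m1 m2 u.1 (I • v.1) * (conj u.2 * v.2).im

noncomputable def T3 (H3 : V → V → V → ℝ) (u v w z : E) : ℝ :=
  H3 u.1 v.1 w.1 * sg z + H3 u.1 v.1 z.1 * sg w + H3 u.1 w.1 z.1 * sg v + H3 v.1 w.1 z.1 * sg u

noncomputable def bet (H3 : V → V → V → ℝ) (X Y W : V) : ℝ :=
  (H3 X Y W + H3 X (I • Y) (I • W) + H3 (I • X) Y (I • W) - H3 (I • X) (I • Y) W) / 2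

noncomputable def Z0 (n1 n2 : ℝ) (u v : E) : V :=
  (n1 * (v.2 * u.1.1 + u.2 * v.1.1), n2 * (v.2 * u.1.2 + u.2 * v.1.2))

theorem lev2 (A f1 f2 a1 a2 : ℝ) (u v : E) :
    J2 A f1 f2 a1 a2 u v + J2 A f1 f2 a1 a2 (I • u) (I • v) =
      GG (A + f1 * a1) (A + f1 * a2) f2 u v := by
  simp [J2, GG, al, sg]
  ring

theorem id4 (A f1 f2 f3 f4 a1 a2 : ℝ) (H3 : V → V → V → ℝ) (H4 : V → V → V → V → ℝ) (u v : E) :
    kz4 (J4 A f1 f2 f3 f4 a1 a2 H3 H4) u v =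
      -4 * A * SS 1 1 u.1 v.1 - 4 * f2 * SS a1 a2 u.1 v.1 - 4 * f3 * TF a1 a2 u v
        - 8 * f4 * (conj u.2 * v.2).im ^ 2 + f2 * kz4 (T3 H3) u v
        + f1 * kz4 (fun a b c d => H4 a.1 b.1 c.1 d.1) u v := by
  simp [kz4, J4, SS, TF, T3, al, sg, normSq_apply]
  ring

theorem id3 (f1 f2 f3 a1 a2 : ℝ) (H3 : V → V → V → ℝ) (u v w : E) :
    kz3 (J3 f1 f2 f3 a1 a2 H3) u v w = 4 * f3 * (conj (u.2 * v.2) * w.2).re
      + 4 * f2 * al 1 1 (Z0 a1 a2 u v) w.1 + f1 * bet H3 u.1 v.1 w.1 := by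
  simp [kz3, J3, Z0, bet, al, sg]
  ring

theorem al_symm (h1 h2 : ℝ) (X Y : V) : al h1 h2 X Y = al h1 h2 Y X := by
  simp [al]; ring

theorem al_add (h1 h2 : ℝ) (X Y W : V) : al h1 h2 (X + Y) W = al h1 h2 X W + al h1 h2 Y W := by
  simp [al]; ring

theorem al_Z0 (h1 h2 n1 n2 : ℝ) (u v : E) (W : V) :
    al h1 h2 (Z0 n1 n2 u v) W = al 1 1 (Z0 (h1 * n1) (h2 * n2) u v) W := by
  simp [al, Z0]; ring

theorem al_Z0' (P n1 n2 : ℝ) (u v : E) (W : V) :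
    al 1 1 (Z0 (P * n1) (P * n2) u v) W = P * al 1 1 (Z0 n1 n2 u v) W := by
  simp [al, Z0]; ring

theorem idZ (m1 m2 n1 n2 : ℝ) (u v : E) :
    al 1 1 (Z0 m1 m2 u v) (Z0 n1 n2 u v) - al 1 1 (Z0 m1 m2 u u) (Z0 n1 n2 v v) =
      TF (m1 * n1) (m2 * n2) u v := by
  simp [al, Z0, TF, normSq_apply]; ring

theorem TF_lin (a1 a2 n1 n2 Q : ℝ) (u v : E) :
    TF (a1 * (Q - n1)) (a2 * (Q - n2)) u v = Q * TF a1 a2 u v - TF (a1 * n1) (a2 * n2) u v := by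
  simp [al, TF, normSq_apply]; ring

theorem idv (Q : ℝ) (a b : ℂ) : (conj (Q * (a * b)) * (Q * (a * b))).re
    - (conj (Q * (a * a)) * (Q * (b * b))).re = 2 * Q ^ 2 * (conj a * b).im ^ 2 := by
  simp; ring

theorem sol (h1 h2 : ℝ) (p1 : h1 ≠ 0) (p2 : h2 ≠ 0) (l : V →L[ℝ] ℝ) :
    ∃ Z, ∀ W, al h1 h2 Z W = l W := by
  refine ⟨(⟨l (1, 0) / h1, l (I, 0) / h1⟩, ⟨l (0, 1) / h2, l (0, I) / h2⟩), fun W => ?_⟩
  have : W = W.1.re • ((1, 0) : V) + W.1.im • ((I, 0) : V) + W.2.re • ((0, 1) : V)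
      + W.2.im • ((0, I) : V) := by
    ext <;> simp
  conv_rhs => rw [this]
  simp only [map_add, map_smul, smul_eq_mul, al, mul_re, conj_re, conj_im]
  field_simp
  ring

theorem solb (h1 h2 c : ℝ) (p1 : h1 ≠ 0) (p2 : h2 ≠ 0) (H3 : V → V → V →L[ℝ] ℝ) (X Y : V) :
    ∃ Z, ∀ W, al h1 h2 Z W = c * bet (fun a b c => H3 a b c) X Y W := by
  let J : V →L[ℝ] V := (I • ContinuousLinearMap.id ℂ V).restrictScalars ℝ
  obtain ⟨Z, hZ⟩ := sol h1 h2 p1 p2 ((c / 2) • (H3 X Y + (H3 X (I • Y)).comp J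
    + (H3 (I • X) Y).comp J - H3 (I • X) (I • Y)))
  refine ⟨Z, fun W => ?_⟩
  rw [hZ]
  have : J W = I • W := rfl
  simp [bet, this]
  ring

/-- the curvature identity -/
theorem main (A τ P Q1 Q2 a1 a2 n1 n2 : ℝ) (e1 : (A + τ * a1) * n1 = P * a1)
    (e2 : (A + τ * a2) * n2 = P * a2) (H3 : V → V → V → ℝ) (H4 : V → V → V → V → ℝ) (u v : E)
    (Za Zb Zc : V) :
    kz4 (J4 A τ P (P * Q1) (P * (Q1 ^ 2 + P * Q2)) a1 a2 H3 H4) u v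
      + GG (A + τ * a1) (A + τ * a2) P (Z0 n1 n2 u v + Za, Q1 * (u.2 * v.2))
          (Z0 n1 n2 u v + Za, Q1 * (u.2 * v.2))
      - GG (A + τ * a1) (A + τ * a2) P (Z0 n1 n2 u u + Zb, Q1 * (u.2 * u.2))
          (Z0 n1 n2 v v + Zc, Q1 * (v.2 * v.2)) =
    -4 * (A * SS 1 1 u.1 v.1 + P * SS a1 a2 u.1 v.1 + P * TF (a1 * (Q1 - n1)) (a2 * (Q1 - n2)) u v
        + 2 * P ^ 2 * Q2 * (conj u.2 * v.2).im ^ 2)
      + (P * kz4 (T3 H3) u v + τ * kz4 (fun a b c d => H4 a.1 b.1 c.1 d.1) u v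
        + 4 * (2 * al (A + τ * a1) (A + τ * a2) Za (Z0 n1 n2 u v)
          + al (A + τ * a1) (A + τ * a2) Za Za - al (A + τ * a1) (A + τ * a2) Zc (Z0 n1 n2 u u)
          - al (A + τ * a1) (A + τ * a2) Zb (Z0 n1 n2 v v)
          - al (A + τ * a1) (A + τ * a2) Zb Zc)) := by
  have k1 := idZ (P * a1) (P * a2) n1 n2 u v
  have k2 := idv Q1 u.2 v.2
  have k3 : TF (P * a1 * n1) (P * a2 * n2) u v = P * TF (a1 * n1) (a2 * n2) u v := by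
    simp [al, TF, normSq_apply]; ring
  rw [← e1, ← e2, ← al_Z0, ← al_Z0, e1, e2, k3] at k1
  rw [id4, TF_lin]
  simp only [GG, al_add, al_symm _ _ (Z0 n1 n2 u v) (_ + _), al_symm _ _ Za (_ + _),
    al_symm _ _ (Z0 n1 n2 u u) (_ + _), al_symm _ _ Zb (_ + _),
    al_symm _ _ (Z0 n1 n2 u v) Za, al_symm _ _ (Z0 n1 n2 v v) Zb, al_symm _ _ Zc Zb,
    al_symm _ _ (Z0 n1 n2 v v) (Z0 n1 n2 u u)]
  linear_combination 4 * k1 + 4 * P * k2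

theorem gam (A τ P Q1 a1 a2 n1 n2 : ℝ) (e1 : (A + τ * a1) * n1 = P * a1)
    (e2 : (A + τ * a2) * n2 = P * a2) (H3 : V → V → V → ℝ) (u v : E) (Z : V)
    (hZ : ∀ W, al (A + τ * a1) (A + τ * a2) Z W = τ / 4 * bet H3 u.1 v.1 W) (w : E) :
    GG (A + τ * a1) (A + τ * a2) P (Z0 n1 n2 u v + Z, Q1 * (u.2 * v.2)) w =
      kz3 (J3 τ P (P * Q1) a1 a2 H3) u v w := by
  rw [id3, GG, al_add, hZ, al_Z0, e1, e2, al_Z0']
  simp
  ring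

end Xx

end Vale.Agent.P250
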