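import Vale.Agent.P250.X1

/-! P250, module X, part 2: the error terms. -/

open scoped ComplexConjugate
open Complex

namespace Vale.Agent.P250

namespace Xx

theorem al_self (h1 h2 : ℝ) (X : V) : al h1 h2 X X = h1 * ‖X.1‖ ^ 2 + h2 * ‖X.2‖ ^ 2 := by
  simp [al, Complex.sq_norm, normSq_apply]

theorem norm_le_al {c h1 h2 : ℝ} (c0 : 0 ≤ c) (p1 : c ≤ h1) (p2 : c ≤ h2) (X : V) :
    c * ‖X‖ ^ 2 ≤ al h1 h2 X X := by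
  rw [al_self, Prod.norm_def]
  have := sq_nonneg ‖X.1‖
  have := sq_nonneg ‖X.2‖
  rcases max_cases ‖X.1‖ ‖X.2‖ with h | h <;> rw [h.1] <;> nlinarith

theorem nI (X : V) : ‖I • X‖ = ‖X‖ := by simp [norm_smul]

theorem sg_le (u : E) : |sg u| ≤ 2 * ‖u.2‖ := by
  rw [sg, abs_mul, abs_two]
  exact mul_le_mul_of_nonneg_left (abs_re_le_norm _) zero_le_two

theorem sgI_le (u : E) : |sg (I • u)| ≤ 2 * ‖u.2‖ := by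
  simpa using sg_le (I • u)

variable {Λ : ℝ} {H3 : V → V → V → ℝ}

theorem bet_le (b3 : ∀ X Y Z, |H3 X Y Z| ≤ Λ * ‖X‖ * ‖Y‖ * ‖Z‖) (X Y W : V) :
    |bet H3 X Y W| ≤ 2 * (Λ * ‖X‖ * ‖Y‖ * ‖W‖) := by
  have h1 := abs_le.1 (b3 X Y W)
  have h2 := abs_le.1 (b3 X (I • Y) (I • W))
  have h3 := abs_le.1 (b3 (I • X) Y (I • W))
  have h4 := abs_le.1 (b3 (I • X) (I • Y) W)
  simp only [nI] at h2 h3 h4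
  rw [bet, abs_le]
  constructor <;> linarith [h1.1, h1.2, h2.1, h2.2, h3.1, h3.2, h4.1, h4.2]

theorem mul_abs_le {a b c d : ℝ} (h1 : |a| ≤ c) (h2 : |b| ≤ d) : |a * b| ≤ c * d := by
  rw [abs_mul]
  exact mul_le_mul h1 h2 (abs_nonneg _) ((abs_nonneg _).trans h1)

theorem T3_le (b3 : ∀ X Y Z, |H3 X Y Z| ≤ Λ * ‖X‖ * ‖Y‖ * ‖Z‖) (u v : E) :
    |kz4 (T3 H3) u v| ≤ 8 * (Λ * ‖u.1‖ * ‖v.1‖ * (‖u.1‖ * ‖v.2‖ + ‖v.1‖ * ‖u.2‖)) := by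
  have a1 := abs_le.1 (mul_abs_le (b3 u.1 v.1 (I • u.1)) (sgI_le v))
  have a2 := abs_le.1 (mul_abs_le (b3 u.1 v.1 (I • v.1)) (sgI_le u))
  have a3 := abs_le.1 (mul_abs_le (b3 u.1 (I • u.1) (I • v.1)) (sg_le v))
  have a4 := abs_le.1 (mul_abs_le (b3 v.1 (I • u.1) (I • v.1)) (sg_le u))
  have b1 := abs_le.1 (mul_abs_le (b3 u.1 u.1 (I • v.1)) (sgI_le v))
  have b2 := abs_le.1 (mul_abs_le (b3 u.1 (I • v.1) (I • v.1)) (sg_le u))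
  have c1 := abs_le.1 (mul_abs_le (b3 (I • u.1) (I • u.1) v.1) (sg_le v))
  have c2 := abs_le.1 (mul_abs_le (b3 (I • u.1) v.1 v.1) (sgI_le u))
  simp only [nI] at a1 a2 a3 a4 b1 b2 c1 c2
  simp only [kz4, T3, Prod.smul_fst]
  rw [abs_le]
  constructor <;> nlinarith [a1.1, a1.2, a2.1, a2.2, a3.1, a3.2, a4.1, a4.2, b1.1, b1.2, b2.1, b2.2,
    c1.1, c1.2, c2.1, c2.2]

theorem H4_le {H4 : V → V → V → V → ℝ}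
    (b4 : ∀ X Y Z T, |H4 X Y Z T| ≤ Λ * ‖X‖ * ‖Y‖ * ‖Z‖ * ‖T‖) (u v : E) :
    |kz4 (fun a b c d : E => H4 a.1 b.1 c.1 d.1) u v| ≤ 2 * (Λ * ‖u.1‖ ^ 2 * ‖v.1‖ ^ 2) := by
  have a1 := abs_le.1 (b4 u.1 v.1 (I • u.1) (I • v.1))
  have a2 := abs_le.1 (b4 u.1 u.1 (I • v.1) (I • v.1))
  have a3 := abs_le.1 (b4 (I • u.1) (I • u.1) v.1 v.1)
  simp only [nI] at a1 a2 a3
  simp only [kz4, Prod.smul_fst]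
  rw [abs_le]
  constructor <;> nlinarith [a1.1, a1.2, a2.1, a2.2, a3.1, a3.2]

theorem Z_le (hΛ : 0 ≤ Λ) (b3 : ∀ X Y Z, |H3 X Y Z| ≤ Λ * ‖X‖ * ‖Y‖ * ‖Z‖) {τ h1 h2 : ℝ}
    (hτ : 0 < τ) (p1 : τ ≤ h1) (p2 : τ ≤ h2) {X Y Z : V}
    (hZ : ∀ W, al h1 h2 Z W = τ / 4 * bet H3 X Y W) : ‖Z‖ ≤ Λ * ‖X‖ * ‖Y‖ / 2 := by
  have k1 := norm_le_al hτ.le p1 p2 Z
  have k2 := (abs_le.1 (bet_le b3 X Y Z)).2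
  rw [hZ] at k1
  have k3 : ‖Z‖ * ‖Z‖ ≤ Λ * ‖X‖ * ‖Y‖ / 2 * ‖Z‖ := by
    refine le_of_mul_le_mul_left ?_ hτ
    nlinarith
  rcases (norm_nonneg Z).eq_or_lt with h | h
  · rw [← h]; positivity
  · exact le_of_mul_le_mul_right k3 h

theorem Z0_le {τ P n1 n2 : ℝ} (hτ : 0 < τ) (q1 : 0 ≤ n1) (q2 : 0 ≤ n2) (p1 : τ * n1 ≤ P)
    (p2 : τ * n2 ≤ P) (u v : E) :
    τ * ‖Z0 n1 n2 u v‖ ≤ P * (‖u.1‖ * ‖v.2‖ + ‖v.1‖ * ‖u.2‖) := by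
  have k : ∀ (n : ℝ) (x y : ℂ), 0 ≤ n → τ * n ≤ P → ‖x‖ ≤ ‖u.1‖ → ‖y‖ ≤ ‖v.1‖ →
      τ * ‖(n : ℂ) * (v.2 * x + u.2 * y)‖ ≤ P * (‖u.1‖ * ‖v.2‖ + ‖v.1‖ * ‖u.2‖) := by
    intro n x y h1 h2 h3 h4
    rw [norm_mul, Complex.norm_real, Real.norm_of_nonneg h1, ← mul_assoc]
    refine mul_le_mul h2 ((norm_add_le _ _).trans ?_) (norm_nonneg _) (le_trans (by positivity) h2)
    rw [norm_mul, norm_mul, mul_comm ‖u.1‖, mul_comm ‖v.1‖]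
    gcongr
  rw [Prod.norm_def, mul_max_of_nonneg _ _ hτ.le]
  exact max_le (k _ _ _ q1 p1 (norm_fst_le _) (norm_fst_le _))
    (k _ _ _ q2 p2 (norm_snd_le _) (norm_snd_le _))

theorem err_le (hΛ : 1 ≤ Λ) (b3 : ∀ X Y Z, |H3 X Y Z| ≤ Λ * ‖X‖ * ‖Y‖ * ‖Z‖)
    {H4 : V → V → V → V → ℝ} (b4 : ∀ X Y Z T, |H4 X Y Z T| ≤ Λ * ‖X‖ * ‖Y‖ * ‖Z‖ * ‖T‖)
    {τ P h1 h2 n1 n2 : ℝ} (hτ : 0 < τ) (hP : 0 < P) (p1 : τ ≤ h1) (p2 : τ ≤ h2) (q1 : 0 ≤ n1)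
    (q2 : 0 ≤ n2) (r1 : τ * n1 ≤ P) (r2 : τ * n2 ≤ P) (u v : E) {Za Zb Zc : V}
    (ha : ∀ W, al h1 h2 Za W = τ / 4 * bet H3 u.1 v.1 W)
    (hb : ∀ W, al h1 h2 Zb W = τ / 4 * bet H3 u.1 u.1 W)
    (hc : ∀ W, al h1 h2 Zc W = τ / 4 * bet H3 v.1 v.1 W) :
    |P * kz4 (T3 H3) u v + τ * kz4 (fun a b c d => H4 a.1 b.1 c.1 d.1) u v
        + 4 * (2 * al h1 h2 Za (Z0 n1 n2 u v) + al h1 h2 Za Za - al h1 h2 Zc (Z0 n1 n2 u u)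
          - al h1 h2 Zb (Z0 n1 n2 v v) - al h1 h2 Zb Zc)| ≤
      16 * (Λ * P * ‖u.1‖ * ‖v.1‖ * (‖u.1‖ * ‖v.2‖ + ‖v.1‖ * ‖u.2‖))
        + 4 * (Λ ^ 2 * τ * ‖u.1‖ ^ 2 * ‖v.1‖ ^ 2) := by
  have Λ0 : 0 ≤ Λ := zero_le_one.trans hΛ
  have k : ∀ X Y W (c : ℝ), τ * ‖W‖ ≤ c → |τ * bet H3 X Y W| ≤ 2 * (Λ * ‖X‖ * ‖Y‖ * c) := by
    intro X Y W c h
    rw [abs_mul, abs_of_pos hτ]
    calc τ * |bet H3 X Y W| ≤ τ * (2 * (Λ * ‖X‖ * ‖Y‖ * ‖W‖)) := by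
          gcongr; exact bet_le b3 X Y W
      _ = 2 * (Λ * ‖X‖ * ‖Y‖ * (τ * ‖W‖)) := by ring
      _ ≤ _ := by gcongr
  have a1 := abs_le.1 (mul_abs_le (abs_of_pos hP).le (T3_le b3 u v))
  have a2 := abs_le.1 (mul_abs_le (abs_of_pos hτ).le (H4_le b4 u v))
  have a3 := abs_le.1 (k u.1 v.1 _ _ (Z0_le hτ q1 q2 r1 r2 u v))
  have a4 := abs_le.1 (k u.1 v.1 _ _ (mul_le_mul_of_nonneg_left (Z_le Λ0 b3 hτ p1 p2 ha) hτ.le))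
  have a5 := abs_le.1 (k v.1 v.1 _ _ (Z0_le hτ q1 q2 r1 r2 u u))
  have a6 := abs_le.1 (k u.1 u.1 _ _ (Z0_le hτ q1 q2 r1 r2 v v))
  have a7 := abs_le.1 (k u.1 u.1 _ _ (mul_le_mul_of_nonneg_left (Z_le Λ0 b3 hτ p1 p2 hc) hτ.le))
  have a8 : Λ * τ * ‖u.1‖ ^ 2 * ‖v.1‖ ^ 2 ≤ Λ ^ 2 * τ * ‖u.1‖ ^ 2 * ‖v.1‖ ^ 2 := by
    gcongr; nlinarith
  rw [ha, ha, hb, hb, hc, abs_le]
  constructor <;> nlinarith [a1.1, a1.2, a2.1, a2.2, a3.1, a3.2, a4.1, a4.2, a5.1, a5.2, a6.1, a6.2,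
    a7.1, a7.2]

end Xx

end Vale.Agent.P250
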