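import Vale.Agent.P250.X2

/-! P250, module X, part 3: the inequalities. -/

open scoped ComplexConjugate
open Complex

namespace Vale.Agent.P250

namespace Xx

theorem al_I (h1 h2 : ℝ) (X : V) : al h1 h2 (I • X) (I • X) = al h1 h2 X X := by
  simp [al_self]

theorem al_abs {a1 a2 m1 m2 c x y : ℝ} {X Y : V} (p1 : 0 ≤ a1) (p2 : 0 ≤ a2) (hc : 0 ≤ c)
    (q1 : |m1| ≤ c * a1) (q2 : |m2| ≤ c * a2) (x0 : 0 ≤ x) (y0 : 0 ≤ y)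
    (hx : x ^ 2 = al a1 a2 X X) (hy : y ^ 2 = al a1 a2 Y Y) : |al m1 m2 X Y| ≤ c * (x * y) := by
  have k : ∀ a b : ℂ, |(conj a * b).re| ≤ ‖a‖ * ‖b‖ := fun a b =>
    (abs_re_le_norm _).trans (by simp)
  have k1 := mul_abs_le q1 (k X.1 Y.1)
  have k2 := mul_abs_le q2 (k X.2 Y.2)
  rw [al_self] at hx hy
  have k3 : a1 * (‖X.1‖ * ‖Y.1‖) + a2 * (‖X.2‖ * ‖Y.2‖) ≤ x * y := by
    refine le_of_sq_le_sq ?_ (mul_nonneg x0 y0)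
    rw [mul_pow x, hx, hy]
    nlinarith [mul_nonneg (mul_nonneg p1 p2) (sq_nonneg (‖X.1‖ * ‖Y.2‖ - ‖X.2‖ * ‖Y.1‖))]
  have := mul_le_mul_of_nonneg_left k3 hc
  exact (abs_add_le _ _).trans (by linarith)

theorem TF_ge {m1 m2 : ℝ} (p1 : 0 ≤ m1) (p2 : 0 ≤ m2) (u v : E) :
    -4 * al m1 m2 u.1 (I • v.1) * (conj u.2 * v.2).im ≤ TF m1 m2 u v := by
  have e : TF m1 m2 u v = -4 * al m1 m2 u.1 (I • v.1) * (conj u.2 * v.2).im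
      + m1 * normSq (u.1.1 * conj v.2 - v.1.1 * conj u.2)
      + m2 * normSq (u.1.2 * conj v.2 - v.1.2 * conj u.2) := by
    simp [al, TF, normSq_apply]; ring
  have := mul_nonneg p1 (normSq_nonneg (u.1.1 * conj v.2 - v.1.1 * conj u.2))
  have := mul_nonneg p2 (normSq_nonneg (u.1.2 * conj v.2 - v.1.2 * conj u.2))
  linarith

theorem gram {a1 a2 Λ : ℝ} (p1 : 0 ≤ a1) (p2 : 0 ≤ a2) (q1 : a1 ≤ Λ) (q2 : a2 ≤ Λ) (X Y : V) :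
    al a1 a2 X X * al a1 a2 Y Y - al a1 a2 X Y ^ 2 ≤ Λ ^ 2 * SS 1 1 X Y := by
  have e : ∀ a1 a2 : ℝ, al a1 a2 X X * al a1 a2 Y Y - al a1 a2 X Y ^ 2 =
      a1 * a1 * (X.1.re * Y.1.im - X.1.im * Y.1.re) ^ 2
      + a2 * a2 * (X.2.re * Y.2.im - X.2.im * Y.2.re) ^ 2
      + a1 * a2 * ((X.1.re * Y.2.re - X.2.re * Y.1.re) ^ 2 + (X.1.re * Y.2.im - X.2.im * Y.1.re) ^ 2
        + (X.1.im * Y.2.re - X.2.re * Y.1.im) ^ 2 + (X.1.im * Y.2.im - X.2.im * Y.1.im) ^ 2) := by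
    intro a1 a2
    simp [al]; ring
  have k1 : a1 * a1 ≤ Λ ^ 2 := by nlinarith
  have k2 : a2 * a2 ≤ Λ ^ 2 := by nlinarith
  have k3 : a1 * a2 ≤ Λ ^ 2 := by nlinarith
  rw [SS, e, e]
  calc _ ≤ Λ ^ 2 * (X.1.re * Y.1.im - X.1.im * Y.1.re) ^ 2
      + Λ ^ 2 * (X.2.re * Y.2.im - X.2.im * Y.2.re) ^ 2
      + Λ ^ 2 * ((X.1.re * Y.2.re - X.2.re * Y.1.re) ^ 2 + (X.1.re * Y.2.im - X.2.im * Y.1.re) ^ 2
        + (X.1.im * Y.2.re - X.2.re * Y.1.im) ^ 2 + (X.1.im * Y.2.im - X.2.im * Y.1.im) ^ 2) := by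
        gcongr
    _ ≤ _ := by nlinarith [mul_nonneg (sq_nonneg Λ) (sq_nonneg (al 1 1 X (I • Y)))]

theorem low1 {Pt Q P μ ν q r c : ℝ} (hPt : 0 < Pt) (hP : 0 ≤ P) (hμ : 0 ≤ μ) (hν : 0 ≤ ν)
    (r0 : 0 ≤ r) (rq : r ≤ q) (c0 : 0 ≤ c)
    (key : (1.01 * μ + 1.16 * ν) ^ 2 ≤ 1.96 * Pt * Q) :
    P * c * (6 * μ * r - 1.98 * μ * q + 2 * ν * (r + q)) ≤
      0.99 * (Pt * (q ^ 2 + 3 * r ^ 2) + 2 * Q * (P * c) ^ 2) := by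
  obtain ⟨s, s0, hs⟩ : ∃ s, 0 ≤ s ∧ s ^ 2 = q ^ 2 + 3 * r ^ 2 :=
    ⟨_, Real.sqrt_nonneg _, Real.sq_sqrt (by positivity)⟩
  have k1 : 3 * r - q ≤ s := le_of_sq_le_sq (by nlinarith) s0
  have k2 : q ≤ s := le_of_sq_le_sq (by nlinarith) s0
  have k3 : r + q ≤ 1.16 * s := le_of_sq_le_sq
    (by nlinarith [sq_nonneg (q - 3 * r), sq_nonneg q, sq_nonneg r]) (by positivity)
  have k4 : 6 * μ * r - 1.98 * μ * q + 2 * ν * (r + q) ≤ 2 * ((1.01 * μ + 1.16 * ν) * s) := by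
    nlinarith [mul_le_mul_of_nonneg_left k1 hμ, mul_le_mul_of_nonneg_left k2 hμ,
      mul_le_mul_of_nonneg_left k3 hν]
  set L := 1.01 * μ + 1.16 * ν
  set d := P * c
  have d0 : 0 ≤ d := mul_nonneg hP c0
  rw [← hs]
  refine (mul_le_mul_of_nonneg_left k4 d0).trans (le_of_mul_le_mul_left ?_ hPt)
  have k5 := mul_le_mul_of_nonneg_left key (sq_nonneg d)
  nlinarith [sq_nonneg (0.99 * Pt * s - L * d), sq_nonneg (L * d)]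

theorem low2 {Λ P Pt μ q a b : ℝ} (hP : 0 < P) (hμ : 0 < μ)
    (e1 : 640000 * Λ ^ 2 * P ≤ μ * Pt) :
    4 * (Λ * P * q * (a + b)) ≤ μ * P * (a ^ 2 + b ^ 2) / 200 + Pt * q ^ 2 / 400 := by
  refine le_of_mul_le_mul_left ?_ hμ
  have k := mul_le_mul_of_nonneg_left e1 (sq_nonneg q)
  nlinarith [mul_nonneg hP.le (sq_nonneg (μ * a - 400 * Λ * q)),
    mul_nonneg hP.le (sq_nonneg (μ * b - 400 * Λ * q))]

end Xx

end Vale.Agent.P250
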