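import Vale.Agent.P250.X3

/-! P250, module X, part 4: lower and upper bound. -/

open scoped ComplexConjugate
open Complex

namespace Vale.Agent.P250

namespace Xx

theorem al_split (A τ a1 a2 : ℝ) (X Y : V) :
    al (A + τ * a1) (A + τ * a2) X Y = A * al 1 1 X Y + τ * al a1 a2 X Y := by
  simp [al]; ring

theorem cc (a b : ℂ) : (conj a * b).re ^ 2 + (conj a * b).im ^ 2 = ‖a‖ ^ 2 * ‖b‖ ^ 2 := by
  simp [Complex.sq_norm, normSq_apply]; ring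

theorem cself (a : ℂ) : (conj a * a).re = ‖a‖ ^ 2 := by
  simp [Complex.sq_norm, normSq_apply]

theorem root {a1 a2 : ℝ} (p1 : 1 ≤ a1) (p2 : 1 ≤ a2) (X : V) :
    ∃ x, 0 ≤ x ∧ x ^ 2 = al a1 a2 X X ∧ ‖X‖ ≤ x ∧ al 1 1 X X ≤ x ^ 2 := by
  have h := norm_le_al zero_le_one p1 p2 X
  have h0 : 0 ≤ al a1 a2 X X := le_trans (by positivity) h
  refine ⟨_, Real.sqrt_nonneg _, Real.sq_sqrt h0, Real.le_sqrt_of_sq_le (by linarith), ?_⟩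
  rw [Real.sq_sqrt h0, al_self, al_self]
  gcongr

theorem err2 {Λ τ P x y e : ℝ} {u v : E} (h1 : 0 ≤ Λ) (h2 : 0 ≤ τ) (h3 : 0 ≤ P) (hx : ‖u.1‖ ≤ x)
    (hy : ‖v.1‖ ≤ y) (he : |e| ≤ 16 * (Λ * P * ‖u.1‖ * ‖v.1‖ * (‖u.1‖ * ‖v.2‖ + ‖v.1‖ * ‖u.2‖))
        + 4 * (Λ ^ 2 * τ * ‖u.1‖ ^ 2 * ‖v.1‖ ^ 2)) :
    |e| ≤ 16 * (Λ * P * (x * y) * (x * ‖v.2‖ + y * ‖u.2‖)) + 4 * (Λ ^ 2 * τ * (x * y) ^ 2) := by
  have x0 := (norm_nonneg _).trans hx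
  have y0 := (norm_nonneg _).trans hy
  refine he.trans ?_
  calc _ ≤ 16 * (Λ * P * x * y * (x * ‖v.2‖ + y * ‖u.2‖)) + 4 * (Λ ^ 2 * τ * x ^ 2 * y ^ 2) := by
        gcongr
    _ = _ := by ring

theorem Kpos {Λ A K τ P Q1 Q2 μ ν : ℝ} (g : Good Λ A K τ P Q1 Q2 μ ν) (hΛ : 1 ≤ Λ) :
    0 < K ∧ 0 < Q2 := by
  have K0 : 0 < K := (pos_iff_pos_of_mul_pos (lt_of_lt_of_le (by linarith [g.hA, g.hτ]) g.k2)).2 g.hμ
  exact ⟨K0, (pos_iff_pos_of_mul_pos (lt_of_lt_of_le one_pos g.k3)).1 K0⟩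

theorem sq_le {c d a b : ℝ} (ha : 0 ≤ a) (hb : 0 ≤ b) (h : c ^ 2 + d ^ 2 = a ^ 2 * b ^ 2) :
    |c| ≤ a * b ∧ |d| ≤ a * b :=
  ⟨abs_le_of_sq_le_sq (by nlinarith [sq_nonneg d]) (mul_nonneg ha hb),
    abs_le_of_sq_le_sq (by nlinarith [sq_nonneg c]) (mul_nonneg ha hb)⟩

theorem amgm (x y a b : ℝ) : 2 * (x * y * (a * b)) ≤ (x * b) ^ 2 + (y * a) ^ 2 := by
  nlinarith [sq_nonneg (x * b - y * a)]

theorem mixlo {μ ν a1 a2 U1 U2 x y : ℝ} (hμ : 0 ≤ μ) (hν : 0 ≤ ν) (a10 : 0 ≤ a1) (a20 : 0 ≤ a2)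
    (w1 : μ ≤ U1 ∧ U1 ≤ μ + ν) (w2 : μ ≤ U2 ∧ U2 ≤ μ + ν) (u v : E) (h0 : al a1 a2 u.1 v.1 = 0)
    (x0 : 0 ≤ x) (y0 : 0 ≤ y) (hx : x ^ 2 = al a1 a2 u.1 u.1) (hy : y ^ 2 = al a1 a2 v.1 v.1) :
    μ * ((x * ‖v.2‖) ^ 2 + (y * ‖u.2‖) ^ 2)
      - 6 * μ * (|al a1 a2 u.1 (I • v.1)| * |(conj u.2 * v.2).im|)
      - 2 * ν * ((|al a1 a2 u.1 (I • v.1)| + x * y) * |(conj u.2 * v.2).im|) ≤
      TF (a1 * U1) (a2 * U2) u v := by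
  have yI : y ^ 2 = al a1 a2 (I • v.1) (I • v.1) := by rw [al_I, hy]
  have e1 : TF (a1 * U1) (a2 * U2) u v =
      μ * TF a1 a2 u v + TF (a1 * (U1 - μ)) (a2 * (U2 - μ)) u v := by
    simp only [TF, al]; ring
  have e2 : TF a1 a2 u v = (x * ‖v.2‖) ^ 2 + (y * ‖u.2‖) ^ 2
      - 6 * (al a1 a2 u.1 (I • v.1) * (conj u.2 * v.2).im) := by
    rw [TF, h0, ← hx, ← hy, ← Complex.sq_norm, ← Complex.sq_norm]; ring
  have e3 := TF_ge (mul_nonneg a10 (sub_nonneg.2 w1.1)) (mul_nonneg a20 (sub_nonneg.2 w2.1)) u v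
  have e4 : al (a1 * (U1 - μ)) (a2 * (U2 - μ)) u.1 (I • v.1) = ν / 2 * al a1 a2 u.1 (I • v.1)
      + al (a1 * (U1 - μ - ν / 2)) (a2 * (U2 - μ - ν / 2)) u.1 (I • v.1) := by
    simp only [al]; ring
  have k : ∀ a U : ℝ, 0 ≤ a → μ ≤ U ∧ U ≤ μ + ν → |a * (U - μ - ν / 2)| ≤ ν / 2 * a := by
    intro a U ha hU
    rw [mul_comm (ν / 2)]
    exact mul_abs_le (abs_of_nonneg ha).le (abs_le.2 ⟨by linarith [hU.1], by linarith [hU.2]⟩)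
  have e5 := mul_abs_le (al_abs a10 a20 (by positivity) (k _ _ a10 w1) (k _ _ a20 w2) x0 y0 hx yI)
    (le_refl |(conj u.2 * v.2).im|)
  have e6 := le_abs_self (al a1 a2 u.1 (I • v.1) * (conj u.2 * v.2).im)
  rw [abs_mul] at e6
  rw [e4] at e3
  rw [e1, e2]
  linarith [(abs_le.1 e5).2, mul_le_mul_of_nonneg_left e6 hμ, mul_le_mul_of_nonneg_left e6 hν]

theorem lowR {Λ A K τ P Q1 Q2 μ ν e x y na nb r c S T : ℝ} (g : Good Λ A K τ P Q1 Q2 μ ν)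
    (hΛ : 1 ≤ Λ) (x0 : 0 ≤ x) (y0 : 0 ≤ y) (r0 : 0 ≤ r) (r1 : r ≤ x * y) (c0 : 0 ≤ c)
    (c1 : c ≤ na * nb) (hS : (x * y) ^ 2 ≤ Λ ^ 2 * S)
    (hT : μ * ((x * nb) ^ 2 + (y * na) ^ 2) - 6 * μ * (r * c) - 2 * ν * ((r + x * y) * c) ≤ T)
    (he : e ≤ 16 * (Λ * P * (x * y) * (x * nb + y * na)) + 4 * (Λ ^ 2 * τ * (x * y) ^ 2)) :
    ((P + A / (4 * Λ ^ 2)) * (x * y) ^ 2 + μ * P * ((x * nb) ^ 2 + (y * na) ^ 2)
      + Q2 * (P * c) ^ 2) / 50 ≤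
      4 * (A * S + P * ((x * y) ^ 2 + 3 * r ^ 2) + P * T + 2 * Q2 * (P * c) ^ 2) - e := by
  have hP := g.hP
  have hμ := g.hμ
  have A0 : 0 < A := by linarith [g.hA]
  have Q0 := (Kpos g hΛ).2
  have s1 : A / (4 * Λ ^ 2) * ((x * y) ^ 2 + 3 * r ^ 2) ≤ A * S := by
    rw [div_mul_eq_mul_div, div_le_iff₀ (by positivity), mul_assoc]
    refine mul_le_mul_of_nonneg_left ?_ A0.le
    linarith [pow_le_pow_left₀ r0 r1 2]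
  have B1 : 2 * (x * y * c) ≤ (x * nb) ^ 2 + (y * na) ^ 2 := by
    linarith [amgm x y na nb, mul_le_mul_of_nonneg_left c1 (mul_nonneg x0 y0)]
  have Pt0 : 0 < P + A / (4 * Λ ^ 2) := by positivity
  have s3 := low1 Pt0 hP.le hμ.le g.hν r0 r1 c0 g.key
  have s4 := low2 (q := x * y) (a := x * nb) (b := y * na) hP hμ g.e1
  have s5 := mul_le_mul_of_nonneg_right g.e2 (sq_nonneg (x * y))
  have s6 := mul_le_mul_of_nonneg_left hT hP.le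
  have s7 := mul_le_mul_of_nonneg_left B1 (mul_pos hμ hP).le
  have t1 : 0 ≤ (P + A / (4 * Λ ^ 2)) * r ^ 2 := by positivity
  have t2 : 0 ≤ Q2 * (P * c) ^ 2 := by positivity
  generalize A / (4 * Λ ^ 2) = R at *
  linarith

theorem areaR {Λ A K τ P Q1 Q2 μ ν x y na nb c1 c2 hX hY h : ℝ} (g : Good Λ A K τ P Q1 Q2 μ ν)
    (hΛ : 1 ≤ Λ) (na0 : 0 ≤ na) (nb0 : 0 ≤ nb) (hc : c1 ^ 2 + c2 ^ 2 = na ^ 2 * nb ^ 2)
    (X0 : 0 ≤ hX) (Y0 : 0 ≤ hY) (X1 : hX ≤ (A + τ) * x ^ 2) (Y1 : hY ≤ (A + τ) * y ^ 2)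
    (hh : |h| ≤ (A + τ) * (x * y)) :
    4 * (hX + P * na ^ 2) * (4 * (hY + P * nb ^ 2)) - (4 * (h + P * c1)) ^ 2 ≤ 1600 * K *
      (((P + A / (4 * Λ ^ 2)) * (x * y) ^ 2 + μ * P * ((x * nb) ^ 2 + (y * na) ^ 2)
      + Q2 * (P * |c2|) ^ 2) / 50) := by
  have hP := g.hP
  have hτ := g.hτ
  have A0 : 0 < A := by linarith [g.hA]
  obtain ⟨K0, Q0⟩ := Kpos g hΛ
  have v1 : hX * hY ≤ K * ((P + A / (4 * Λ ^ 2)) * (x * y) ^ 2) := by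
    calc _ ≤ ((A + τ) * x ^ 2) * ((A + τ) * y ^ 2) := by gcongr
      _ = (A + τ) ^ 2 * (x * y) ^ 2 := by ring
      _ ≤ K * (P + A / (4 * Λ ^ 2)) * (x * y) ^ 2 := by gcongr; exact g.k1
      _ = _ := by ring
  have v2 : hX * nb ^ 2 + hY * na ^ 2 ≤ (A + τ) * ((x * nb) ^ 2 + (y * na) ^ 2) := by
    calc _ ≤ ((A + τ) * x ^ 2) * nb ^ 2 + ((A + τ) * y ^ 2) * na ^ 2 := by gcongr
      _ = _ := by ring
  have v3 : -(2 * (h * c1)) ≤ (A + τ) * ((x * nb) ^ 2 + (y * na) ^ 2) := by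
    linarith [(abs_le.1 (mul_abs_le hh (sq_le na0 nb0 hc).1)).1,
      mul_le_mul_of_nonneg_left (amgm x y na nb) (add_pos A0 hτ).le]
  have v4 := mul_le_mul_of_nonneg_right g.k2 (show 0 ≤ (x * nb) ^ 2 + (y * na) ^ 2 by positivity)
  have v5 := mul_le_mul_of_nonneg_right g.k3 (sq_nonneg (P * |c2|))
  have v6 : (P * |c2|) ^ 2 = P ^ 2 * (na ^ 2 * nb ^ 2 - c1 ^ 2) := by
    rw [mul_pow, sq_abs, ← hc]; ring
  have v7 := mul_le_mul_of_nonneg_left (v2.trans v4) hP.le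
  have v8 := mul_le_mul_of_nonneg_left (v3.trans v4) hP.le
  have v9 : 0 ≤ K * (Q2 * (P * |c2|) ^ 2) := by positivity
  have v10 : 0 ≤ K * ((P + A / (4 * Λ ^ 2)) * (x * y) ^ 2) := by positivity
  generalize A / (4 * Λ ^ 2) = R at *
  generalize (P * |c2|) ^ 2 = Z at *
  linarith [sq_nonneg h]

theorem lower {Λ A K τ P Q1 Q2 μ ν a1 a2 U1 U2 e : ℝ} (g : Good Λ A K τ P Q1 Q2 μ ν) (hΛ : 1 ≤ Λ)
    (h1 : 1 ≤ a1 ∧ a1 ≤ Λ) (h2 : 1 ≤ a2 ∧ a2 ≤ Λ) (w1 : μ ≤ U1 ∧ U1 ≤ μ + ν)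
    (w2 : μ ≤ U2 ∧ U2 ≤ μ + ν) (u v : E) (h0 : al a1 a2 u.1 v.1 = 0)
    (he : |e| ≤ 16 * (Λ * P * ‖u.1‖ * ‖v.1‖ * (‖u.1‖ * ‖v.2‖ + ‖v.1‖ * ‖u.2‖))
        + 4 * (Λ ^ 2 * τ * ‖u.1‖ ^ 2 * ‖v.1‖ ^ 2)) :
    GG (A + τ * a1) (A + τ * a2) P u u * GG (A + τ * a1) (A + τ * a2) P v v
      - GG (A + τ * a1) (A + τ * a2) P u v ^ 2 ≤ 1600 * K *
      (4 * (A * SS 1 1 u.1 v.1 + P * SS a1 a2 u.1 v.1 + P * TF (a1 * U1) (a2 * U2) u v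
        + 2 * P ^ 2 * Q2 * (conj u.2 * v.2).im ^ 2) - e) := by
  obtain ⟨x, x0, hx, x1, x2⟩ := root h1.1 h2.1 u.1
  obtain ⟨y, y0, hy, y1, y2⟩ := root h1.1 h2.1 v.1
  have hτ := g.hτ
  have A0 : 0 < A := by linarith [g.hA]
  have a10 : 0 ≤ a1 := by linarith [h1.1]
  have a20 : 0 ≤ a2 := by linarith [h2.1]
  have he' := (abs_le.1 (err2 (by linarith) hτ.le g.hP.le x1 y1 he)).2
  have K0 := (Kpos g hΛ).1
  have hc := cc u.2 v.2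
  have r1 : |al a1 a2 u.1 (I • v.1)| ≤ x * y := by
    simpa using al_abs (c := 1) a10 a20 zero_le_one (by simp [abs_of_nonneg a10])
      (by simp [abs_of_nonneg a20]) x0 y0 hx (Y := I • v.1) (by rw [al_I, hy])
  have eS : SS a1 a2 u.1 v.1 = (x * y) ^ 2 + 3 * |al a1 a2 u.1 (I • v.1)| ^ 2 := by
    rw [SS, h0, ← hx, ← hy, sq_abs]; ring
  have s1 := gram a10 a20 h1.2 h2.2 u.1 v.1
  rw [h0, ← hx, ← hy, ← mul_pow, zero_pow two_ne_zero, sub_zero] at s1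
  have main := lowR g hΛ x0 y0 (abs_nonneg _) r1 (abs_nonneg _)
    (sq_le (norm_nonneg _) (norm_nonneg _) hc).2 s1
    (mixlo g.hμ.le g.hν a10 a20 w1 w2 u v h0 x0 y0 hx hy) he'
  have e2 : 2 * P ^ 2 * Q2 * (conj u.2 * v.2).im ^ 2 = 2 * Q2 * (P * |(conj u.2 * v.2).im|) ^ 2 := by
    rw [mul_pow, sq_abs]; ring
  rw [eS, e2]
  refine le_trans ?_ (mul_le_mul_of_nonneg_left main (by positivity))
  have k : ∀ (X : V) (x : ℝ), x ^ 2 = al a1 a2 X X → al 1 1 X X ≤ x ^ 2 →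
      al (A + τ * a1) (A + τ * a2) X X ≤ (A + τ) * x ^ 2 := fun X x p1 p2 => by
    rw [al_split, ← p1]
    linarith [mul_le_mul_of_nonneg_left p2 A0.le]
  have k2 : ∀ a : ℝ, 1 ≤ a → |A + τ * a| ≤ (A + τ) * a := fun a ha => by
    rw [abs_of_nonneg (by positivity)]
    linarith [mul_le_mul_of_nonneg_left ha A0.le]
  simp only [GG, cself]
  exact areaR g hΛ (norm_nonneg _) (norm_nonneg _) hc (by rw [al_self]; positivity)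
    (by rw [al_self]; positivity) (k _ _ hx x2) (k _ _ hy y2)
    (al_abs a10 a20 (by positivity) (k2 _ h1.1) (k2 _ h2.1) x0 y0 hx hy)

theorem SS_le {a1 a2 x y : ℝ} {X Y : V} (p1 : 0 ≤ a1) (p2 : 0 ≤ a2) (x0 : 0 ≤ x) (y0 : 0 ≤ y)
    (hx : x ^ 2 = al a1 a2 X X) (hy : y ^ 2 = al a1 a2 Y Y) : SS a1 a2 X Y ≤ 4 * (x * y) ^ 2 := by
  have := al_abs (c := 1) (m1 := a1) (m2 := a2) p1 p2 zero_le_one (by simp [abs_of_nonneg p1])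
    (by simp [abs_of_nonneg p2]) x0 y0 hx (Y := I • Y) (by rw [al_I, hy])
  have := pow_le_pow_left₀ (abs_nonneg _) this 2
  rw [sq_abs] at this
  rw [SS, ← hx, ← hy]
  linarith [sq_nonneg (al a1 a2 X Y)]

theorem mixup {m a1 a2 U1 U2 x y : ℝ} (m0 : 0 ≤ m) (a10 : 0 ≤ a1) (a20 : 0 ≤ a2)
    (w1 : |U1| ≤ m) (w2 : |U2| ≤ m) (u v : E)
    (x0 : 0 ≤ x) (y0 : 0 ≤ y) (hx : x ^ 2 = al a1 a2 u.1 u.1) (hy : y ^ 2 = al a1 a2 v.1 v.1) :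
    TF (a1 * U1) (a2 * U2) u v ≤ 5 * (m * ((x * ‖v.2‖) ^ 2 + (y * ‖u.2‖) ^ 2)) := by
  have k : ∀ a U : ℝ, 0 ≤ a → |U| ≤ m → |a * U| ≤ m * a := by
    intro a U ha hU
    rw [mul_comm m]
    exact mul_abs_le (abs_of_nonneg ha).le hU
  obtain ⟨c1le, c2le⟩ := sq_le (norm_nonneg _) (norm_nonneg _) (cc u.2 v.2)
  have k1 := (abs_le.1 (al_abs a10 a20 m0 (k _ _ a10 w1) (k _ _ a20 w2) x0 x0 hx hx)).2
  have k2 := (abs_le.1 (al_abs a10 a20 m0 (k _ _ a10 w1) (k _ _ a20 w2) y0 y0 hy hy)).2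
  have k3 := (abs_le.1 (mul_abs_le
    (al_abs a10 a20 m0 (k _ _ a10 w1) (k _ _ a20 w2) x0 y0 hx hy) c1le)).1
  have k4 := (abs_le.1 (mul_abs_le (al_abs a10 a20 m0 (k _ _ a10 w1) (k _ _ a20 w2) x0 y0 hx
    (Y := I • v.1) (by rw [al_I, hy])) c2le)).1
  have k5 := mul_le_mul_of_nonneg_right k1 (sq_nonneg ‖v.2‖)
  have k6 := mul_le_mul_of_nonneg_right k2 (sq_nonneg ‖u.2‖)
  have k8 := mul_le_mul_of_nonneg_left (amgm x y ‖u.2‖ ‖v.2‖) m0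
  rw [TF, ← Complex.sq_norm, ← Complex.sq_norm]
  linarith

theorem upR {Λ A K τ P Q1 Q2 μ ν e x y na nb c S S' T hX hY : ℝ} (g : Good Λ A K τ P Q1 Q2 μ ν)
    (hΛ : 1 ≤ Λ) (hc : c ^ 2 ≤ na ^ 2 * nb ^ 2) (bX : (1 + τ) * x ^ 2 ≤ hX)
    (bY : (1 + τ) * y ^ 2 ≤ hY) (u1 : A * S ≤ 4 * (hX * hY)) (hS : S' ≤ 4 * (x * y) ^ 2)
    (hT : T ≤ 5 * ((μ + ν) * ((x * nb) ^ 2 + (y * na) ^ 2)))
    (he : -(16 * (Λ * P * (x * y) * (x * nb + y * na)) + 4 * (Λ ^ 2 * τ * (x * y) ^ 2)) ≤ e) :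
    4 * (A * S + P * S' + P * T + 2 * P ^ 2 * Q2 * c ^ 2) - e ≤
      (4 + 5 * K + 4 * Λ * K + 2 * Λ + Λ ^ 2) *
      (4 * (hX + P * na ^ 2) * (4 * (hY + P * nb ^ 2))) := by
  have hτ := g.hτ
  have hP := g.hP
  obtain ⟨K0, Q0⟩ := Kpos g hΛ
  have hX0 : 0 ≤ hX := le_trans (by positivity) bX
  have hY0 : 0 ≤ hY := le_trans (by positivity) bY
  have u0 : (1 + τ) ^ 2 * (x * y) ^ 2 ≤ hX * hY := by
    calc _ = ((1 + τ) * x ^ 2) * ((1 + τ) * y ^ 2) := by ring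
      _ ≤ _ := by gcongr
  have u2 : P * (x * y) ^ 2 ≤ K * (hX * hY) := by
    calc _ ≤ K * (1 + τ) ^ 2 * (x * y) ^ 2 := by gcongr; exact g.k4
      _ = K * ((1 + τ) ^ 2 * (x * y) ^ 2) := by ring
      _ ≤ _ := by gcongr
  have u3 : τ * (x * y) ^ 2 ≤ hX * hY :=
    le_trans (mul_le_mul_of_nonneg_right (by nlinarith) (sq_nonneg _)) u0
  have u4 := mul_le_mul_of_nonneg_left hS hP.le
  have B0 : 0 ≤ (x * nb) ^ 2 + (y * na) ^ 2 := by positivity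
  have b1 : (1 + τ) * ((x * nb) ^ 2 + (y * na) ^ 2) ≤ hX * nb ^ 2 + hY * na ^ 2 := by
    calc _ = ((1 + τ) * x ^ 2) * nb ^ 2 + ((1 + τ) * y ^ 2) * na ^ 2 := by ring
      _ ≤ _ := by gcongr
  have b2 : (x * nb) ^ 2 + (y * na) ^ 2 ≤ hX * nb ^ 2 + hY * na ^ 2 := by
    linarith [mul_nonneg hτ.le B0]
  have k9 : (μ + ν) * ((x * nb) ^ 2 + (y * na) ^ 2) ≤ K * (hX * nb ^ 2 + hY * na ^ 2) := by
    calc _ ≤ K * (1 + τ) * ((x * nb) ^ 2 + (y * na) ^ 2) := by gcongr; exact g.k5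
      _ = K * ((1 + τ) * ((x * nb) ^ 2 + (y * na) ^ 2)) := by ring
      _ ≤ _ := by gcongr
  have u6 : Q2 * c ^ 2 ≤ K * (na ^ 2 * nb ^ 2) := mul_le_mul g.k6 hc (sq_nonneg _) K0.le
  have u7 : 4 * (x * y * (x * nb + y * na)) ≤
      4 * (x * y) ^ 2 + 2 * ((x * nb) ^ 2 + (y * na) ^ 2) := by
    linarith [sq_nonneg (x * y - x * nb), sq_nonneg (x * y - y * na)]
  have Λ0 : 0 ≤ Λ := by linarith
  have z1 := mul_le_mul_of_nonneg_left u7 (mul_nonneg Λ0 hP.le)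
  have z2 := mul_le_mul_of_nonneg_left u2 Λ0
  have z3 := mul_le_mul_of_nonneg_left u3 (sq_nonneg Λ)
  have z4 := mul_le_mul_of_nonneg_left (hT.trans (mul_le_mul_of_nonneg_left k9 (by norm_num))) hP.le
  have z5 := mul_le_mul_of_nonneg_left u6 (sq_nonneg P)
  have z6 := mul_le_mul_of_nonneg_left b2 (mul_nonneg Λ0 hP.le)
  have fin : 4 * (A * S + P * S' + P * T + 2 * P ^ 2 * Q2 * c ^ 2) - e ≤
      4 * ((4 + 4 * K + 4 * Λ * K + Λ ^ 2) * (hX * hY)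
        + (5 * K + 2 * Λ) * (P * (hX * nb ^ 2 + hY * na ^ 2))
        + 2 * K * (P ^ 2 * (na ^ 2 * nb ^ 2))) := by
    linarith
  refine fin.trans ?_
  have e3 : 4 * (hX + P * na ^ 2) * (4 * (hY + P * nb ^ 2)) = 16 * (hX * hY
      + P * (hX * nb ^ 2 + hY * na ^ 2) + P ^ 2 * (na ^ 2 * nb ^ 2)) := by ring
  rw [e3]
  have T10 : 0 ≤ hX * hY := by positivity
  have T20 : 0 ≤ P * (hX * nb ^ 2 + hY * na ^ 2) := by positivity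
  have T30 : 0 ≤ P ^ 2 * (na ^ 2 * nb ^ 2) := by positivity
  generalize hX * hY = T1 at T10 ⊢
  generalize P * (hX * nb ^ 2 + hY * na ^ 2) = T2 at T20 ⊢
  generalize P ^ 2 * (na ^ 2 * nb ^ 2) = T3 at T30 ⊢
  have ΛK : 0 ≤ Λ * K := by positivity
  linarith [mul_nonneg K0.le T10, mul_nonneg K0.le T20, mul_nonneg K0.le T30,
    mul_nonneg Λ0 T10, mul_nonneg Λ0 T20, mul_nonneg Λ0 T30, mul_nonneg ΛK T10,
    mul_nonneg ΛK T20, mul_nonneg ΛK T30, mul_nonneg (sq_nonneg Λ) T10,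
    mul_nonneg (sq_nonneg Λ) T20, mul_nonneg (sq_nonneg Λ) T30]

theorem upper {Λ A K τ P Q1 Q2 μ ν a1 a2 U1 U2 e : ℝ} (g : Good Λ A K τ P Q1 Q2 μ ν) (hΛ : 1 ≤ Λ)
    (h1 : 1 ≤ a1 ∧ a1 ≤ Λ) (h2 : 1 ≤ a2 ∧ a2 ≤ Λ) (w1 : μ ≤ U1 ∧ U1 ≤ μ + ν)
    (w2 : μ ≤ U2 ∧ U2 ≤ μ + ν) (u v : E)
    (he : |e| ≤ 16 * (Λ * P * ‖u.1‖ * ‖v.1‖ * (‖u.1‖ * ‖v.2‖ + ‖v.1‖ * ‖u.2‖))
        + 4 * (Λ ^ 2 * τ * ‖u.1‖ ^ 2 * ‖v.1‖ ^ 2)) :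
    4 * (A * SS 1 1 u.1 v.1 + P * SS a1 a2 u.1 v.1 + P * TF (a1 * U1) (a2 * U2) u v
        + 2 * P ^ 2 * Q2 * (conj u.2 * v.2).im ^ 2) - e ≤
      (4 + 5 * K + 4 * Λ * K + 2 * Λ + Λ ^ 2) *
      (GG (A + τ * a1) (A + τ * a2) P u u * GG (A + τ * a1) (A + τ * a2) P v v) := by
  obtain ⟨x, x0, hx, x1, x2⟩ := root h1.1 h2.1 u.1
  obtain ⟨y, y0, hy, y1, y2⟩ := root h1.1 h2.1 v.1
  obtain ⟨x', x0', hx', -⟩ := root le_rfl le_rfl u.1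
  obtain ⟨y', y0', hy', -⟩ := root le_rfl le_rfl v.1
  have hτ := g.hτ
  have hμ := g.hμ
  have hν := g.hν
  have A1 : 1 ≤ A := by linarith [g.hA]
  have a10 : 0 ≤ a1 := by linarith [h1.1]
  have a20 : 0 ≤ a2 := by linarith [h2.1]
  have he' := (abs_le.1 (err2 (by linarith) hτ.le g.hP.le x1 y1 he)).1
  have kL : ∀ X : V, al a1 a2 X X ≤ A * al 1 1 X X := fun X => by
    rw [al_self, al_self]
    linarith [mul_le_mul_of_nonneg_right (h1.2.trans g.hA) (sq_nonneg ‖X.1‖),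
      mul_le_mul_of_nonneg_right (h2.2.trans g.hA) (sq_nonneg ‖X.2‖)]
  have eX := al_split A τ a1 a2 u.1 u.1
  have eY := al_split A τ a1 a2 v.1 v.1
  have lX := kL u.1
  have lY := kL v.1
  rw [← hx, ← hx'] at eX lX
  rw [← hy, ← hy'] at eY lY
  simp only [GG, cself]
  refine upR g hΛ (by linarith [cc u.2 v.2, sq_nonneg (conj u.2 * v.2).re]) (by linarith)
    (by linarith) ?_ (SS_le a10 a20 x0 y0 hx hy) (mixup (by positivity) a10 a20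
      (abs_le.2 ⟨by linarith [w1.1], w1.2⟩) (abs_le.2 ⟨by linarith [w2.1], w2.2⟩) u v x0 y0 hx hy) he'
  have k1 := SS_le zero_le_one zero_le_one x0' y0' hx' hy'
  rw [eX, eY]
  calc _ ≤ A * (4 * (x' * y') ^ 2) := by gcongr
    _ = 4 * (A * x' ^ 2 * (1 * y' ^ 2)) := by ring
    _ ≤ 4 * ((A * x' ^ 2 + τ * x ^ 2) * (A * y' ^ 2)) := by
      gcongr
      exact le_add_of_nonneg_right (by positivity)
    _ ≤ _ := by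
      gcongr
      exact le_add_of_nonneg_right (by positivity)

end Xx

end Vale.Agent.P250
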